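import Vale.Agent.Lib.P254.Simplex

/-!
# P254: polytopes with at most `n + 2` vertices

A polytope in `ℝ^n` with nonempty interior and at most `n + 2` vertices is either a simplex or an
affine image of a free sum of two translated simplices, glued at a point in the relative interior
of a face of positive dimension of each; in the second case its isotropic constant is strictly
smaller than that of the simplex.
-/

namespace Vale.Agent.Lib.P254

open MeasureTheory Matrix Set
open scoped Pointwise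

set_option linter.unusedSectionVars false
set_option linter.deprecated false
set_option linter.unusedVariables false

noncomputable section

/-- a point that is a convex combination of the others can be dropped -/
lemma drop_vertex {N E : Type*} [Fintype N] [DecidableEq N] [AddCommGroup E] [Module ℝ E]
    (p : N → E) (w : N → ℝ) (hw0 : ∑ i, w i = 0) (hwp : ∑ i, w i • p i = 0) (j₀ : N)
    (hj : w j₀ < 0) (hrest : ∀ i, i ≠ j₀ → 0 ≤ w i) :
    convexHull ℝ (Set.range p) = convexHull ℝ (p '' {j | j ≠ j₀}) := by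
  apply Set.Subset.antisymm
  · apply convexHull_min _ (convex_convexHull ℝ _)
    rintro _ ⟨i, rfl⟩
    by_cases hi : i = j₀
    · subst hi
      have h1 : w i • p i + ∑ k ∈ Finset.univ.erase i, w k • p k = 0 := by
        rw [Finset.add_sum_erase Finset.univ (fun k => w k • p k) (Finset.mem_univ i)]
        exact hwp
      have h2 : w i + ∑ k ∈ Finset.univ.erase i, w k = 0 := by
        rw [Finset.add_sum_erase Finset.univ w (Finset.mem_univ i)]
        exact hw0
      have hpi : p i = ∑ k ∈ Finset.univ.erase i, (w k / (-w i)) • p k := by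
        have h3 : ∑ k ∈ Finset.univ.erase i, (w k / (-w i)) • p k =
            (-w i)⁻¹ • ∑ k ∈ Finset.univ.erase i, w k • p k := by
          rw [Finset.smul_sum]
          refine Finset.sum_congr rfl fun k _ => ?_
          rw [smul_smul, div_eq_inv_mul]
        have h4 : ∑ k ∈ Finset.univ.erase i, w k • p k = (-w i) • p i := by
          rw [neg_smul]; exact eq_neg_of_add_eq_zero_right h1
        rw [h3, h4, smul_smul, inv_mul_cancel₀ (neg_pos.2 hj).ne', one_smul]
      rw [hpi]
      apply (convex_convexHull ℝ _).sum_mem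
      · intro k hk
        exact div_nonneg (hrest k (Finset.ne_of_mem_erase hk)) (neg_pos.2 hj).le
      · rw [← Finset.sum_div, div_eq_one_iff_eq (neg_pos.2 hj).ne']; linarith
      · intro k hk
        exact subset_convexHull ℝ _ ⟨k, Finset.ne_of_mem_erase hk, rfl⟩
    · exact subset_convexHull ℝ _ ⟨i, hi, rfl⟩
  · exact convexHull_mono (Set.image_subset_range _ _)

/-- indices with negative weight -/
abbrev NegT {N : Type*} (w : N → ℝ) := {i : N // w i < 0}

/-- indices with nonnegative weight -/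
abbrev PosT {N : Type*} (w : N → ℝ) := {i : N // ¬ w i < 0}

/-- indices with negative weight other than a given one -/
abbrev NegR {N : Type*} (w : N → ℝ) (j : NegT w) := {x : NegT w // x ≠ j}

/-- indices with nonnegative weight other than a given one -/
abbrev PosR {N : Type*} (w : N → ℝ) (i : PosT w) := {x : PosT w // x ≠ i}

/-- the index set splits into the two chosen indices and the two remainders -/
def splitEquiv {N : Type*} [DecidableEq N] (w : N → ℝ) (j : NegT w) (i : PosT w) :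
    Option (NegR w j) ⊕ Option (PosR w i) ≃ N :=
  (Equiv.sumCongr (Equiv.optionSubtypeNe j) (Equiv.optionSubtypeNe i)).trans
    (Equiv.sumCompl (fun i => w i < 0))

lemma split_sum {N M : Type*} [Fintype N] [DecidableEq N] [AddCommMonoid M] (w : N → ℝ)
    (j : NegT w) (i : PosT w) (f : N → M) :
    ∑ x, f x = (f j.1 + ∑ b : NegR w j, f b.1.1) + (f i.1 + ∑ a : PosR w i, f a.1.1) := by
  rw [← Equiv.sum_comp (splitEquiv w j i), Fintype.sum_sum_type, Fintype.sum_option,
    Fintype.sum_option]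
  rfl

/-- `n + 2` points affinely spanning `ℝ^n`: either one of them is redundant, or the convex hull
has isotropic constant strictly below that of the simplex. -/
theorem few_core {N τ : Type*} [Fintype N] [DecidableEq N] [Fintype τ] [DecidableEq τ]
    (p : N → τ → ℝ) (hcard : Fintype.card N = Fintype.card τ + 2)
    (hspan : affineSpan ℝ (Set.range p) = ⊤) :
    (∃ i, convexHull ℝ (Set.range p) = convexHull ℝ (p '' {j | j ≠ i})) ∨
      isoPow (convexHull ℝ (Set.range p)) < simplexPow (Fintype.card τ) := by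
  have hdep : ¬ AffineIndependent ℝ p := by
    intro h
    have h1 := h.card_le_finrank_succ
    have h2 : Module.finrank ℝ (vectorSpan ℝ (Set.range p)) ≤ Fintype.card τ := by
      have h3 := Submodule.finrank_le (vectorSpan ℝ (Set.range p))
      rwa [Module.finrank_fintype_fun_eq_card] at h3
    omega
  obtain ⟨w, hw0, hwv, i₁, hi₁⟩ : ∃ w : N → ℝ, ∑ i, w i = 0 ∧
      Finset.univ.weightedVSub p w = (0 : τ → ℝ) ∧ ∃ i, w i ≠ 0 := by
    by_contra hcon
    apply hdep
    rw [affineIndependent_iff_of_fintype]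
    intro w h1 h2 i
    by_contra hi
    exact hcon ⟨w, h1, h2, i, hi⟩
  have hwp : ∑ i, w i • p i = 0 := by
    rw [Finset.weightedVSub_eq_linear_combination _ hw0] at hwv; exact hwv
  by_cases hA : ∃ j, w j < 0 ∧ ∀ i, i ≠ j → 0 ≤ w i
  · obtain ⟨j, hj, hrest⟩ := hA
    exact Or.inl ⟨j, drop_vertex p w hw0 hwp j hj hrest⟩
  by_cases hB : ∃ j, 0 < w j ∧ ∀ i, i ≠ j → w i ≤ 0
  · obtain ⟨j, hj, hrest⟩ := hB
    exact Or.inl ⟨j, drop_vertex p (fun i => -w i) (by simp [hw0]) (by simp [hwp]) j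
      (by simpa using hj) (fun i hi => by simpa using hrest i hi)⟩
  right
  have hneg : ∃ j, w j < 0 := by
    by_contra hcon
    have hall : ∀ i, 0 ≤ w i := fun i => not_lt.1 (fun h => hcon ⟨i, h⟩)
    exact hi₁ ((Finset.sum_eq_zero_iff_of_nonneg (fun i _ => hall i)).1 hw0 i₁
      (Finset.mem_univ _))
  have hposx : ∃ j, 0 < w j := by
    by_contra hcon
    have hall : ∀ i, w i ≤ 0 := fun i => not_lt.1 (fun h => hcon ⟨i, h⟩)
    exact hi₁ ((Finset.sum_eq_zero_iff_of_nonpos (fun i _ => hall i)).1 hw0 i₁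
      (Finset.mem_univ _))
  obtain ⟨j₀, hj₀⟩ := hneg
  obtain ⟨i₀, hi₀⟩ := hposx
  obtain ⟨j₁, hj₁ne, hj₁⟩ : ∃ j₁, j₁ ≠ j₀ ∧ w j₁ < 0 := by
    by_contra hcon
    exact hA ⟨j₀, hj₀, fun i hi => not_lt.1 (fun h => hcon ⟨i, hi, h⟩)⟩
  obtain ⟨i₂, hi₂ne, hi₂⟩ : ∃ i₂, i₂ ≠ i₀ ∧ 0 < w i₂ := by
    by_contra hcon
    exact hB ⟨i₀, hi₀, fun i hi => not_lt.1 (fun h => hcon ⟨i, hi, h⟩)⟩
  set jn : NegT w := ⟨j₀, hj₀⟩ with hjn
  set ip : PosT w := ⟨i₀, not_lt.2 hi₀.le⟩ with hip
  -- the four sums over the two remainders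
  obtain ⟨sA, hsA⟩ : ∃ sA : ℝ, sA = ∑ a : PosR w ip, w a.1.1 := ⟨_, rfl⟩
  obtain ⟨sB, hsB⟩ : ∃ sB : ℝ, sB = ∑ b : NegR w jn, w b.1.1 := ⟨_, rfl⟩
  obtain ⟨PA, hPA⟩ : ∃ PA : τ → ℝ, PA = ∑ a : PosR w ip, w a.1.1 • p a.1.1 := ⟨_, rfl⟩
  obtain ⟨PB, hPB⟩ : ∃ PB : τ → ℝ, PB = ∑ b : NegR w jn, w b.1.1 • p b.1.1 := ⟨_, rfl⟩
  have hs : (w j₀ + sB) + (w i₀ + sA) = 0 := by
    rw [hsA, hsB]
    exact (split_sum w jn ip w).symm.trans hw0
  have hv : (w j₀ • p j₀ + PB) + (w i₀ • p i₀ + PA) = 0 := by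
    rw [hPA, hPB]
    exact (split_sum w jn ip (fun x => w x • p x)).symm.trans hwp
  have hsA0 : 0 < sA := by
    rw [hsA]
    have hmem : (⟨⟨i₂, not_lt.2 hi₂.le⟩, fun h => hi₂ne (congrArg Subtype.val h)⟩ :
        PosR w ip) ∈ Finset.univ := Finset.mem_univ _
    have hle := Finset.single_le_sum (f := fun a : PosR w ip => w a.1.1)
      (fun a _ => not_lt.1 a.1.2) hmem
    exact lt_of_lt_of_le hi₂ hle
  have hsB0 : sB < 0 := by
    rw [hsB]
    have hmem : (⟨⟨j₁, hj₁⟩, fun h => hj₁ne (congrArg Subtype.val h)⟩ :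
        NegR w jn) ∈ Finset.univ := Finset.mem_univ _
    have hle := Finset.single_le_sum (f := fun b : NegR w jn => -w b.1.1)
      (fun b _ => (neg_pos.2 b.1.2).le) hmem
    rw [Finset.sum_neg_distrib] at hle
    have : 0 < -w j₁ := neg_pos.2 hj₁
    linarith
  obtain ⟨Λ, hΛdef⟩ : ∃ Λ : ℝ, Λ = w i₀ + sA := ⟨_, rfl⟩
  have hΛ : 0 < Λ := by rw [hΛdef]; linarith
  have hΛ' : Λ = -(w j₀ + sB) := by rw [hΛdef]; linarith
  set α : PosR w ip → ℝ := fun a => w a.1.1 / Λ with hαdef
  set β : NegR w jn → ℝ := fun b => -w b.1.1 / Λ with hβdef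
  have hα : ∀ a, 0 ≤ α a := fun a => div_nonneg (not_lt.1 a.1.2) hΛ.le
  have hβ : ∀ b, 0 ≤ β b := fun b => div_nonneg (neg_pos.2 b.1.2).le hΛ.le
  have hαsum : ∑ a, α a = sA / Λ := by rw [hsA, Finset.sum_div]
  have hβsum : ∑ b, β b = -sB / Λ := by
    rw [hsB, ← Finset.sum_neg_distrib, Finset.sum_div]
  have hαp : 0 < ∑ a, α a := by rw [hαsum]; exact div_pos hsA0 hΛ
  have hαl : ∑ a, α a < 1 := by
    rw [hαsum, div_lt_one hΛ, hΛdef]; linarith
  have hβp : 0 < ∑ b, β b := by rw [hβsum]; exact div_pos (neg_pos.2 hsB0) hΛ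
  have hβl : ∑ b, β b < 1 := by
    rw [hβsum, div_lt_one hΛ, hΛ']; linarith
  have hL : ∑ a : PosR w ip, α a • (p a.1.1 - p i₀) = Λ⁻¹ • (PA - sA • p i₀) := by
    calc ∑ a : PosR w ip, α a • (p a.1.1 - p i₀)
        = ∑ a : PosR w ip, Λ⁻¹ • (w a.1.1 • p a.1.1 - w a.1.1 • p i₀) :=
          Finset.sum_congr rfl fun a _ => by
            rw [hαdef]
            simp only
            rw [div_eq_inv_mul, mul_smul, smul_sub]
      _ = Λ⁻¹ • ∑ a : PosR w ip, (w a.1.1 • p a.1.1 - w a.1.1 • p i₀) :=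
          Finset.smul_sum.symm
      _ = Λ⁻¹ • (PA - sA • p i₀) := by
          rw [Finset.sum_sub_distrib, ← Finset.sum_smul, ← hPA, ← hsA]
  have hR : ∑ b : NegR w jn, β b • (p b.1.1 - p j₀) = Λ⁻¹ • (sB • p j₀ - PB) := by
    calc ∑ b : NegR w jn, β b • (p b.1.1 - p j₀)
        = ∑ b : NegR w jn, Λ⁻¹ • (w b.1.1 • p j₀ - w b.1.1 • p b.1.1) :=
          Finset.sum_congr rfl fun b _ => by
            rw [hβdef]
            simp only
            rw [div_eq_inv_mul, mul_smul, neg_smul, smul_sub, neg_sub]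
      _ = Λ⁻¹ • ∑ b : NegR w jn, (w b.1.1 • p j₀ - w b.1.1 • p b.1.1) :=
          Finset.smul_sum.symm
      _ = Λ⁻¹ • (sB • p j₀ - PB) := by
          rw [Finset.sum_sub_distrib, ← Finset.sum_smul, ← hPB, ← hsB]
  have e1 : p i₀ + Λ⁻¹ • (PA - sA • p i₀) = Λ⁻¹ • (w i₀ • p i₀ + PA) := by
    have h1 : p i₀ = Λ⁻¹ • (Λ • p i₀) := by
      rw [smul_smul, inv_mul_cancel₀ hΛ.ne', one_smul]
    nth_rewrite 1 [h1]
    rw [← smul_add]
    congr 1
    rw [hΛdef, add_smul]; abel
  have e2 : p j₀ + Λ⁻¹ • (sB • p j₀ - PB) = Λ⁻¹ • (-(w j₀ • p j₀) - PB) := by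
    have h1 : p j₀ = Λ⁻¹ • (Λ • p j₀) := by
      rw [smul_smul, inv_mul_cancel₀ hΛ.ne', one_smul]
    nth_rewrite 1 [h1]
    rw [← smul_add]
    congr 1
    rw [hΛ', neg_smul, add_smul]; abel
  have e3 : w i₀ • p i₀ + PA = -(w j₀ • p j₀) - PB := by
    rw [eq_neg_of_add_eq_zero_right hv]; abel
  have hc : p i₀ + ∑ a : PosR w ip, α a • (p a.1.1 - p i₀) =
      p j₀ + ∑ b : NegR w jn, β b • (p b.1.1 - p j₀) := by
    rw [hL, hR, e1, e2, e3]
  -- cardinalities
  have hcd := Fintype.card_congr (splitEquiv w jn ip)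
  rw [Fintype.card_sum, Fintype.card_option, Fintype.card_option] at hcd
  have hcard' : Fintype.card (PosR w ip ⊕ NegR w jn) = Fintype.card τ := by
    rw [Fintype.card_sum]; omega
  have e : PosR w ip ⊕ NegR w jn ≃ τ := Fintype.equivOfCardEq hcard'
  -- linear independence
  set d : PosR w ip ⊕ NegR w jn → τ → ℝ :=
    Sum.elim (fun a => p a.1.1 - p i₀) (fun b => p b.1.1 - p j₀) with hd
  have hLI : LinearIndependent ℝ d := by
    apply linearIndependent_of_top_le_span_of_card_eq_finrank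
    · have hvs : vectorSpan ℝ (Set.range p) = ⊤ := by
        rw [← direction_affineSpan, hspan, AffineSubspace.direction_top]
      rw [← hvs, vectorSpan_range_eq_span_range_vsub_right ℝ p i₀]
      apply Submodule.span_le.2
      have hin : ∀ a : PosR w ip, p a.1.1 - p i₀ ∈ Submodule.span ℝ (Set.range d) :=
        fun a => Submodule.subset_span ⟨Sum.inl a, rfl⟩
      have hjn' : ∀ b : NegR w jn, p b.1.1 - p j₀ ∈ Submodule.span ℝ (Set.range d) :=
        fun b => Submodule.subset_span ⟨Sum.inr b, rfl⟩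
      have hji : p j₀ - p i₀ ∈ Submodule.span ℝ (Set.range d) := by
        have h1 : p j₀ - p i₀ = ∑ a : PosR w ip, α a • (p a.1.1 - p i₀) -
            ∑ b : NegR w jn, β b • (p b.1.1 - p j₀) := by
          have h2 := hc.symm
          rw [← sub_eq_zero] at h2
          rw [← sub_eq_zero]
          rw [← h2]; abel
        rw [h1]
        exact Submodule.sub_mem _
          (Submodule.sum_mem _ fun a _ => Submodule.smul_mem _ _ (hin a))
          (Submodule.sum_mem _ fun b _ => Submodule.smul_mem _ _ (hjn' b))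
      rintro _ ⟨i, rfl⟩
      obtain ⟨x, rfl⟩ := (splitEquiv w jn ip).surjective i
      rcases x with (_ | b) | (_ | a)
      · exact hji
      · have h1 : p b.1.1 -ᵥ p i₀ = (p b.1.1 - p j₀) + (p j₀ - p i₀) := by
          rw [vsub_eq_sub]; abel
        show p b.1.1 -ᵥ p i₀ ∈ _
        rw [h1]
        exact Submodule.add_mem _ (hjn' b) hji
      · show p i₀ -ᵥ p i₀ ∈ _
        rw [vsub_self]
        exact Submodule.zero_mem _
      · exact hin a
    · rw [hcard', Module.finrank_fintype_fun_eq_card]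
  have hmodel := isoPow_model e (p i₀) (fun a : PosR w ip => p a.1.1) (p j₀)
    (fun b : NegR w jn => p b.1.1) α β hα hαp hαl hβ hβp hβl hc hLI
  have hset : insert (p i₀) (Set.range fun a : PosR w ip => p a.1.1) ∪
      insert (p j₀) (Set.range fun b : NegR w jn => p b.1.1) = Set.range p := by
    ext y
    constructor
    · rintro ((rfl | ⟨a, rfl⟩) | (rfl | ⟨b, rfl⟩)) <;> exact ⟨_, rfl⟩
    · rintro ⟨i, rfl⟩
      obtain ⟨x, rfl⟩ := (splitEquiv w jn ip).surjective i
      rcases x with (_ | b) | (_ | a)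
      · right; left; rfl
      · right; right; exact ⟨b, rfl⟩
      · left; left; rfl
      · left; right; exact ⟨a, rfl⟩
  rw [hset] at hmodel
  exact hmodel

/-- `n + 1` points affinely spanning `ℝ^n` are the vertices of a simplex -/
lemma simplex_of_card {τ : Type*} [Fintype τ] [DecidableEq τ] (W : Finset (τ → ℝ))
    (hW : W.card = Fintype.card τ + 1) (hspan : affineSpan ℝ (W : Set (τ → ℝ)) = ⊤) :
    ∃ p : Fin (Fintype.card τ + 1) → τ → ℝ, AffineIndependent ℝ p ∧
      (W : Set (τ → ℝ)) = Set.range p := by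
  have hc : Fintype.card (W : Set (τ → ℝ)) = Fintype.card τ + 1 := by
    rw [← hW]; exact Fintype.card_coe W
  have e : (W : Set (τ → ℝ)) ≃ Fin (Fintype.card τ + 1) := Fintype.equivFinOfCardEq hc
  refine ⟨fun i => ((e.symm i : (W : Set (τ → ℝ))) : τ → ℝ), ?_, ?_⟩
  · have hr : Set.range (fun i => ((e.symm i : (W : Set (τ → ℝ))) : τ → ℝ)) =
        (W : Set (τ → ℝ)) := by
      have h1 : (fun i => ((e.symm i : (W : Set (τ → ℝ))) : τ → ℝ)) = Subtype.val ∘ e.symm := rfl
      rw [h1, Set.range_comp, e.symm.surjective.range_eq, Set.image_univ, Subtype.range_coe]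
    rw [affineIndependent_iff_finrank_vectorSpan_eq ℝ _ (Fintype.card_fin _), hr,
      ← direction_affineSpan, hspan, AffineSubspace.direction_top, finrank_top,
      Module.finrank_fintype_fun_eq_card]
  · have h1 : (fun i => ((e.symm i : (W : Set (τ → ℝ))) : τ → ℝ)) = Subtype.val ∘ e.symm := rfl
    rw [h1, Set.range_comp, e.symm.surjective.range_eq, Set.image_univ, Subtype.range_coe]

/-- **Polytopes with at most `n + 2` vertices.**  If the convex hull `K` of at most `n + 2` points
of `ℝ^n` has nonempty interior, then `L_K ≤ L_simplex`, with equality exactly when `K` is a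
simplex. -/
theorem few_vertices {τ : Type*} [Fintype τ] [DecidableEq τ] (V : Finset (τ → ℝ))
    (hV : V.card ≤ Fintype.card τ + 2)
    (hint : (interior (convexHull ℝ (V : Set (τ → ℝ)))).Nonempty) :
    isoPow (convexHull ℝ (V : Set (τ → ℝ))) ≤ simplexPow (Fintype.card τ) ∧
    (isoPow (convexHull ℝ (V : Set (τ → ℝ))) = simplexPow (Fintype.card τ) ↔
      ∃ p : Fin (Fintype.card τ + 1) → τ → ℝ, AffineIndependent ℝ p ∧
        convexHull ℝ (V : Set (τ → ℝ)) = convexHull ℝ (Set.range p)) := by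
  classical
  have hsimp : ∀ p : Fin (Fintype.card τ + 1) → τ → ℝ, AffineIndependent ℝ p →
      convexHull ℝ (V : Set (τ → ℝ)) = convexHull ℝ (Set.range p) →
      isoPow (convexHull ℝ (V : Set (τ → ℝ))) = simplexPow (Fintype.card τ) := by
    intro p hp h
    rw [h]; exact isoPow_simplex p hp
  have hspan : affineSpan ℝ (V : Set (τ → ℝ)) = ⊤ :=
    interior_convexHull_nonempty_iff_affineSpan_eq_top.1 hint
  have hVne : (V : Set (τ → ℝ)).Nonempty := by
    by_contra h
    rw [Set.not_nonempty_iff_eq_empty] at h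
    rw [h, convexHull_empty, interior_empty] at hint
    exact Set.not_nonempty_empty hint
  have hlow : Fintype.card τ + 1 ≤ V.card := by
    have hne' : Nonempty (Set.Elem (V : Set (τ → ℝ))) := hVne.to_subtype
    have h1 := finrank_vectorSpan_range_add_one_le (k := ℝ)
      (Subtype.val : Set.Elem (V : Set (τ → ℝ)) → τ → ℝ)
    rw [Subtype.range_coe, ← direction_affineSpan, hspan, AffineSubspace.direction_top,
      finrank_top, Module.finrank_fintype_fun_eq_card] at h1
    have h2 := Fintype.card_of_subtype V (p := fun x => x ∈ (V : Set (τ → ℝ)))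
      (fun x => Finset.mem_coe.symm)
    rw [h2] at h1
    exact h1
  have hclaim : (∃ p : Fin (Fintype.card τ + 1) → τ → ℝ, AffineIndependent ℝ p ∧
      convexHull ℝ (V : Set (τ → ℝ)) = convexHull ℝ (Set.range p)) ∨
      isoPow (convexHull ℝ (V : Set (τ → ℝ))) < simplexPow (Fintype.card τ) := by
    rcases Nat.lt_or_ge V.card (Fintype.card τ + 2) with hlt | hge
    · left
      obtain ⟨p, hp, hr⟩ := simplex_of_card V (by omega) hspan
      exact ⟨p, hp, by rw [hr]⟩
    · have hcard : Fintype.card (Set.Elem (V : Set (τ → ℝ))) = Fintype.card τ + 2 := by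
        have h2 := Fintype.card_of_subtype V (p := fun x => x ∈ (V : Set (τ → ℝ)))
          (fun x => Finset.mem_coe.symm)
        exact h2.trans (le_antisymm hV hge)
      have hspan' : affineSpan ℝ (Set.range (Subtype.val : Set.Elem (V : Set (τ → ℝ)) → τ → ℝ)) = ⊤ := by
        rw [Subtype.range_coe]; exact hspan
      rcases few_core (Subtype.val : Set.Elem (V : Set (τ → ℝ)) → τ → ℝ) hcard hspan' with h | h
      · left
        obtain ⟨i, hi⟩ := h
        rw [Subtype.range_coe] at hi
        have hW : (Subtype.val : Set.Elem (V : Set (τ → ℝ)) → τ → ℝ) '' {j | j ≠ i} =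
            ((V.erase i.1 : Finset (τ → ℝ)) : Set (τ → ℝ)) := by
          ext y
          simp only [Set.mem_image, Set.mem_setOf_eq, Finset.coe_erase, Set.mem_diff,
            Finset.mem_coe, Set.mem_singleton_iff]
          constructor
          · rintro ⟨j, hj, rfl⟩
            exact ⟨j.2, fun h => hj (Subtype.ext h)⟩
          · rintro ⟨hy, hne⟩
            exact ⟨⟨y, hy⟩, fun h => hne (congrArg Subtype.val h), rfl⟩
        rw [hW] at hi
        have hcW : (V.erase i.1).card = Fintype.card τ + 1 := by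
          rw [Finset.card_erase_of_mem i.2]; omega
        have hspanW : affineSpan ℝ ((V.erase i.1 : Finset (τ → ℝ)) : Set (τ → ℝ)) = ⊤ := by
          apply interior_convexHull_nonempty_iff_affineSpan_eq_top.1
          rw [← hi]; exact hint
        obtain ⟨p, hp, hr⟩ := simplex_of_card (V.erase i.1) hcW hspanW
        exact ⟨p, hp, by rw [hi, hr]⟩
      · right
        rw [Subtype.range_coe] at h
        exact h
  rcases hclaim with ⟨p, hp, hr⟩ | hlt
  · have heq := hsimp p hp hr
    exact ⟨heq.le, fun _ => ⟨p, hp, hr⟩, fun _ => heq⟩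
  · refine ⟨hlt.le, fun h => absurd h hlt.ne, ?_⟩
    rintro ⟨p, hp, hr⟩
    exact hsimp p hp hr

end

end Vale.Agent.Lib.P254
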