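import Vale.Agent.Lib.P254.FreeSumDefs

/-!
# P254: Cartesian products, definition
-/

namespace Vale.Agent.Lib.P254

/-- The Cartesian product of `A ⊆ ℝ^ι` and `B ⊆ ℝ^κ`, as a subset of `ℝ^(ι ⊕ κ)`. -/
def prodSet {ι κ : Type*} (A : Set (ι → ℝ)) (B : Set (κ → ℝ)) : Set (ι ⊕ κ → ℝ) :=
  {z | (fun i => z (Sum.inl i)) ∈ A ∧ (fun j => z (Sum.inr j)) ∈ B}

end Vale.Agent.Lib.P254
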