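import Vale.Agent.Lib.P254.FewVertices
import Vale.Agent.Lib.P254.ProductDefs

/-!
# P254: isotropic constants of Cartesian products

`isoPow (A × B) = isoPow A * isoPow B`, and `simplexPow k * simplexPow l < simplexPow (k + l)` for
`k, l ≥ 1`; so a product of two bodies that satisfy the strong isotropic constant conjecture
satisfies it with strict inequality.
-/

namespace Vale.Agent.Lib.P254

open MeasureTheory Matrix Set
open scoped Pointwise

set_option linter.unusedSectionVars false
set_option linter.deprecated false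
set_option linter.unusedVariables false

noncomputable section

/-! ### The cone factor is strictly increasing -/

lemma log_le_half_sub_inv {y : ℝ} (hy : 1 ≤ y) : Real.log y ≤ (y - y⁻¹) / 2 := by
  have h0 : 0 ≤ Real.log y := Real.log_nonneg hy
  have h1 := Real.self_le_sinh_iff.2 h0
  have hpos : 0 < y := by linarith
  rw [Real.sinh_eq, Real.exp_neg, Real.exp_log hpos] at h1
  exact h1

/-- the logarithm of the cone factor, as a function of a real variable -/
def logCone (x : ℝ) : ℝ :=
  (x + 3) * Real.log (x + 1) - 2 * Real.log (x + 2) - (x + 1) * Real.log (x + 3)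

lemma logCone_hasDerivAt {x : ℝ} (hx : 0 ≤ x) :
    HasDerivAt logCone (Real.log (x + 1) + (x + 3) / (x + 1) - 2 / (x + 2) -
      (Real.log (x + 3) + (x + 1) / (x + 3))) x := by
  have h1 : HasDerivAt (fun x : ℝ => x + 1) 1 x := (hasDerivAt_id x).add_const 1
  have h2 : HasDerivAt (fun x : ℝ => x + 2) 1 x := (hasDerivAt_id x).add_const 2
  have h3 : HasDerivAt (fun x : ℝ => x + 3) 1 x := (hasDerivAt_id x).add_const 3
  have l1 := h1.log (by positivity : x + 1 ≠ 0)
  have l2 := h2.log (by positivity : x + 2 ≠ 0)
  have l3 := h3.log (by positivity : x + 3 ≠ 0)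
  have h := ((h3.mul l1).sub (l2.const_mul 2)).sub (h1.mul l3)
  have e : (1 * Real.log (x + 1) + (x + 3) * (1 / (x + 1)) - 2 * (1 / (x + 2)) -
      (1 * Real.log (x + 3) + (x + 1) * (1 / (x + 3)))) =
      (Real.log (x + 1) + (x + 3) / (x + 1) - 2 / (x + 2) -
      (Real.log (x + 3) + (x + 1) / (x + 3))) := by ring
  rw [← e]
  exact h

lemma logCone_deriv_pos {x : ℝ} (hx : 0 ≤ x) : 0 < deriv logCone x := by
  rw [(logCone_hasDerivAt hx).deriv]
  have hy : 1 ≤ (x + 3) / (x + 1) := by
    rw [le_div_iff₀ (by positivity)]; linarith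
  have hb := log_le_half_sub_inv hy
  rw [Real.log_div (by positivity) (by positivity), inv_div] at hb
  have h1 : (0:ℝ) < x + 1 := by positivity
  have h2 : (0:ℝ) < x + 2 := by positivity
  have h3 : (0:ℝ) < x + 3 := by positivity
  have key : ((x + 3) / (x + 1) - (x + 1) / (x + 3)) / 2 - 2 / (x + 2) =
      2 / ((x + 1) * (x + 2) * (x + 3)) := by
    field_simp
    ring
  have hpos : 0 < 2 / ((x + 1) * (x + 2) * (x + 3)) := by positivity
  linarith

lemma logCone_strictMono : StrictMonoOn logCone (Set.Ici 0) := by
  apply strictMonoOn_of_deriv_pos (convex_Ici 0)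
  · intro x hx
    exact (logCone_hasDerivAt hx).continuousAt.continuousWithinAt
  · intro x hx
    rw [interior_Ici] at hx
    exact logCone_deriv_pos (le_of_lt hx)

lemma log_coneConst (m : ℕ) : Real.log (coneConst m) = logCone (m : ℝ) := by
  unfold coneConst logCone
  rw [Real.log_div (by positivity) (by positivity), Real.log_mul (by positivity) (by positivity),
    Real.log_pow, Real.log_pow, Real.log_pow]
  push_cast
  ring

lemma coneConst_strictMono : StrictMono coneConst := by
  apply strictMono_nat_of_lt_succ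
  intro m
  rw [← Real.log_lt_log_iff (coneConst_pos m) (coneConst_pos (m + 1)), log_coneConst,
    log_coneConst]
  apply logCone_strictMono (Set.mem_Ici.2 (Nat.cast_nonneg m)) (Set.mem_Ici.2 (Nat.cast_nonneg _))
  push_cast
  linarith

/-- the simplex values are strictly supermultiplicative -/
theorem simplexPow_mul_lt (k l : ℕ) (hk : 1 ≤ k) (hl : 1 ≤ l) :
    simplexPow k * simplexPow l < simplexPow (k + l) := by
  induction l, hl using Nat.le_induction with
  | base =>
    have h1 : simplexPow 1 = coneConst 0 := by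
      rw [simplexPow_succ 0, simplexPow_zero, mul_one]
    rw [simplexPow_succ k, h1, mul_comm]
    exact mul_lt_mul_of_pos_right (coneConst_strictMono (by omega)) (simplexPow_pos k)
  | succ l hl ih =>
    have e : k + (l + 1) = (k + l) + 1 := by ring
    rw [e, simplexPow_succ (k + l), simplexPow_succ l]
    have h1 : coneConst l < coneConst (k + l) := coneConst_strictMono (by omega)
    have h2 := simplexPow_pos (k + l)
    have h3 := coneConst_pos l
    calc simplexPow k * (coneConst l * simplexPow l)
        = coneConst l * (simplexPow k * simplexPow l) := by ring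
      _ < coneConst l * simplexPow (k + l) := mul_lt_mul_of_pos_left ih h3
      _ < coneConst (k + l) * simplexPow (k + l) := mul_lt_mul_of_pos_right h1 h2

/-! ### The product formula -/

section prod

variable {ι κ : Type*} [Fintype ι] [Fintype κ] {A : Set (ι → ℝ)} {B : Set (κ → ℝ)}

lemma prodSet_eq (A : Set (ι → ℝ)) (B : Set (κ → ℝ)) : prodSet A B = splitP ⁻¹' (A ×ˢ B) := by
  ext z
  simp [prodSet, splitP_apply]

lemma prod_integral (A : Set (ι → ℝ)) (B : Set (κ → ℝ)) (F : (ι → ℝ) → ℝ)
    (G : (κ → ℝ) → ℝ) :
    ∫ z in prodSet A B, F (fun i => z (Sum.inl i)) * G (fun j => z (Sum.inr j)) =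
      (∫ x in A, F x) * ∫ y in B, G y := by
  rw [prodSet_eq]
  have h := splitP_mp.setIntegral_preimage_emb (splitP (ι := ι) (κ := κ)).measurableEmbedding
    (fun q : (ι → ℝ) × (κ → ℝ) => F q.1 * G q.2) (A ×ˢ B)
  have h' : ∫ z in splitP ⁻¹' (A ×ˢ B), F (fun i => z (Sum.inl i)) * G (fun j => z (Sum.inr j)) =
      ∫ q in A ×ˢ B, F q.1 * G q.2 := h
  rw [h']
  exact setIntegral_prod_mul (μ := (volume : Measure (ι → ℝ)))
    (ν := (volume : Measure (κ → ℝ))) F G A B

lemma prod_vol (A : Set (ι → ℝ)) (B : Set (κ → ℝ)) : vol (prodSet A B) = vol A * vol B := by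
  rw [vol_eq_integral, vol_eq_integral, vol_eq_integral]
  have h := prod_integral A B (fun _ => (1:ℝ)) (fun _ => (1:ℝ))
  simpa using h

lemma isBounded_prodSet (hA : Bornology.IsBounded A) (hB : Bornology.IsBounded B) :
    Bornology.IsBounded (prodSet A B) := by
  obtain ⟨C, hC⟩ := isBounded_iff_forall_norm_le.1 hA
  obtain ⟨D, hD⟩ := isBounded_iff_forall_norm_le.1 hB
  refine isBounded_iff_forall_norm_le.2 ⟨max (max C D) 0, ?_⟩
  rintro z ⟨hzA, hzB⟩
  refine (pi_norm_le_iff_of_nonneg (le_max_right _ _)).2 fun s => ?_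
  rcases s with i | j
  · exact ((norm_le_pi_norm (fun i => z (Sum.inl i)) i).trans (hC _ hzA)).trans
      ((le_max_left _ _).trans (le_max_left _ _))
  · exact ((norm_le_pi_norm (fun j => z (Sum.inr j)) j).trans (hD _ hzB)).trans
      ((le_max_right _ _).trans (le_max_left _ _))

lemma prod_centroid_inl (hA : Bornology.IsBounded A) (hB : Bornology.IsBounded B)
    (hBv : vol B ≠ 0) (i : ι) : centroid (prodSet A B) (Sum.inl i) = centroid A i := by
  unfold centroid
  rw [prod_vol]
  have h := prod_integral A B (fun x => x i) (fun _ => (1:ℝ))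
  simp only [mul_one] at h
  rw [h, ← vol_eq_integral]
  field_simp

lemma prod_centroid_inr (hA : Bornology.IsBounded A) (hB : Bornology.IsBounded B)
    (hAv : vol A ≠ 0) (j : κ) : centroid (prodSet A B) (Sum.inr j) = centroid B j := by
  unfold centroid
  rw [prod_vol]
  have h := prod_integral A B (fun _ => (1:ℝ)) (fun y => y j)
  simp only [one_mul] at h
  rw [h, ← vol_eq_integral]
  field_simp

lemma centered_integral {σ : Type*} [Fintype σ] {S : Set (σ → ℝ)} (hS : Bornology.IsBounded S)
    (hV : vol S ≠ 0) (i : σ) : ∫ x in S, (x i - centroid S i) = 0 := by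
  have hi1 : IntegrableOn (fun y : σ → ℝ => y i) S :=
    integrableOn_of_isBounded hS _ (continuous_apply i)
  have hi2 : IntegrableOn (fun _ : σ → ℝ => centroid S i * (1:ℝ)) S :=
    integrableOn_of_isBounded hS _ continuous_const
  have e2 : (fun y : σ → ℝ => y i - centroid S i) = fun y => y i - centroid S i * (1:ℝ) := by
    funext y; ring
  have s1 : ∫ y in S, (y i - centroid S i * (1:ℝ)) =
      (∫ y in S, y i) - ∫ _y in S, centroid S i * (1:ℝ) := integral_sub hi1 hi2
  rw [e2, s1, integral_const_mul, ← vol_eq_integral]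
  unfold centroid
  field_simp
  ring

theorem cov_prodSet [DecidableEq ι] [DecidableEq κ] (hA : Bornology.IsBounded A)
    (hB : Bornology.IsBounded B) (hAv : vol A ≠ 0) (hBv : vol B ≠ 0) :
    cov (prodSet A B) = Matrix.fromBlocks (cov A) 0 0 (cov B) := by
  ext s t
  rcases s with i | j <;> rcases t with i' | j'
  · simp only [cov, Matrix.of_apply, Matrix.fromBlocks_apply₁₁]
    rw [prod_centroid_inl hA hB hBv, prod_centroid_inl hA hB hBv, prod_vol]
    have h := prod_integral A B (fun x => (x i - centroid A i) * (x i' - centroid A i'))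
      (fun _ => (1:ℝ))
    simp only [mul_one] at h
    rw [h, ← vol_eq_integral]
    field_simp
  · simp only [cov, Matrix.of_apply, Matrix.fromBlocks_apply₁₂, Matrix.zero_apply]
    rw [prod_centroid_inl hA hB hBv, prod_centroid_inr hA hB hAv, prod_vol]
    have h := prod_integral A B (fun x => x i - centroid A i) (fun y => y j' - centroid B j')
    rw [h, centered_integral hA hAv, zero_mul, zero_div]
  · simp only [cov, Matrix.of_apply, Matrix.fromBlocks_apply₂₁, Matrix.zero_apply]
    rw [prod_centroid_inr hA hB hAv, prod_centroid_inl hA hB hBv, prod_vol]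
    have h := prod_integral A B (fun x => x i' - centroid A i') (fun y => y j - centroid B j)
    have e : (fun z : ι ⊕ κ → ℝ => (z (Sum.inr j) - centroid B j) *
        (z (Sum.inl i') - centroid A i')) = fun z => (z (Sum.inl i') - centroid A i') *
        (z (Sum.inr j) - centroid B j) := by
      funext z; ring
    rw [e, h, centered_integral hA hAv, zero_mul, zero_div]
  · simp only [cov, Matrix.of_apply, Matrix.fromBlocks_apply₂₂]
    rw [prod_centroid_inr hA hB hAv, prod_centroid_inr hA hB hAv, prod_vol]
    have h := prod_integral A B (fun _ => (1:ℝ))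
      (fun y => (y j - centroid B j) * (y j' - centroid B j'))
    simp only [one_mul] at h
    rw [h, ← vol_eq_integral]
    field_simp

/-- the isotropic constant of a product -/
theorem isoPow_prodSet [DecidableEq ι] [DecidableEq κ] (hA : Bornology.IsBounded A)
    (hB : Bornology.IsBounded B) (hAv : vol A ≠ 0) (hBv : vol B ≠ 0) :
    isoPow (prodSet A B) = isoPow A * isoPow B := by
  unfold isoPow
  rw [cov_prodSet hA hB hAv hBv, prod_vol, Matrix.det_fromBlocks_zero₂₁]
  field_simp

/-- products of bodies satisfying the conjecture satisfy it strictly -/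
theorem isoPow_prodSet_lt [DecidableEq ι] [DecidableEq κ] [Nonempty ι] [Nonempty κ]
    (hA : Bornology.IsBounded A) (hB : Bornology.IsBounded B) (hAv : 0 < vol A)
    (hBv : 0 < vol B) (h1 : isoPow A ≤ simplexPow (Fintype.card ι))
    (h2 : isoPow B ≤ simplexPow (Fintype.card κ)) :
    isoPow (prodSet A B) < simplexPow (Fintype.card ι + Fintype.card κ) := by
  rw [isoPow_prodSet hA hB hAv.ne' hBv.ne']
  have hIB : 0 < isoPow B := isoPow_pos hB hBv
  calc isoPow A * isoPow B ≤ simplexPow (Fintype.card ι) * simplexPow (Fintype.card κ) :=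
        mul_le_mul h1 h2 hIB.le (simplexPow_pos _).le
    _ < simplexPow (Fintype.card ι + Fintype.card κ) :=
        simplexPow_mul_lt _ _ Fintype.card_pos Fintype.card_pos

end prod

/-- a finite point set whose hull has nonempty interior spans a bounded set of positive volume -/
lemma hull_facts {τ : Type*} [Fintype τ] (V : Finset (τ → ℝ))
    (hint : (interior (convexHull ℝ (V : Set (τ → ℝ)))).Nonempty) :
    Bornology.IsBounded (convexHull ℝ (V : Set (τ → ℝ))) ∧
      0 < vol (convexHull ℝ (V : Set (τ → ℝ))) := by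
  have hc : IsCompact (convexHull ℝ (V : Set (τ → ℝ))) :=
    Set.Finite.isCompact_convexHull (𝕜 := ℝ) (Finset.finite_toSet V)
  refine ⟨hc.isBounded, ?_⟩
  unfold vol
  apply ENNReal.toReal_pos
  · have h1 : 0 < volume (interior (convexHull ℝ (V : Set (τ → ℝ)))) :=
      isOpen_interior.measure_pos volume hint
    exact (lt_of_lt_of_le h1 (measure_mono interior_subset)).ne'
  · exact hc.measure_lt_top.ne

/-- products of two polytopes with at most `dim + 2` vertices -/
theorem isoPow_prodSet_few {ι κ : Type*} [Fintype ι] [Fintype κ] [DecidableEq ι]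
    [DecidableEq κ] [Nonempty ι] [Nonempty κ] (V : Finset (ι → ℝ)) (W : Finset (κ → ℝ))
    (hV : V.card ≤ Fintype.card ι + 2) (hW : W.card ≤ Fintype.card κ + 2)
    (hVi : (interior (convexHull ℝ (V : Set (ι → ℝ)))).Nonempty)
    (hWi : (interior (convexHull ℝ (W : Set (κ → ℝ)))).Nonempty) :
    isoPow (prodSet (convexHull ℝ (V : Set (ι → ℝ))) (convexHull ℝ (W : Set (κ → ℝ)))) <
      simplexPow (Fintype.card ι + Fintype.card κ) := by
  obtain ⟨hAb, hAv⟩ := hull_facts V hVi
  obtain ⟨hBb, hBv⟩ := hull_facts W hWi
  exact isoPow_prodSet_lt hAb hBb hAv hBv (few_vertices V hV hVi).1 (few_vertices W hW hWi).1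

end

end Vale.Agent.Lib.P254
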