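import Vale.Agent.Lib.P254.ClassDefs
import Vale.Agent.Lib.P254.FewVertices
import Vale.Agent.Lib.P254.Product

/-!
# P254: the strong isotropic constant inequality on the family `Good`
-/

namespace Vale.Agent.Lib.P254

open MeasureTheory Matrix Set

noncomputable section

section glue

variable {ι κ : Type*} [Fintype ι] [Fintype κ]

set_option linter.unusedSectionVars false

lemma isClosed_prodSet {A : Set (ι → ℝ)} {B : Set (κ → ℝ)} (hA : IsClosed A) (hB : IsClosed B) :
    IsClosed (prodSet A B) := by
  have h1 : Continuous (fun z : ι ⊕ κ → ℝ => (fun i => z (Sum.inl i) : ι → ℝ)) :=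
    continuous_pi fun i => continuous_apply _
  have h2 : Continuous (fun z : ι ⊕ κ → ℝ => (fun j => z (Sum.inr j) : κ → ℝ)) :=
    continuous_pi fun j => continuous_apply _
  exact (hA.preimage h1).inter (hB.preimage h2)

lemma isCompact_prodSet {A : Set (ι → ℝ)} {B : Set (κ → ℝ)} (hA : IsCompact A)
    (hB : IsCompact B) : IsCompact (prodSet A B) :=
  Metric.isCompact_of_isClosed_isBounded (isClosed_prodSet hA.isClosed hB.isClosed)
    (isBounded_prodSet hA.isBounded hB.isBounded)

lemma convex_prodSet {A : Set (ι → ℝ)} {B : Set (κ → ℝ)} (hA : Convex ℝ A) (hB : Convex ℝ B) :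
    Convex ℝ (prodSet A B) := by
  intro z hz z' hz' a b ha hb hab
  exact ⟨hA hz.1 hz'.1 ha hb hab, hB hz.2 hz'.2 ha hb hab⟩

lemma isCompact_ccone {A : Set (ι → ℝ)} (hA : IsCompact A) : IsCompact (ccone A) := by
  have hc : Continuous (fun q : (ι → ℝ) × ℝ =>
      (Sum.elim (q.2 • q.1) (fun _ => q.2) : ι ⊕ Unit → ℝ)) := by
    apply continuous_pi
    rintro (i | u)
    · simp only [Sum.elim_inl, Pi.smul_apply, smul_eq_mul]; fun_prop
    · simp only [Sum.elim_inr]; fun_prop
  have e : ccone A = (fun q : (ι → ℝ) × ℝ =>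
      (Sum.elim (q.2 • q.1) (fun _ => q.2) : ι ⊕ Unit → ℝ)) '' (A ×ˢ Set.Icc (0:ℝ) 1) := by
    ext y
    constructor
    · rintro ⟨p, hp, t, h0, h1, rfl⟩
      exact ⟨(p, t), ⟨hp, h0, h1⟩, rfl⟩
    · rintro ⟨⟨p, t⟩, ⟨hp, h0, h1⟩, rfl⟩
      exact ⟨p, hp, t, h0, h1, rfl⟩
  rw [e]
  exact (hA.prod isCompact_Icc).image hc

lemma convex_ccone {A : Set (ι → ℝ)} (hA : Convex ℝ A) : Convex ℝ (ccone A) := by
  rintro _ ⟨p, hp, t, ht0, ht1, rfl⟩ _ ⟨p', hp', t', ht0', ht1', rfl⟩ a b ha hb hab
  have hat : 0 ≤ a * t := mul_nonneg ha ht0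
  have hbt : 0 ≤ b * t' := mul_nonneg hb ht0'
  rcases (add_nonneg hat hbt).eq_or_lt with h0 | hpos
  · have h1 : a * t = 0 := by linarith
    have h2 : b * t' = 0 := by linarith
    refine ⟨p, hp, 0, le_rfl, zero_le_one, ?_⟩
    funext s
    rcases s with i | u
    · simp only [Pi.add_apply, Pi.smul_apply, Sum.elim_inl, smul_eq_mul]
      have e1 : a * (t * p i) = (a * t) * p i := by ring
      have e2 : b * (t' * p' i) = (b * t') * p' i := by ring
      rw [e1, e2, h1, h2]; ring
    · simp only [Pi.add_apply, Pi.smul_apply, Sum.elim_inr, smul_eq_mul]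
      linarith
  · have hτ1 : a * t + b * t' ≤ 1 := by
      have h1 : a * t ≤ a := by nlinarith
      have h2 : b * t' ≤ b := by nlinarith
      linarith
    refine ⟨(a * t / (a * t + b * t')) • p + (b * t' / (a * t + b * t')) • p',
      hA hp hp' (div_nonneg hat hpos.le) (div_nonneg hbt hpos.le)
        (by rw [← add_div]; exact div_self hpos.ne'),
      a * t + b * t', hpos.le, hτ1, ?_⟩
    funext s
    rcases s with i | u
    · simp only [Pi.add_apply, Pi.smul_apply, Sum.elim_inl, smul_eq_mul]
      field_simp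
    · simp only [Pi.add_apply, Pi.smul_apply, Sum.elim_inr, smul_eq_mul]

lemma ccone_eq {A : Set (ι → ℝ)} (hne : A.Nonempty) : ccone A = insert 0 (cone A) := by
  ext y
  constructor
  · rintro ⟨p, hp, t, ht0, ht1, rfl⟩
    rcases ht0.eq_or_lt with h | h
    · refine Or.inl ?_
      subst h
      funext s
      rcases s with i | u <;> simp
    · exact Or.inr ⟨p, hp, t, h, ht1, rfl⟩
  · rintro (rfl | ⟨p, hp, t, ht0, ht1, rfl⟩)
    · obtain ⟨p, hp⟩ := hne
      refine ⟨p, hp, 0, le_rfl, zero_le_one, ?_⟩
      funext s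
      rcases s with i | u <;> simp
    · exact ⟨p, hp, t, ht0.le, ht1, rfl⟩

lemma ccone_ae {A : Set (ι → ℝ)} (hne : A.Nonempty) :
    ccone A =ᵐ[(volume : Measure (ι ⊕ Unit → ℝ))] cone A := by
  rw [ccone_eq hne]
  exact insert_ae_eq_self _ _

/-- the closed cone over a simplex is a simplex -/
lemma ccone_simplex (p : Fin (Fintype.card ι + 1) → ι → ℝ) (hp : AffineIndependent ℝ p) :
    ∃ q : Fin (Fintype.card (ι ⊕ Unit) + 1) → (ι ⊕ Unit → ℝ), AffineIndependent ℝ q ∧
      ccone (convexHull ℝ (Set.range p)) = convexHull ℝ (Set.range q) := by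
  classical
  set liftf : (ι → ℝ) → (ι ⊕ Unit → ℝ) := fun a => Sum.elim a (fun _ => (1:ℝ)) with hlift
  set q' : Option (Fin (Fintype.card ι + 1)) → (ι ⊕ Unit → ℝ) :=
    fun o => o.elim 0 (fun i => liftf (p i)) with hq'
  have hli : LinearIndependent ℝ (fun i => liftf (p i)) := by
    rw [Fintype.linearIndependent_iff]
    intro g hg i
    have hsum : ∑ i, g i = 0 := by
      have := congrFun hg (Sum.inr ())
      simpa [hlift, Finset.sum_apply] using this
    have hvec : ∑ i, g i • p i = 0 := by
      funext j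
      have := congrFun hg (Sum.inl j)
      simpa [hlift, Finset.sum_apply] using this
    exact (affineIndependent_iff.1 hp) Finset.univ g hsum hvec i (Finset.mem_univ i)
  have haff' : AffineIndependent ℝ q' := by
    rw [affineIndependent_iff_of_fintype]
    intro w hw hv
    rw [Finset.weightedVSub_eq_linear_combination _ hw, Fintype.sum_option] at hv
    rw [Fintype.sum_option] at hw
    have hv' : ∑ i, w (some i) • liftf (p i) = 0 := by
      simpa [hq'] using hv
    have h2 := (Fintype.linearIndependent_iff.1 hli) (fun i => w (some i)) hv'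
    intro o
    cases o with
    | none =>
      have : ∑ i, w (some i) = 0 := Finset.sum_eq_zero fun i _ => h2 i
      linarith
    | some i => exact h2 i
  have hcard : Fintype.card (Fin (Fintype.card (ι ⊕ Unit) + 1))
      = Fintype.card (Option (Fin (Fintype.card ι + 1))) := by
    simp
  set e := Fintype.equivOfCardEq hcard with he
  refine ⟨q' ∘ e, haff'.comp_embedding e.toEmbedding, ?_⟩
  have hrange : Set.range (q' ∘ e) = insert 0 (liftf '' Set.range p) := by
    rw [e.surjective.range_comp]
    ext y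
    constructor
    · rintro ⟨o, rfl⟩
      cases o with
      | none => exact Or.inl rfl
      | some i => exact Or.inr ⟨p i, ⟨i, rfl⟩, rfl⟩
    · rintro (rfl | ⟨_, ⟨i, rfl⟩, rfl⟩)
      · exact ⟨none, rfl⟩
      · exact ⟨some i, rfl⟩
  rw [hrange]
  have hne : (Set.range p).Nonempty := Set.range_nonempty p
  have hliftcombo : ∀ (a b : ι → ℝ) (u v : ℝ), u + v = 1 →
      liftf (u • a + v • b) = u • liftf a + v • liftf b := by
    intro a b u v huv
    funext s
    rcases s with i | w
    · simp [hlift]
    · simp [hlift]; linarith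
  apply Set.Subset.antisymm
  · rintro _ ⟨a, ha, t, ht0, ht1, rfl⟩
    have hconv : Convex ℝ {a : ι → ℝ |
        liftf a ∈ convexHull ℝ (insert 0 (liftf '' Set.range p))} := by
      intro a ha' b hb u v hu hv huv
      show liftf (u • a + v • b) ∈ convexHull ℝ (insert 0 (liftf '' Set.range p))
      rw [hliftcombo a b u v huv]
      exact convex_convexHull ℝ _ ha' hb hu hv huv
    have hsub0 : Set.range p ⊆ {a : ι → ℝ |
        liftf a ∈ convexHull ℝ (insert 0 (liftf '' Set.range p))} := by
      intro s hs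
      exact subset_convexHull ℝ _ (Set.mem_insert_of_mem _ ⟨s, hs, rfl⟩)
    have hmem : liftf a ∈ convexHull ℝ (insert 0 (liftf '' Set.range p)) :=
      convexHull_min hsub0 hconv ha
    have h0 : (0 : ι ⊕ Unit → ℝ) ∈ convexHull ℝ (insert 0 (liftf '' Set.range p)) :=
      subset_convexHull ℝ _ (Set.mem_insert _ _)
    have hcomb := convex_convexHull ℝ _ h0 hmem (sub_nonneg.2 ht1) ht0 (by ring)
    have e2 : (Sum.elim (t • a) (fun _ => t) : ι ⊕ Unit → ℝ)
        = (1 - t) • (0 : ι ⊕ Unit → ℝ) + t • liftf a := by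
      funext s
      rcases s with i | w <;> simp [hlift]
    rw [e2]
    exact hcomb
  · have hsub : insert 0 (liftf '' Set.range p) ⊆ ccone (convexHull ℝ (Set.range p)) := by
      rintro y (rfl | ⟨s, hs, rfl⟩)
      · obtain ⟨s0, hs0⟩ := hne
        refine ⟨s0, subset_convexHull ℝ _ hs0, 0, le_rfl, zero_le_one, ?_⟩
        funext s
        rcases s with i | w <;> simp
      · refine ⟨s, subset_convexHull ℝ _ hs, 1, zero_le_one, le_rfl, ?_⟩
        funext r
        rcases r with i | w <;> simp [hlift]
    exact convexHull_min hsub (convex_ccone (convex_convexHull ℝ _))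

end glue

section affine

variable {ι : Type*} [Fintype ι] [DecidableEq ι]

/-- the affine map `x ↦ c + F x` bundled -/
def affBundled (F : Matrix ι ι ℝ) (c : ι → ℝ) : (ι → ℝ) →ᵃ[ℝ] (ι → ℝ) :=
  AffineMap.const ℝ (ι → ℝ) c + (Matrix.toLin' F).toAffineMap

lemma affBundled_coe (F : Matrix ι ι ℝ) (c : ι → ℝ) : ⇑(affBundled F c) = affMap F c := by
  funext x
  simp [affBundled, affMap]

lemma aff_simplex {F : Matrix ι ι ℝ} (hF : F.det ≠ 0) (c : ι → ℝ)
    (p : Fin (Fintype.card ι + 1) → ι → ℝ) (hp : AffineIndependent ℝ p) :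
    AffineIndependent ℝ (fun i => affMap F c (p i)) ∧
      affMap F c '' convexHull ℝ (Set.range p)
        = convexHull ℝ (Set.range (fun i => affMap F c (p i))) := by
  have hinj : Function.Injective (affBundled F c) := by
    rw [affBundled_coe]
    exact affMap_injective hF c
  have h1 := hp.map' (affBundled F c) hinj
  constructor
  · have e : (fun i => affMap F c (p i)) = ⇑(affBundled F c) ∘ p := by
      rw [affBundled_coe]
      rfl
    rw [e]
    exact h1
  · rw [← affBundled_coe, AffineMap.image_convexHull, ← Set.range_comp]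
    rfl

lemma aff_compact (F : Matrix ι ι ℝ) (c : ι → ℝ) {A : Set (ι → ℝ)} (hA : IsCompact A) :
    IsCompact (affMap F c '' A) := by
  rw [← affBundled_coe]
  exact hA.image (affBundled F c).continuous_of_finiteDimensional

lemma aff_convex (F : Matrix ι ι ℝ) (c : ι → ℝ) {A : Set (ι → ℝ)} (hA : Convex ℝ A) :
    Convex ℝ (affMap F c '' A) := by
  rw [← affBundled_coe]
  exact hA.affine_image (affBundled F c)

end affine

/-- a convex set of positive volume has nonempty interior -/
lemma interior_nonempty_of_vol_pos {ι : Type*} [Fintype ι] {K : Set (ι → ℝ)} (hc : Convex ℝ K)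
    (hV : 0 < vol K) : (interior K).Nonempty := by
  by_contra hne
  rw [Set.not_nonempty_iff_eq_empty] at hne
  have hsub : K ⊆ frontier K := by
    intro x hx
    rw [frontier, hne, Set.sdiff_empty]
    exact subset_closure hx
  have h0 : volume K = 0 :=
    measure_mono_null hsub (hc.addHaar_frontier volume)
  unfold vol at hV
  rw [h0] at hV
  simp at hV

/-- The strong isotropic constant inequality, with its equality case, on the family `Good`. -/
theorem good_main {ι : Type} [Fintype ι] [DecidableEq ι] {K : Set (ι → ℝ)} (h : Good K) :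
    IsCompact K ∧ Convex ℝ K ∧ 0 < vol K ∧ isoPow K ≤ simplexPow (Fintype.card ι) ∧
    (isoPow K = simplexPow (Fintype.card ι) →
      ∃ p : Fin (Fintype.card ι + 1) → ι → ℝ, AffineIndependent ℝ p ∧
        K = convexHull ℝ (Set.range p)) := by
  induction h with
  | few V hV hint =>
    have hf := few_vertices V hV hint
    exact ⟨Set.Finite.isCompact_convexHull (𝕜 := ℝ) (Finset.finite_toSet V),
      convex_convexHull ℝ _, (hull_facts V hint).2, hf.1, hf.2.1⟩
  | prod A B hA hB ihA ihB =>
    obtain ⟨cA, vA, pA, leA, -⟩ := ihA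
    obtain ⟨cB, vB, pB, leB, -⟩ := ihB
    have hlt := isoPow_prodSet_lt cA.isBounded cB.isBounded pA pB leA leB
    rw [← Fintype.card_sum] at hlt
    refine ⟨isCompact_prodSet cA cB, convex_prodSet vA vB, ?_, hlt.le, fun heq => ?_⟩
    · rw [prod_vol]
      exact mul_pos pA pB
    · exact absurd heq hlt.ne
  | fsum A B hA hB h0A h0B ihA ihB =>
    obtain ⟨cA, vA, pA, leA, -⟩ := ihA
    obtain ⟨cB, vB, pB, leB, -⟩ := ihB
    have hsA : Star0 A := star0_of_starConvex (vA.starConvex (interior_subset h0A))
    have hsB : Star0 B := star0_of_starConvex (vB.starConvex (interior_subset h0B))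
    have hs := isoPow_freeSum_simplex cA cB hsA hsB pA pB leA leB
    have hlt := hs.2 (mah_lt cA vA h0A pA) (mah_lt cB vB h0B pB)
    rw [← Fintype.card_sum] at hlt
    refine ⟨isCompact_freeSum cA cB, ?_, fs_vol_pos cA cB hsA hsB pA pB, hlt.le,
      fun heq => absurd heq hlt.ne⟩
    rw [freeSum_eq_convexHull vA vB ⟨0, interior_subset h0A⟩ ⟨0, interior_subset h0B⟩]
    exact convex_convexHull ℝ _
  | cone A hA ih =>
    obtain ⟨cA, vA, pA, leA, eqA⟩ := ih
    have hAm : MeasurableSet A := cA.measurableSet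
    have hne : A.Nonempty := nonempty_of_vol_pos pA
    have hae := ccone_ae hne
    have hvol : vol (ccone A) = vol (cone A) := by
      unfold vol
      rw [measure_congr hae]
    have hiso : isoPow (ccone A) = isoPow (cone A) := isoPow_congr_ae hae
    have hcs := cone_simplexPow hAm cA.isBounded pA
    have hcard : ∀ (α : Type) [Fintype α], Fintype.card (α ⊕ Unit) = Fintype.card α + 1 := by
      intro α _
      simp
    refine ⟨isCompact_ccone cA, convex_ccone vA, ?_, ?_, fun heq => ?_⟩
    · rw [hvol]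
      exact cone_vol_pos hAm cA.isBounded pA
    · rw [hiso, hcard]
      exact hcs.2.2 leA
    · rw [hiso, hcard] at heq
      obtain ⟨p, hp, hK⟩ := eqA (hcs.1.1 heq)
      obtain ⟨q, hq, hqK⟩ := ccone_simplex p hp
      exact ⟨q, hq, by rw [hK, hqK]⟩
  | aff F c hF A hA ih =>
    obtain ⟨cA, vA, pA, leA, eqA⟩ := ih
    have hAm : MeasurableSet A := cA.measurableSet
    have hiso : isoPow (affMap F c '' A) = isoPow A :=
      isoPow_aff hF c hAm cA.isBounded pA.ne'
    have hvol : vol (affMap F c '' A) = |F.det| * vol A := aff_vol hF c hAm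
    refine ⟨aff_compact F c cA, aff_convex F c vA, ?_, ?_, fun heq => ?_⟩
    · show 0 < vol (affMap F c '' A)
      rw [hvol]
      exact mul_pos (abs_pos.2 hF) pA
    · show isoPow (affMap F c '' A) ≤ _
      rw [hiso]
      exact leA
    · have heq' : isoPow (affMap F c '' A) = simplexPow (Fintype.card _) := heq
      rw [hiso] at heq'
      obtain ⟨p, hp, hK⟩ := eqA heq'
      obtain ⟨h1, h2⟩ := aff_simplex hF c p hp
      refine ⟨fun i => affMap F c (p i), h1, ?_⟩
      show affMap F c '' A = _
      rw [hK, h2]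

end

end Vale.Agent.Lib.P254
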