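import Vale.Agent.Lib.P254.FreeSum

/-!
# P254: affine invariance of the isotropic constant

`isoPow` is unchanged under invertible affine maps, also between `ℝ^σ` and `ℝ^τ` for index types
of the same cardinality.
-/

namespace Vale.Agent.Lib.P254

open MeasureTheory Matrix Set
open scoped Pointwise

set_option linter.unusedSectionVars false
set_option linter.deprecated false
set_option linter.unusedVariables false

noncomputable section

/-! ### Square affine maps -/

/-- the affine map `x ↦ c + F x` -/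
def affMap {κ : Type*} [Fintype κ] (F : Matrix κ κ ℝ) (c : κ → ℝ) (x : κ → ℝ) : κ → ℝ :=
  c + F *ᵥ x

lemma affMap_injective {κ : Type*} [Fintype κ] [DecidableEq κ] {F : Matrix κ κ ℝ}
    (hF : F.det ≠ 0) (c : κ → ℝ) : Function.Injective (affMap F c) := by
  intro x y h
  have h1 : F *ᵥ x = F *ᵥ y := add_left_cancel h
  exact Matrix.mulVec_injective_iff_isUnit.2
    ((Matrix.isUnit_iff_isUnit_det F).2 (isUnit_iff_ne_zero.2 hF)) h1

lemma image_integral {κ : Type*} [Fintype κ] [DecidableEq κ] {F : Matrix κ κ ℝ}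
    (hF : F.det ≠ 0) (c : κ → ℝ) {S : Set (κ → ℝ)} (hS : MeasurableSet S)
    (g : (κ → ℝ) → ℝ) :
    ∫ y in affMap F c '' S, g y = |F.det| * ∫ x in S, g (affMap F c x) := by
  have hd : ∀ x ∈ S, HasFDerivWithinAt (affMap F c)
      ((fun _ => LinearMap.toContinuousLinearMap (Matrix.toLin' F)) x) S x := by
    intro x _
    have h1 : HasFDerivAt (fun x : κ → ℝ => c + (LinearMap.toContinuousLinearMap
        (Matrix.toLin' F)) x) (LinearMap.toContinuousLinearMap (Matrix.toLin' F)) x :=
      (ContinuousLinearMap.hasFDerivAt _).const_add c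
    exact h1.hasFDerivWithinAt
  have h := integral_image_eq_integral_abs_det_fderiv_smul (volume : Measure (κ → ℝ)) hS hd
    ((affMap_injective hF c).injOn) g
  rw [h]
  have hdet : (LinearMap.toContinuousLinearMap (Matrix.toLin' F)).det = F.det := by
    rw [ContinuousLinearMap.det]
    simp [LinearMap.det_toLin']
  simp only [hdet, smul_eq_mul]
  rw [integral_const_mul]

lemma aff_vol {κ : Type*} [Fintype κ] [DecidableEq κ] {F : Matrix κ κ ℝ}
    (hF : F.det ≠ 0) (c : κ → ℝ) {S : Set (κ → ℝ)} (hS : MeasurableSet S) :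
    vol (affMap F c '' S) = |F.det| * vol S := by
  rw [vol_eq_integral, vol_eq_integral, image_integral hF c hS]

lemma affMap_apply {κ : Type*} [Fintype κ] (F : Matrix κ κ ℝ) (c x : κ → ℝ) (i : κ) :
    affMap F c x i = c i + ∑ j, F i j * x j := by
  simp [affMap, Matrix.mulVec, dotProduct]

lemma aff_centroid {κ : Type*} [Fintype κ] [DecidableEq κ] {F : Matrix κ κ ℝ}
    (hF : F.det ≠ 0) (c : κ → ℝ) {S : Set (κ → ℝ)} (hS : MeasurableSet S)
    (hb : Bornology.IsBounded S) (hV : vol S ≠ 0) :
    centroid (affMap F c '' S) = affMap F c (centroid S) := by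
  funext i
  have hi : ∀ k : κ, IntegrableOn (fun x : κ → ℝ => x k) S :=
    fun k => integrableOn_of_isBounded hb _ (continuous_apply k)
  have hc1 : IntegrableOn (fun _ : κ → ℝ => c i * (1:ℝ)) S :=
    integrableOn_of_isBounded hb _ continuous_const
  have hsum : IntegrableOn (fun x : κ → ℝ => ∑ j, F i j * x j) S :=
    integrableOn_of_isBounded hb _ (by fun_prop)
  have e1 : ∫ x in S, affMap F c x i = c i * vol S + ∑ j, F i j * ∫ x in S, x j := by
    have e0 : (fun x : κ → ℝ => affMap F c x i) =
        fun x => c i * (1:ℝ) + ∑ j, F i j * x j := by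
      funext x; rw [affMap_apply]; ring
    have s1 : ∫ x in S, (c i * (1:ℝ) + ∑ j, F i j * x j) =
        (∫ _x in S, c i * (1:ℝ)) + ∫ x in S, ∑ j, F i j * x j := integral_add hc1 hsum
    rw [e0, s1, integral_const_mul, ← vol_eq_integral,
      integral_finset_sum _ (fun j _ => (hi j).const_mul (F i j))]
    congr 1
    refine Finset.sum_congr rfl fun j _ => ?_
    rw [integral_const_mul]
  have hd : |F.det| ≠ 0 := abs_ne_zero.2 hF
  have e2 : centroid (affMap F c '' S) i =
      (|F.det| * (c i * vol S + ∑ j, F i j * ∫ x in S, x j)) / (|F.det| * vol S) := by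
    unfold centroid
    rw [image_integral hF c hS (fun y => y i), aff_vol hF c hS, e1]
  have e3 : affMap F c (centroid S) i = c i + ∑ j, F i j * ((∫ x in S, x j) / vol S) := by
    rw [affMap_apply]; rfl
  rw [e2, e3, mul_div_mul_left _ _ hd, add_div, mul_div_assoc, div_self hV, mul_one,
    Finset.sum_div]
  congr 1
  refine Finset.sum_congr rfl fun j _ => ?_
  rw [mul_div_assoc]

lemma aff_cov {κ : Type*} [Fintype κ] [DecidableEq κ] {F : Matrix κ κ ℝ}
    (hF : F.det ≠ 0) (c : κ → ℝ) {S : Set (κ → ℝ)} (hS : MeasurableSet S)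
    (hb : Bornology.IsBounded S) (hV : vol S ≠ 0) :
    cov (affMap F c '' S) = F * cov S * Fᵀ := by
  ext i j
  have hd : |F.det| ≠ 0 := abs_ne_zero.2 hF
  set b := centroid S with hbdef
  have hint : ∀ k l, IntegrableOn (fun x : κ → ℝ =>
      (F i k * (x k - b k)) * (F j l * (x l - b l))) S :=
    fun k l => integrableOn_of_isBounded hb _ (by fun_prop)
  have e1 : ∫ x in S, (affMap F c x i - affMap F c b i) * (affMap F c x j - affMap F c b j) =
      ∑ k, ∑ l, F i k * F j l * ∫ x in S, (x k - b k) * (x l - b l) := by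
    have e0 : (fun x : κ → ℝ =>
        (affMap F c x i - affMap F c b i) * (affMap F c x j - affMap F c b j)) =
        fun x => ∑ k, ∑ l, (F i k * (x k - b k)) * (F j l * (x l - b l)) := by
      funext x
      rw [affMap_apply, affMap_apply, affMap_apply, affMap_apply, ← Finset.sum_mul_sum]
      congr 1
      · rw [add_sub_add_left_eq_sub, ← Finset.sum_sub_distrib]
        exact Finset.sum_congr rfl fun k _ => by ring
      · rw [add_sub_add_left_eq_sub, ← Finset.sum_sub_distrib]
        exact Finset.sum_congr rfl fun k _ => by ring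
    rw [e0, integral_finset_sum _ (fun k _ => integrable_finset_sum _ (fun l _ => hint k l))]
    refine Finset.sum_congr rfl fun k _ => ?_
    rw [integral_finset_sum _ (fun l _ => hint k l)]
    refine Finset.sum_congr rfl fun l _ => ?_
    rw [← integral_const_mul]
    congr 1; funext x; ring
  have e2 : cov (affMap F c '' S) i j =
      (|F.det| * ∑ k, ∑ l, F i k * F j l * ∫ x in S, (x k - b k) * (x l - b l)) /
        (|F.det| * vol S) := by
    unfold cov
    simp only [Matrix.of_apply]
    rw [aff_centroid hF c hS hb hV, aff_vol hF c hS,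
      image_integral hF c hS (fun y => (y i - affMap F c (centroid S) i) *
        (y j - affMap F c (centroid S) j)), ← hbdef, e1]
  rw [e2, mul_div_mul_left _ _ hd]
  simp only [Matrix.mul_apply, Matrix.transpose_apply, cov, Matrix.of_apply, ← hbdef]
  rw [Finset.sum_div]
  simp_rw [Finset.sum_mul, Finset.sum_div]
  rw [Finset.sum_comm]
  refine Finset.sum_congr rfl fun l _ => Finset.sum_congr rfl fun k _ => ?_
  ring

theorem isoPow_aff {κ : Type*} [Fintype κ] [DecidableEq κ] {F : Matrix κ κ ℝ}
    (hF : F.det ≠ 0) (c : κ → ℝ) {S : Set (κ → ℝ)} (hS : MeasurableSet S)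
    (hb : Bornology.IsBounded S) (hV : vol S ≠ 0) :
    isoPow (affMap F c '' S) = isoPow S := by
  unfold isoPow
  rw [aff_cov hF c hS hb hV, aff_vol hF c hS, Matrix.det_mul, Matrix.det_mul,
    Matrix.det_transpose, mul_pow, sq_abs]
  field_simp

/-! ### Reindexing the coordinates -/

/-- reindexing coordinates along `e : σ ≃ τ` -/
def reix {σ τ : Type*} (e : σ ≃ τ) (z : σ → ℝ) : τ → ℝ := fun t => z (e.symm t)

lemma reix_eq {σ τ : Type*} [Fintype σ] [Fintype τ] (e : σ ≃ τ) :
    ⇑(MeasurableEquiv.piCongrLeft (fun _ : τ => ℝ) e) = reix e := by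
  funext z t
  simp [reix, MeasurableEquiv.piCongrLeft, Equiv.piCongrLeft_apply_eq_cast]

lemma reix_integral {σ τ : Type*} [Fintype σ] [Fintype τ] (e : σ ≃ τ) (S : Set (σ → ℝ))
    (g : (τ → ℝ) → ℝ) :
    ∫ y in reix e '' S, g y = ∫ x in S, g (reix e x) := by
  have hmp := volume_measurePreserving_piCongrLeft (fun _ : τ => ℝ) e
  have h := hmp.setIntegral_image_emb (MeasurableEquiv.measurableEmbedding _) g S
  rwa [reix_eq] at h

lemma reix_vol {σ τ : Type*} [Fintype σ] [Fintype τ] (e : σ ≃ τ) (S : Set (σ → ℝ)) :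
    vol (reix e '' S) = vol S := by
  rw [vol_eq_integral, vol_eq_integral, reix_integral]

lemma reix_centroid {σ τ : Type*} [Fintype σ] [Fintype τ] (e : σ ≃ τ) (S : Set (σ → ℝ))
    (t : τ) : centroid (reix e '' S) t = centroid S (e.symm t) := by
  unfold centroid
  rw [reix_vol, reix_integral e S (fun y => y t)]
  rfl

lemma reix_cov {σ τ : Type*} [Fintype σ] [Fintype τ] (e : σ ≃ τ) (S : Set (σ → ℝ)) :
    cov (reix e '' S) = (cov S).submatrix e.symm e.symm := by
  ext t t'
  simp only [cov, Matrix.of_apply, Matrix.submatrix_apply]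
  rw [reix_vol, reix_centroid, reix_centroid,
    reix_integral e S (fun y => (y t - centroid S (e.symm t)) * (y t' - centroid S (e.symm t')))]
  rfl

theorem isoPow_reix {σ τ : Type*} [Fintype σ] [Fintype τ] [DecidableEq σ] [DecidableEq τ]
    (e : σ ≃ τ) (S : Set (σ → ℝ)) : isoPow (reix e '' S) = isoPow S := by
  unfold isoPow
  rw [reix_cov, reix_vol, Matrix.det_submatrix_equiv_self]

lemma reix_measurable {σ τ : Type*} [Fintype σ] [Fintype τ] (e : σ ≃ τ) {S : Set (σ → ℝ)}
    (hS : MeasurableSet S) : MeasurableSet (reix e '' S) := by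
  rw [← reix_eq]
  exact (MeasurableEquiv.measurableSet_image _).2 hS

lemma reix_bounded {σ τ : Type*} [Fintype σ] [Fintype τ] (e : σ ≃ τ) {S : Set (σ → ℝ)}
    (hS : Bornology.IsBounded S) : Bornology.IsBounded (reix e '' S) := by
  obtain ⟨C, hC⟩ := isBounded_iff_forall_norm_le.1 hS
  refine isBounded_iff_forall_norm_le.2 ⟨max C 0, ?_⟩
  rintro _ ⟨z, hz, rfl⟩
  refine (pi_norm_le_iff_of_nonneg (le_max_right _ _)).2 fun t => ?_
  exact ((norm_le_pi_norm z (e.symm t)).trans (hC z hz)).trans (le_max_left _ _)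

/-! ### General invertible affine maps -/

/-- `isoPow` is invariant under the affine bijection `z ↦ c + ∑ s, z s • d s` attached to a
basis `d` of `ℝ^τ` indexed by `σ`. -/
theorem isoPow_affine_image {σ τ : Type*} [Fintype σ] [Fintype τ] [DecidableEq σ]
    [DecidableEq τ] (e : σ ≃ τ) (d : σ → τ → ℝ) (hd : LinearIndependent ℝ d) (c : τ → ℝ)
    {S : Set (σ → ℝ)} (hS : MeasurableSet S) (hb : Bornology.IsBounded S) (hV : vol S ≠ 0) :
    isoPow ((fun z : σ → ℝ => c + ∑ s, z s • d s) '' S) = isoPow S := by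
  set F : Matrix τ τ ℝ := Matrix.of fun t t' => d (e.symm t') t with hF
  have hcol : F.col = fun t' => d (e.symm t') := by
    funext t' t; rfl
  have hFu : IsUnit F := by
    apply Matrix.linearIndependent_cols_iff_isUnit.1
    rw [hcol]
    exact hd.comp e.symm e.symm.injective
  have hdet : F.det ≠ 0 := isUnit_iff_ne_zero.1 ((Matrix.isUnit_iff_isUnit_det F).1 hFu)
  have hfun : (fun z : σ → ℝ => c + ∑ s, z s • d s) = affMap F c ∘ reix e := by
    funext z t
    rw [Function.comp_apply, affMap_apply]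
    simp only [Pi.add_apply, Finset.sum_apply, Pi.smul_apply, smul_eq_mul, hF, Matrix.of_apply,
      reix]
    congr 1
    rw [← Equiv.sum_comp e.symm]
    refine Finset.sum_congr rfl fun t' _ => ?_
    ring
  rw [hfun, Set.image_comp, isoPow_aff hdet c (reix_measurable e hS) (reix_bounded e hb)
    (by rw [reix_vol]; exact hV), isoPow_reix]

end

end Vale.Agent.Lib.P254
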