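import Vale.Agent.Lib.P254.ProductDefs

/-!
# P254: a family of convex bodies built from polytopes with few vertices

The closed cone over a set, and the smallest family of sets containing the convex hulls of at
most `n + 2` points of `ℝ^n` (with nonempty interior) that is closed under Cartesian products,
free sums glued at interior points, closed cones and invertible affine maps.
-/

namespace Vale.Agent.Lib.P254

open Matrix

/-- The closed cone `{(t p, t) : p ∈ B, 0 ≤ t ≤ 1}` in `ℝ^ι × ℝ`: the union of the segments from
the origin (the apex) to the points of `B × {1}`. -/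
def ccone {ι : Type*} (B : Set (ι → ℝ)) : Set (ι ⊕ Unit → ℝ) :=
  {y | ∃ p ∈ B, ∃ t : ℝ, 0 ≤ t ∧ t ≤ 1 ∧ y = Sum.elim (t • p) (fun _ => t)}

/-- The smallest family of subsets of the spaces `ℝ^ι` (`ι` a finite index type) such that:
* `few`: the convex hull of a finite set of at most `card ι + 2` points of `ℝ^ι` is in the
  family whenever it has nonempty interior;
* `prod`: the Cartesian product of two members (in positive dimensions) is a member;
* `fsum`: the free sum of two members (in positive dimensions) that contain the origin in their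
  interiors is a member;
* `cone`: the closed cone over a member is a member;
* `aff`: the image of a member under an invertible affine map is a member. -/
inductive Good : ∀ {ι : Type} [Fintype ι] [DecidableEq ι], Set (ι → ℝ) → Prop
  | few {ι : Type} [Fintype ι] [DecidableEq ι] (V : Finset (ι → ℝ))
      (hV : V.card ≤ Fintype.card ι + 2)
      (hint : (interior (convexHull ℝ (V : Set (ι → ℝ)))).Nonempty) :
      Good (convexHull ℝ (V : Set (ι → ℝ)))
  | prod {ι κ : Type} [Fintype ι] [DecidableEq ι] [Nonempty ι] [Fintype κ] [DecidableEq κ]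
      [Nonempty κ] (A : Set (ι → ℝ)) (B : Set (κ → ℝ)) (hA : Good A) (hB : Good B) :
      Good (prodSet A B)
  | fsum {ι κ : Type} [Fintype ι] [DecidableEq ι] [Nonempty ι] [Fintype κ] [DecidableEq κ]
      [Nonempty κ] (A : Set (ι → ℝ)) (B : Set (κ → ℝ)) (hA : Good A) (hB : Good B)
      (h0A : (0 : ι → ℝ) ∈ interior A) (h0B : (0 : κ → ℝ) ∈ interior B) :
      Good (freeSum A B)
  | cone {ι : Type} [Fintype ι] [DecidableEq ι] (A : Set (ι → ℝ)) (hA : Good A) :
      Good (ccone A)
  | aff {ι : Type} [Fintype ι] [DecidableEq ι] (F : Matrix ι ι ℝ) (c : ι → ℝ)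
      (hF : F.det ≠ 0) (A : Set (ι → ℝ)) (hA : Good A) :
      Good ((fun x : ι → ℝ => c + F *ᵥ x) '' A)

end Vale.Agent.Lib.P254
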