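import Mathlib

/-!
# P254: isotropic constants of cones and prisms

For a finite index type `ι`, a set `S ⊆ ℝ^ι` has volume `vol S`, centroid `centroid S`,
covariance matrix `cov S` and `isoPow S = det (cov S) / (vol S)^2`, which is the
`2n`-th power of the isotropic constant `L_S` (`n = card ι`).
-/

namespace Vale.Agent.Lib.P254

open MeasureTheory Matrix Set
open scoped Pointwise

set_option linter.unusedSectionVars false
set_option linter.deprecated false

noncomputable section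

variable {ι : Type*} [Fintype ι]

/-- Lebesgue volume of a subset of `ℝ^ι`, as a real number. -/
def vol {κ : Type*} [Fintype κ] (S : Set (κ → ℝ)) : ℝ := (volume S).toReal

/-- The centroid of `S`. -/
def centroid {κ : Type*} [Fintype κ] (S : Set (κ → ℝ)) (i : κ) : ℝ := (∫ x in S, x i) / vol S

/-- The covariance matrix of the uniform distribution on `S`. -/
def cov {κ : Type*} [Fintype κ] (S : Set (κ → ℝ)) : Matrix κ κ ℝ :=
  Matrix.of fun i j => (∫ x in S, (x i - centroid S i) * (x j - centroid S j)) / vol S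

/-- `det Σ_S / |S|^2`, the `2n`-th power of the isotropic constant of `S ⊆ ℝ^n`. -/
def isoPow {κ : Type*} [Fintype κ] [DecidableEq κ] (S : Set (κ → ℝ)) : ℝ :=
  (cov S).det / (vol S) ^ 2

/-- The cone `{(t p, t) : p ∈ B, 0 < t ≤ 1}` in `ℝ^ι × ℝ` (apex at the origin, apex omitted). -/
def cone (B : Set (ι → ℝ)) : Set (ι ⊕ Unit → ℝ) :=
  {y | ∃ p ∈ B, ∃ t : ℝ, 0 < t ∧ t ≤ 1 ∧ y = Sum.elim (t • p) (fun _ => t)}

/-- The prism `B × [0,1]` in `ℝ^ι × ℝ`. -/
def prism (B : Set (ι → ℝ)) : Set (ι ⊕ Unit → ℝ) :=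
  {y | ∃ p ∈ B, ∃ t : ℝ, 0 ≤ t ∧ t ≤ 1 ∧ y = Sum.elim p (fun _ => t)}

/-- Splitting `ℝ^(ι ⊕ Unit)` as `ℝ^ι × ℝ`. -/
def split : (ι ⊕ Unit → ℝ) ≃ᵐ (ι → ℝ) × ℝ :=
  (MeasurableEquiv.sumPiEquivProdPi (fun _ : ι ⊕ Unit => ℝ)).trans
    (MeasurableEquiv.prodCongr (MeasurableEquiv.refl _) (MeasurableEquiv.funUnique Unit ℝ))

lemma split_apply (y : ι ⊕ Unit → ℝ) :
    split y = (fun i => y (Sum.inl i), y (Sum.inr ())) := rfl

lemma split_mp : MeasurePreserving (split (ι := ι)) volume volume :=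
  (volume_measurePreserving_sumPiEquivProdPi (fun _ : ι ⊕ Unit => ℝ)).trans
    ((MeasurePreserving.id volume).prod (volume_preserving_funUnique Unit ℝ))

/-- The cone in split coordinates. -/
def coneS (B : Set (ι → ℝ)) : Set ((ι → ℝ) × ℝ) :=
  {q | 0 < q.2 ∧ q.2 ≤ 1 ∧ q.2⁻¹ • q.1 ∈ B}

lemma cone_eq (B : Set (ι → ℝ)) : cone B = split ⁻¹' coneS B := by
  ext y
  simp only [cone, coneS, mem_setOf_eq, mem_preimage, split_apply]
  constructor
  · rintro ⟨p, hp, t, ht0, ht1, rfl⟩
    refine ⟨ht0, ht1, ?_⟩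
    have : ((Sum.elim (t • p) (fun _ => t) : ι ⊕ Unit → ℝ) (Sum.inr ()))⁻¹ •
        (fun i => (Sum.elim (t • p) (fun _ => t) : ι ⊕ Unit → ℝ) (Sum.inl i)) = p := by
      funext i
      simp [ht0.ne']
    rw [this]; exact hp
  · rintro ⟨ht0, ht1, hB⟩
    refine ⟨_, hB, y (Sum.inr ()), ht0, ht1, ?_⟩
    funext j
    rcases j with i | u
    · simp [ht0.ne']
    · simp

lemma prism_eq (B : Set (ι → ℝ)) : prism B = split ⁻¹' (B ×ˢ Icc (0:ℝ) 1) := by
  ext y
  simp only [prism, mem_setOf_eq, mem_preimage, split_apply, mem_prod, mem_Icc]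
  constructor
  · rintro ⟨p, hp, t, ht0, ht1, rfl⟩
    exact ⟨by simpa using hp, by simpa using ht0, by simpa using ht1⟩
  · rintro ⟨hB, ht0, ht1⟩
    refine ⟨_, hB, y (Sum.inr ()), ht0, ht1, ?_⟩
    funext j
    rcases j with i | u
    · simp
    · simp

lemma measurableSet_coneS {B : Set (ι → ℝ)} (hB : MeasurableSet B) :
    MeasurableSet (coneS B) := by
  have h1 : MeasurableSet {q : (ι → ℝ) × ℝ | 0 < q.2} :=
    measurableSet_lt measurable_const measurable_snd
  have h2 : MeasurableSet {q : (ι → ℝ) × ℝ | q.2 ≤ 1} :=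
    measurableSet_le measurable_snd measurable_const
  have h3 : MeasurableSet {q : (ι → ℝ) × ℝ | q.2⁻¹ • q.1 ∈ B} := by
    have hm : Measurable (fun q : (ι → ℝ) × ℝ => q.2⁻¹ • q.1) :=
      (measurable_snd.inv).smul measurable_fst
    exact hm hB
  exact h1.inter (h2.inter h3)

lemma coneS_subset_compact {B : Set (ι → ℝ)} (hbd : Bornology.IsBounded B) :
    ∃ K : Set ((ι → ℝ) × ℝ), IsCompact K ∧ coneS B ⊆ K := by
  obtain ⟨R, hR⟩ := hbd.subset_closedBall (0 : ι → ℝ)
  refine ⟨Metric.closedBall 0 (max R 0) ×ˢ Icc 0 1,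
    (isCompact_closedBall _ _).prod isCompact_Icc, ?_⟩
  rintro ⟨x, t⟩ ⟨ht0, ht1, hx⟩
  refine ⟨?_, ht0.le, ht1⟩
  have h1 : ‖t⁻¹ • x‖ ≤ R := by simpa using hR hx
  have hx' : x = t • (t⁻¹ • x) := by rw [smul_smul, mul_inv_cancel₀ ht0.ne', one_smul]
  show x ∈ Metric.closedBall 0 (max R 0)
  rw [mem_closedBall_zero_iff, hx', norm_smul, Real.norm_of_nonneg ht0.le]
  calc t * ‖t⁻¹ • x‖ ≤ 1 * max R 0 :=
        mul_le_mul ht1 (h1.trans (le_max_left _ _)) (norm_nonneg _) zero_le_one
    _ = max R 0 := one_mul _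

lemma coneS_integral {B : Set (ι → ℝ)} (hB : MeasurableSet B) (hbd : Bornology.IsBounded B)
    (φ : (ι → ℝ) → ℝ) (hφ : Continuous φ) (d k : ℕ)
    (hhom : ∀ (t : ℝ) (p : ι → ℝ), φ (t • p) = t ^ d * φ p) :
    ∫ q in coneS B, q.2 ^ k * φ q.1 =
      (∫ p in B, φ p) / (Fintype.card ι + k + d + 1 : ℝ) := by
  set g : (ι → ℝ) × ℝ → ℝ := fun q => q.2 ^ k * φ q.1 with hg
  have hgc : Continuous g := (continuous_snd.pow k).mul (hφ.comp continuous_fst)
  have hmeas := measurableSet_coneS hB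
  obtain ⟨K, hK, hsub⟩ := coneS_subset_compact hbd
  have hint : IntegrableOn g (coneS B) :=
    (hgc.continuousOn.integrableOn_compact hK).mono_set hsub
  have hint' : Integrable ((coneS B).indicator g)
      ((volume : Measure (ι → ℝ)).prod (volume : Measure ℝ)) :=
    hint.integrable_indicator hmeas
  have hstart : ∫ q in coneS B, q.2 ^ k * φ q.1 =
      ∫ q, (coneS B).indicator g q ∂((volume : Measure (ι → ℝ)).prod (volume : Measure ℝ)) :=
    (integral_indicator hmeas).symm
  rw [hstart, integral_prod_symm _ hint']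
  have hinner : ∀ t : ℝ, ∫ x, (coneS B).indicator g (x, t) =
      (Ioc (0:ℝ) 1).indicator (fun t => t ^ (k + Fintype.card ι + d) * ∫ p in B, φ p) t := by
    intro t
    by_cases ht : t ∈ Ioc (0:ℝ) 1
    · rw [indicator_of_mem ht]
      have h1 : ∀ x, (coneS B).indicator g (x, t) =
          (t • B).indicator (fun x => t ^ k * φ x) x := by
        intro x
        by_cases hx : x ∈ t • B
        · rw [indicator_of_mem hx, indicator_of_mem]
          exact ⟨ht.1, ht.2, (mem_smul_set_iff_inv_smul_mem₀ ht.1.ne' _ _).1 hx⟩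
        · rw [indicator_of_notMem hx, indicator_of_notMem]
          rintro ⟨_, _, h⟩
          exact hx ((mem_smul_set_iff_inv_smul_mem₀ ht.1.ne' _ _).2 h)
      simp_rw [h1]
      rw [integral_indicator (hB.const_smul_of_ne_zero ht.1.ne'), integral_const_mul]
      have h2 := Measure.setIntegral_comp_smul_of_pos (volume : Measure (ι → ℝ)) φ B ht.1
      rw [Module.finrank_fintype_fun_eq_card] at h2
      have h3 : ∫ x in B, φ (t • x) = t ^ d * ∫ x in B, φ x := by
        simp_rw [hhom]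
        rw [integral_const_mul]
      rw [h3, smul_eq_mul] at h2
      have htn : (t ^ Fintype.card ι) ≠ 0 := pow_ne_zero _ ht.1.ne'
      have h4 : ∫ x in t • B, φ x = t ^ Fintype.card ι * (t ^ d * ∫ x in B, φ x) := by
        rw [h2]; field_simp
      rw [h4]; ring
    · rw [indicator_of_notMem ht]
      have h1 : ∀ x, (coneS B).indicator g (x, t) = 0 := by
        intro x
        rw [indicator_of_notMem]
        rintro ⟨h0, h1, _⟩
        exact ht ⟨h0, h1⟩
      simp_rw [h1]
      simp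
  simp_rw [hinner]
  rw [integral_indicator measurableSet_Ioc, integral_mul_const,
    ← intervalIntegral.integral_of_le zero_le_one, integral_pow]
  have : ((k + Fintype.card ι + d : ℕ) : ℝ) + 1 ≠ 0 := by positivity
  have h5 : (Fintype.card ι + k + d + 1 : ℝ) ≠ 0 := by positivity
  push_cast
  field_simp
  ring

lemma cone_integral {B : Set (ι → ℝ)} (hB : MeasurableSet B) (hbd : Bornology.IsBounded B)
    (φ : (ι → ℝ) → ℝ) (hφ : Continuous φ) (d k : ℕ)
    (hhom : ∀ (t : ℝ) (p : ι → ℝ), φ (t • p) = t ^ d * φ p) :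
    ∫ y in cone B, (y (Sum.inr ())) ^ k * φ (fun i => y (Sum.inl i)) =
      (∫ p in B, φ p) / (Fintype.card ι + k + d + 1 : ℝ) := by
  rw [cone_eq, ← coneS_integral hB hbd φ hφ d k hhom]
  exact split_mp.setIntegral_preimage_emb split.measurableEmbedding
    (fun q : (ι → ℝ) × ℝ => q.2 ^ k * φ q.1) (coneS B)

lemma prism_integral {B : Set (ι → ℝ)} (φ : (ι → ℝ) → ℝ) (k : ℕ) :
    ∫ y in prism B, (y (Sum.inr ())) ^ k * φ (fun i => y (Sum.inl i)) =
      (∫ p in B, φ p) / (k + 1 : ℝ) := by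
  rw [prism_eq]
  have h := split_mp.setIntegral_preimage_emb split.measurableEmbedding
    (fun q : (ι → ℝ) × ℝ => q.2 ^ k * φ q.1) (B ×ˢ Icc (0:ℝ) 1)
  have h' : ∫ y in split ⁻¹' (B ×ˢ Icc (0:ℝ) 1),
      (y (Sum.inr ())) ^ k * φ (fun i => y (Sum.inl i)) =
      ∫ q in B ×ˢ Icc (0:ℝ) 1, q.2 ^ k * φ q.1 := h
  rw [h']
  have h2 := setIntegral_prod_mul (μ := (volume : Measure (ι → ℝ))) (ν := (volume : Measure ℝ))
    φ (fun t : ℝ => t ^ k) B (Icc (0:ℝ) 1)
  have h3 : ∫ q in B ×ˢ Icc (0:ℝ) 1, q.2 ^ k * φ q.1 =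
      ∫ q in B ×ˢ Icc (0:ℝ) 1, φ q.1 * q.2 ^ k := by
    congr 1; funext q; ring
  rw [h3]
  have h4 : (∫ q in B ×ˢ Icc (0:ℝ) 1, φ q.1 * q.2 ^ k) =
      (∫ x in B, φ x) * ∫ t in Icc (0:ℝ) 1, t ^ k := h2
  rw [h4, integral_Icc_eq_integral_Ioc,
    ← intervalIntegral.integral_of_le zero_le_one, integral_pow]
  have : (k + 1 : ℝ) ≠ 0 := by positivity
  field_simp
  simp

lemma integrableOn_of_isBounded {κ : Type*} [Fintype κ] {S : Set (κ → ℝ)}
    (hS : Bornology.IsBounded S) (f : (κ → ℝ) → ℝ) (hf : Continuous f) :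
    IntegrableOn f S := by
  obtain ⟨R, hR⟩ := hS.subset_closedBall (0 : κ → ℝ)
  exact (hf.continuousOn.integrableOn_compact (isCompact_closedBall _ _)).mono_set hR

lemma vol_eq_integral {κ : Type*} [Fintype κ] (S : Set (κ → ℝ)) :
    vol S = ∫ _x in S, (1 : ℝ) := by
  rw [setIntegral_const]; simp [vol, Measure.real]

lemma cov_apply_eq {κ : Type*} [Fintype κ] {S : Set (κ → ℝ)}
    (hS : Bornology.IsBounded S) (hV : vol S ≠ 0) (i j : κ) :
    cov S i j = (∫ x in S, x i * x j) / vol S - centroid S i * centroid S j := by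
  have hi : ∀ k : κ, IntegrableOn (fun x : κ → ℝ => x k) S :=
    fun k => integrableOn_of_isBounded hS _ (continuous_apply k)
  have hij : IntegrableOn (fun x : κ → ℝ => x i * x j) S :=
    integrableOn_of_isBounded hS _ ((continuous_apply i).mul (continuous_apply j))
  have hc : IntegrableOn (fun _ : κ → ℝ => (1 : ℝ)) S :=
    integrableOn_of_isBounded hS _ continuous_const
  set ci := centroid S i with hci
  set cj := centroid S j with hcj
  have e : (fun x : κ → ℝ => (x i - ci) * (x j - cj)) =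
      fun x => x i * x j - cj * x i - ci * x j + ci * cj * 1 := by
    funext x; ring
  have h1 : ∫ x in S, (x i - ci) * (x j - cj) =
      (∫ x in S, x i * x j) - cj * (∫ x in S, x i) - ci * (∫ x in S, x j)
        + ci * cj * vol S := by
    have ea : ∫ x in S, (x i * x j - cj * x i - ci * x j + ci * cj * 1) =
        (∫ x in S, (x i * x j - cj * x i - ci * x j)) + ∫ _x in S, ci * cj * 1 :=
      integral_add ((hij.sub ((hi i).const_mul cj)).sub ((hi j).const_mul ci))
        (hc.const_mul (ci * cj))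
    have eb : ∫ x in S, (x i * x j - cj * x i - ci * x j) =
        (∫ x in S, (x i * x j - cj * x i)) - ∫ x in S, ci * x j :=
      integral_sub (hij.sub ((hi i).const_mul cj)) ((hi j).const_mul ci)
    have ec : ∫ x in S, (x i * x j - cj * x i) =
        (∫ x in S, x i * x j) - ∫ x in S, cj * x i :=
      integral_sub hij ((hi i).const_mul cj)
    rw [e, ea, eb, ec, integral_const_mul, integral_const_mul, integral_const_mul,
      ← vol_eq_integral]
  have h2 : ∫ x in S, x i = ci * vol S := by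
    rw [hci, centroid]; field_simp
  have h3 : ∫ x in S, x j = cj * vol S := by
    rw [hcj, centroid]; field_simp
  show (∫ x in S, (x i - ci) * (x j - cj)) / vol S = _
  rw [h1, h2, h3]
  field_simp
  ring

lemma isBounded_cone {B : Set (ι → ℝ)} (hbd : Bornology.IsBounded B) :
    Bornology.IsBounded (cone B) := by
  obtain ⟨R, hR⟩ := (isBounded_iff_forall_norm_le).1 hbd
  refine (isBounded_iff_forall_norm_le).2 ⟨max R 1, ?_⟩
  rintro y ⟨p, hp, t, ht0, ht1, rfl⟩
  have hR0 : 0 ≤ max R 1 := le_trans zero_le_one (le_max_right _ _)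
  rw [pi_norm_le_iff_of_nonneg hR0]
  rintro (i | u)
  · have h1 : ‖p i‖ ≤ R := (norm_le_pi_norm p i).trans (hR p hp)
    have h2 : 0 ≤ R := (norm_nonneg _).trans h1
    simp only [Sum.elim_inl, Pi.smul_apply, smul_eq_mul, norm_mul, Real.norm_eq_abs,
      abs_of_pos ht0]
    calc t * |p i| ≤ 1 * R := mul_le_mul ht1 h1 (abs_nonneg _) zero_le_one
      _ ≤ max R 1 := by rw [one_mul]; exact le_max_left _ _
  · simp only [Sum.elim_inr, Real.norm_eq_abs, abs_of_pos ht0]
    exact ht1.trans (le_max_right _ _)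

lemma isBounded_prism {B : Set (ι → ℝ)} (hbd : Bornology.IsBounded B) :
    Bornology.IsBounded (prism B) := by
  obtain ⟨R, hR⟩ := (isBounded_iff_forall_norm_le).1 hbd
  refine (isBounded_iff_forall_norm_le).2 ⟨max R 1, ?_⟩
  rintro y ⟨p, hp, t, ht0, ht1, rfl⟩
  have hR0 : 0 ≤ max R 1 := le_trans zero_le_one (le_max_right _ _)
  rw [pi_norm_le_iff_of_nonneg hR0]
  rintro (i | u)
  · have h1 : ‖p i‖ ≤ R := (norm_le_pi_norm p i).trans (hR p hp)
    simp only [Sum.elim_inl]
    exact h1.trans (le_max_left _ _)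
  · simp only [Sum.elim_inr, Real.norm_eq_abs, abs_of_nonneg ht0]
    exact ht1.trans (le_max_right _ _)

section moments

variable {B : Set (ι → ℝ)}

lemma cone_vol (hB : MeasurableSet B) (hbd : Bornology.IsBounded B) :
    vol (cone B) = vol B / (Fintype.card ι + 1) := by
  have h := cone_integral hB hbd (fun _ => (1:ℝ)) continuous_const 0 0 (by intro t p; simp)
  rw [vol_eq_integral, vol_eq_integral]
  simpa using h

lemma cone_m1 (hB : MeasurableSet B) (hbd : Bornology.IsBounded B) (i : ι) :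
    ∫ y in cone B, y (Sum.inl i) = (∫ p in B, p i) / (Fintype.card ι + 2) := by
  have h := cone_integral hB hbd (fun p => p i) (continuous_apply i) 1 0
    (by intro t p; simp)
  have e : (Fintype.card ι + ((0:ℕ):ℝ) + ((1:ℕ):ℝ) + 1 : ℝ) = Fintype.card ι + 2 := by
    push_cast; ring
  rw [e] at h
  simpa using h

lemma cone_mt (hB : MeasurableSet B) (hbd : Bornology.IsBounded B) :
    ∫ y in cone B, y (Sum.inr ()) = vol B / (Fintype.card ι + 2) := by
  have h := cone_integral hB hbd (fun _ => (1:ℝ)) continuous_const 0 1 (by intro t p; simp)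
  have e : (Fintype.card ι + ((1:ℕ):ℝ) + ((0:ℕ):ℝ) + 1 : ℝ) = Fintype.card ι + 2 := by
    push_cast; ring
  rw [e] at h
  rw [vol_eq_integral]
  simpa using h

lemma cone_m2 (hB : MeasurableSet B) (hbd : Bornology.IsBounded B) (i j : ι) :
    ∫ y in cone B, y (Sum.inl i) * y (Sum.inl j) =
      (∫ p in B, p i * p j) / (Fintype.card ι + 3) := by
  have h := cone_integral hB hbd (fun p => p i * p j)
    ((continuous_apply i).mul (continuous_apply j)) 2 0
    (by intro t p; simp only [Pi.smul_apply, smul_eq_mul]; ring)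
  have e : (Fintype.card ι + ((0:ℕ):ℝ) + ((2:ℕ):ℝ) + 1 : ℝ) = Fintype.card ι + 3 := by
    push_cast; ring
  rw [e] at h
  simpa using h

lemma cone_m1t (hB : MeasurableSet B) (hbd : Bornology.IsBounded B) (i : ι) :
    ∫ y in cone B, y (Sum.inr ()) * y (Sum.inl i) =
      (∫ p in B, p i) / (Fintype.card ι + 3) := by
  have h := cone_integral hB hbd (fun p => p i) (continuous_apply i) 1 1
    (by intro t p; simp)
  have e : (Fintype.card ι + ((1:ℕ):ℝ) + ((1:ℕ):ℝ) + 1 : ℝ) = Fintype.card ι + 3 := by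
    push_cast; ring
  rw [e] at h
  simpa using h

lemma cone_mtt (hB : MeasurableSet B) (hbd : Bornology.IsBounded B) :
    ∫ y in cone B, y (Sum.inr ()) * y (Sum.inr ()) = vol B / (Fintype.card ι + 3) := by
  have h := cone_integral hB hbd (fun _ => (1:ℝ)) continuous_const 0 2 (by intro t p; simp)
  have e : (Fintype.card ι + ((2:ℕ):ℝ) + ((0:ℕ):ℝ) + 1 : ℝ) = Fintype.card ι + 3 := by
    push_cast; ring
  rw [e] at h
  rw [vol_eq_integral]
  simpa [pow_two] using h

lemma prism_vol : vol (prism B) = vol B := by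
  have h := prism_integral (B := B) (fun _ => (1:ℝ)) 0
  rw [vol_eq_integral, vol_eq_integral]
  simpa using h

lemma prism_m1 (i : ι) : ∫ y in prism B, y (Sum.inl i) = ∫ p in B, p i := by
  have h := prism_integral (B := B) (fun p => p i) 0
  simpa using h

lemma prism_mt : ∫ y in prism B, y (Sum.inr ()) = vol B / 2 := by
  have h := prism_integral (B := B) (fun _ => (1:ℝ)) 1
  rw [vol_eq_integral]
  have e : ((1:ℕ):ℝ) + 1 = 2 := by norm_num
  rw [e] at h
  simpa using h

lemma prism_m2 (i j : ι) :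
    ∫ y in prism B, y (Sum.inl i) * y (Sum.inl j) = ∫ p in B, p i * p j := by
  have h := prism_integral (B := B) (fun p => p i * p j) 0
  simpa using h

lemma prism_m1t (i : ι) :
    ∫ y in prism B, y (Sum.inr ()) * y (Sum.inl i) = (∫ p in B, p i) / 2 := by
  have h := prism_integral (B := B) (fun p => p i) 1
  have e : ((1:ℕ):ℝ) + 1 = 2 := by norm_num
  rw [e] at h
  simpa using h

lemma prism_mtt : ∫ y in prism B, y (Sum.inr ()) * y (Sum.inr ()) = vol B / 3 := by
  have h := prism_integral (B := B) (fun _ => (1:ℝ)) 2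
  have e : ((2:ℕ):ℝ) + 1 = 3 := by norm_num
  rw [e] at h
  rw [vol_eq_integral]
  simpa [pow_two] using h

end moments

lemma measurableSet_cone {B : Set (ι → ℝ)} (hB : MeasurableSet B) : MeasurableSet (cone B) := by
  rw [cone_eq]
  exact split.measurable (measurableSet_coneS hB)

lemma measurableSet_prism {B : Set (ι → ℝ)} (hB : MeasurableSet B) :
    MeasurableSet (prism B) := by
  rw [prism_eq]
  exact split.measurable (hB.prod measurableSet_Icc)

lemma cone_vol_pos {B : Set (ι → ℝ)} (hB : MeasurableSet B) (hbd : Bornology.IsBounded B)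
    (hV : 0 < vol B) : 0 < vol (cone B) := by
  rw [cone_vol hB hbd]
  have : (0:ℝ) ≤ (Fintype.card ι : ℝ) := Nat.cast_nonneg _
  positivity

lemma prism_vol_pos {B : Set (ι → ℝ)} (hV : 0 < vol B) : 0 < vol (prism B) := by
  rw [prism_vol]; exact hV

section main

variable [DecidableEq ι] {B : Set (ι → ℝ)}

lemma cone_mt1 (hB : MeasurableSet B) (hbd : Bornology.IsBounded B) (i : ι) :
    ∫ y in cone B, y (Sum.inl i) * y (Sum.inr ()) =
      (∫ p in B, p i) / (Fintype.card ι + 3) := by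
  have e : (fun y : ι ⊕ Unit → ℝ => y (Sum.inl i) * y (Sum.inr ())) =
      fun y => y (Sum.inr ()) * y (Sum.inl i) := by funext y; ring
  rw [e]; exact cone_m1t hB hbd i

lemma prism_mt1 (i : ι) :
    ∫ y in prism B, y (Sum.inl i) * y (Sum.inr ()) = (∫ p in B, p i) / 2 := by
  have e : (fun y : ι ⊕ Unit → ℝ => y (Sum.inl i) * y (Sum.inr ())) =
      fun y => y (Sum.inr ()) * y (Sum.inl i) := by funext y; ring
  rw [e]; exact prism_m1t i

/-- The factor relating a cone to its base: the power n+3 of n+1, divided by the square of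
n+2 times the power n+1 of n+3. -/
def coneConst (n : ℕ) : ℝ := ((n:ℝ) + 1) ^ (n + 3) / (((n:ℝ) + 2) ^ 2 * ((n:ℝ) + 3) ^ (n + 1))

/-- the `1 × 1` block is invertible -/
@[instance_reducible]
def invOne (τ : ℝ) (h : τ ≠ 0) : Invertible (Matrix.of fun (_ _ : Unit) => τ) :=
  ⟨Matrix.of fun (_ _ : Unit) => τ⁻¹,
    by ext u v; simp [Matrix.mul_apply, h],
    by ext u v; simp [Matrix.mul_apply, h]⟩

theorem cov_cone (hB : MeasurableSet B) (hbd : Bornology.IsBounded B) (hV : 0 < vol B) :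
    cov (cone B) = Matrix.fromBlocks
      ((((Fintype.card ι : ℝ) + 1) / ((Fintype.card ι : ℝ) + 3)) • cov B +
        Matrix.of fun i j => (((Fintype.card ι : ℝ) + 1) /
          (((Fintype.card ι : ℝ) + 3) * ((Fintype.card ι : ℝ) + 2) ^ 2)) *
            (centroid B i * centroid B j))
      (Matrix.of fun i (_ : Unit) => (((Fintype.card ι : ℝ) + 1) /
          (((Fintype.card ι : ℝ) + 3) * ((Fintype.card ι : ℝ) + 2) ^ 2)) * centroid B i)
      (Matrix.of fun (_ : Unit) j => (((Fintype.card ι : ℝ) + 1) /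
          (((Fintype.card ι : ℝ) + 3) * ((Fintype.card ι : ℝ) + 2) ^ 2)) * centroid B j)
      (Matrix.of fun (_ _ : Unit) => (((Fintype.card ι : ℝ) + 1) /
          (((Fintype.card ι : ℝ) + 3) * ((Fintype.card ι : ℝ) + 2) ^ 2))) := by
  set n : ℝ := (Fintype.card ι : ℝ) with hn
  have hn0 : 0 ≤ n := Nat.cast_nonneg _
  have h1 : n + 1 ≠ 0 := by positivity
  have h2 : n + 2 ≠ 0 := by positivity
  have h3 : n + 3 ≠ 0 := by positivity
  have hVc : vol (cone B) = vol B / (n + 1) := cone_vol hB hbd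
  have hVc0 : vol (cone B) ≠ 0 := by rw [hVc]; positivity
  have hbc := isBounded_cone hbd
  have hV0 : vol B ≠ 0 := hV.ne'
  ext (i | u) (j | v)
  · rw [cov_apply_eq hbc hVc0, Matrix.fromBlocks_apply₁₁, Matrix.add_apply, Matrix.smul_apply,
      cov_apply_eq hbd hV0]
    simp only [centroid, cone_m1 hB hbd, cone_m2 hB hbd, hVc, Matrix.of_apply, smul_eq_mul]
    rw [← hn]
    field_simp
    ring
  · rw [cov_apply_eq hbc hVc0, Matrix.fromBlocks_apply₁₂]
    simp only [centroid, cone_m1 hB hbd, cone_mt1 hB hbd, cone_mt hB hbd, hVc, Matrix.of_apply]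
    rw [← hn]
    field_simp
    ring
  · rw [cov_apply_eq hbc hVc0, Matrix.fromBlocks_apply₂₁]
    simp only [centroid, cone_m1 hB hbd, cone_m1t hB hbd, cone_mt hB hbd, hVc, Matrix.of_apply]
    rw [← hn]
    field_simp
    ring
  · rw [cov_apply_eq hbc hVc0, Matrix.fromBlocks_apply₂₂]
    simp only [centroid, cone_mtt hB hbd, cone_mt hB hbd, hVc, Matrix.of_apply]
    rw [← hn]
    field_simp
    ring

theorem isoPow_cone (hB : MeasurableSet B) (hbd : Bornology.IsBounded B) (hV : 0 < vol B) :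
    isoPow (cone B) = coneConst (Fintype.card ι) * isoPow B := by
  set n : ℝ := (Fintype.card ι : ℝ) with hn
  have hn0 : 0 ≤ n := Nat.cast_nonneg _
  have h1 : n + 1 ≠ 0 := by positivity
  have h2 : n + 2 ≠ 0 := by positivity
  have h3 : n + 3 ≠ 0 := by positivity
  have hτ : (n + 1) / ((n + 3) * (n + 2) ^ 2) ≠ 0 := by positivity
  have hVc : vol (cone B) = vol B / (n + 1) := cone_vol hB hbd
  have hV0 : vol B ≠ 0 := hV.ne'
  unfold isoPow
  rw [cov_cone hB hbd hV, hVc]
  rw [← hn]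
  let _ := invOne _ hτ
  rw [Matrix.det_fromBlocks₂₂]
  have hS : (((n + 1) / (n + 3)) • cov B +
        Matrix.of fun i j => ((n + 1) / ((n + 3) * (n + 2) ^ 2)) *
            (centroid B i * centroid B j)) -
      (Matrix.of fun i (_ : Unit) => ((n + 1) / ((n + 3) * (n + 2) ^ 2)) * centroid B i) *
        ⅟(Matrix.of fun (_ _ : Unit) => ((n + 1) / ((n + 3) * (n + 2) ^ 2))) *
        (Matrix.of fun (_ : Unit) j => ((n + 1) / ((n + 3) * (n + 2) ^ 2)) * centroid B j)
      = ((n + 1) / (n + 3)) • cov B := by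
    have hinv : ⅟(Matrix.of fun (_ _ : Unit) => ((n + 1) / ((n + 3) * (n + 2) ^ 2))) =
        Matrix.of fun (_ _ : Unit) => ((n + 1) / ((n + 3) * (n + 2) ^ 2))⁻¹ := rfl
    rw [hinv]
    ext i j
    simp only [Matrix.sub_apply, Matrix.add_apply, Matrix.smul_apply, Matrix.mul_apply,
      Matrix.of_apply, Finset.univ_unique, Finset.sum_singleton, smul_eq_mul]
    field_simp
    ring
  rw [hS, Matrix.det_smul,
    Matrix.det_unique (Matrix.of fun (_ _ : Unit) => ((n + 1) / ((n + 3) * (n + 2) ^ 2))),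
    Matrix.of_apply, div_pow]
  unfold coneConst
  rw [← hn]
  field_simp
  ring

theorem cov_prism (hbd : Bornology.IsBounded B) (hV : 0 < vol B) :
    cov (prism B) = Matrix.fromBlocks (cov B) 0 0 (Matrix.of fun (_ _ : Unit) => (1/12 : ℝ)) := by
  have hVc : vol (prism B) = vol B := prism_vol
  have hV0 : vol B ≠ 0 := hV.ne'
  have hVc0 : vol (prism B) ≠ 0 := by rw [hVc]; exact hV0
  have hbc := isBounded_prism hbd
  ext (i | u) (j | v)
  · rw [cov_apply_eq hbc hVc0, Matrix.fromBlocks_apply₁₁, cov_apply_eq hbd hV0]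
    simp only [centroid, prism_m1, prism_m2, hVc]
  · rw [cov_apply_eq hbc hVc0, Matrix.fromBlocks_apply₁₂]
    simp only [centroid, prism_m1, prism_mt1, prism_mt, hVc, Matrix.zero_apply]
    field_simp
    ring
  · rw [cov_apply_eq hbc hVc0, Matrix.fromBlocks_apply₂₁]
    simp only [centroid, prism_m1, prism_m1t, prism_mt, hVc, Matrix.zero_apply]
    field_simp
    ring
  · rw [cov_apply_eq hbc hVc0, Matrix.fromBlocks_apply₂₂]
    simp only [centroid, prism_mtt, prism_mt, hVc, Matrix.of_apply]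
    field_simp
    ring

theorem isoPow_prism (hbd : Bornology.IsBounded B) (hV : 0 < vol B) :
    isoPow (prism B) = isoPow B / 12 := by
  unfold isoPow
  rw [cov_prism hbd hV, prism_vol, Matrix.det_fromBlocks_zero₁₂,
    Matrix.det_unique (Matrix.of fun (_ _ : Unit) => (1/12 : ℝ)), Matrix.of_apply]
  ring

lemma coneConst_pos (n : ℕ) : 0 < coneConst n := by
  unfold coneConst; positivity

lemma key_ineq (n : ℕ) (hn : 1 ≤ n) :
    ((n:ℝ) + 2) ^ 2 * ((n:ℝ) + 3) ^ (n + 1) < 12 * ((n:ℝ) + 1) ^ (n + 3) := by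
  rcases Nat.lt_or_ge n 4 with h | h
  · interval_cases n <;> norm_num
  · have hm : (5:ℝ) ≤ (n:ℝ) + 1 := by
      have : (4:ℝ) ≤ n := by exact_mod_cast h
      linarith
    have e1 : (n:ℝ) + 3 = ((n:ℝ) + 1) + 2 := by ring
    have e2 : (n:ℝ) + 2 = ((n:ℝ) + 1) + 1 := by ring
    rw [e1, e2]
    set m : ℝ := (n:ℝ) + 1 with hmdef
    have hpos : 0 < m := by linarith
    have h1 : (m + 2) ^ (n + 1) ≤ Real.exp 2 * m ^ (n + 1) := by
      have h0 : (m + 2) / m ≤ Real.exp (2 / m) := by
        have := Real.add_one_le_exp (2 / m)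
        have e : (m + 2) / m = 2 / m + 1 := by field_simp; ring
        rw [e]; exact this
      have h2 : ((m + 2) / m) ^ (n + 1) ≤ Real.exp (2 / m) ^ (n + 1) :=
        pow_le_pow_left₀ (by positivity) h0 _
      have h3 : Real.exp (2 / m) ^ (n + 1) = Real.exp 2 := by
        rw [← Real.exp_nat_mul]
        congr 1
        rw [hmdef]; push_cast; field_simp
      rw [h3, div_pow, div_le_iff₀ (by positivity)] at h2
      exact h2
    have hexp : Real.exp 2 < 8 := by
      have h9 := Real.exp_one_lt_d9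
      have e : Real.exp 2 = Real.exp 1 * Real.exp 1 := by
        rw [← Real.exp_add]; norm_num
      rw [e]
      nlinarith [Real.exp_pos 1]
    have h4 : (m + 1) ^ 2 * 8 ≤ 12 * m ^ 2 := by nlinarith
    have hmp : 0 < m ^ (n + 1) := by positivity
    calc (m + 1) ^ 2 * (m + 2) ^ (n + 1)
        ≤ (m + 1) ^ 2 * (Real.exp 2 * m ^ (n + 1)) := by gcongr
      _ < (m + 1) ^ 2 * (8 * m ^ (n + 1)) := by gcongr
      _ = ((m + 1) ^ 2 * 8) * m ^ (n + 1) := by ring
      _ ≤ (12 * m ^ 2) * m ^ (n + 1) := by gcongr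
      _ = 12 * m ^ (n + 3) := by ring

lemma coneConst_gt (n : ℕ) (hn : 1 ≤ n) : 1 / 12 < coneConst n := by
  unfold coneConst
  rw [div_lt_div_iff₀ (by norm_num) (by positivity)]
  have := key_ineq n hn
  linarith

end main

end

end Vale.Agent.Lib.P254
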