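import Vale.Agent.Lib.P254.FreeSumDefs

/-!
# P254: isotropic constants of free sums

For compact sets `A ⊆ ℝ^ι`, `B ⊆ ℝ^κ` that are star-shaped about the origin, the free sum
`freeSum A B = {((1 - t) a, t b)} ⊆ ℝ^(ι ⊕ κ)` (the convex hull of `A × 0 ∪ 0 × B` when `A`, `B`
are convex) has an explicit isotropic constant in terms of those of `A` and `B` and of the
positions of the origin relative to the two centroids.
-/

namespace Vale.Agent.Lib.P254

open MeasureTheory Matrix Set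
open scoped Pointwise

set_option linter.unusedSectionVars false
set_option linter.deprecated false
set_option linter.unusedVariables false

noncomputable section

variable {ι : Type*} [Fintype ι]

/-! ### Beta integrals -/

lemma beta_rec (M L : ℕ) :
    ((L:ℝ) + 1) * ∫ r in (0:ℝ)..1, (1 - r) ^ (M + 1) * r ^ L =
    ((M:ℝ) + 1) * ∫ r in (0:ℝ)..1, (1 - r) ^ M * r ^ (L + 1) := by
  have hderiv : ∀ r ∈ Set.uIcc (0:ℝ) 1,
      HasDerivAt (fun r : ℝ => (1 - r) ^ (M + 1) * r ^ (L + 1))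
        (((L:ℝ) + 1) * ((1 - r) ^ (M + 1) * r ^ L) -
          ((M:ℝ) + 1) * ((1 - r) ^ M * r ^ (L + 1))) r := by
    intro r _
    have h0 : HasDerivAt (fun r : ℝ => 1 - r) (-1) r := by
      simpa using (hasDerivAt_id r).const_sub 1
    have h1 : HasDerivAt (fun r : ℝ => (1 - r) ^ (M + 1)) (-(((M:ℝ) + 1) * (1 - r) ^ M)) r :=
      (h0.fun_pow (M + 1)).congr_deriv (by simp)
    have h2 : HasDerivAt (fun r : ℝ => r ^ (L + 1)) (((L:ℝ) + 1) * r ^ L) r :=
      (hasDerivAt_pow (L + 1) r).congr_deriv (by simp)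
    exact (h1.fun_mul h2).congr_deriv (by ring)
  have hc1 : Continuous (fun r : ℝ => ((L:ℝ) + 1) * ((1 - r) ^ (M + 1) * r ^ L)) := by fun_prop
  have hc2 : Continuous (fun r : ℝ => ((M:ℝ) + 1) * ((1 - r) ^ M * r ^ (L + 1))) := by fun_prop
  have hint : IntervalIntegrable (fun r : ℝ => ((L:ℝ) + 1) * ((1 - r) ^ (M + 1) * r ^ L) -
          ((M:ℝ) + 1) * ((1 - r) ^ M * r ^ (L + 1))) volume 0 1 :=
    (hc1.sub hc2).intervalIntegrable _ _
  have h := intervalIntegral.integral_eq_sub_of_hasDerivAt hderiv hint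
  rw [intervalIntegral.integral_sub (hc1.intervalIntegrable _ _) (hc2.intervalIntegrable _ _),
    intervalIntegral.integral_const_mul, intervalIntegral.integral_const_mul] at h
  simp at h
  linarith

lemma beta_nat (M L : ℕ) :
    ∫ r in (0:ℝ)..1, (1 - r) ^ M * r ^ L =
      ((M.factorial : ℝ) * (L.factorial : ℝ)) / ((M + L + 1).factorial : ℝ) := by
  induction M generalizing L with
  | zero =>
    simp only [pow_zero, one_mul, Nat.factorial_zero, Nat.cast_one, zero_add]
    rw [integral_pow, Nat.factorial_succ]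
    push_cast
    have : (L.factorial : ℝ) ≠ 0 := by positivity
    have h2 : ((L:ℝ) + 1) ≠ 0 := by positivity
    field_simp
    simp
  | succ M ih =>
    have h := beta_rec M L
    rw [ih (L + 1)] at h
    have hL : ((L:ℝ) + 1) ≠ 0 := by positivity
    have e : ∫ r in (0:ℝ)..1, (1 - r) ^ (M + 1) * r ^ L =
        ((M:ℝ) + 1) * (((M.factorial : ℝ) * ((L + 1).factorial : ℝ)) /
          ((M + (L + 1) + 1).factorial : ℝ)) / ((L:ℝ) + 1) := by
      rw [eq_div_iff hL]; linarith
    rw [e, Nat.factorial_succ M, Nat.factorial_succ L]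
    have e2 : M + 1 + L + 1 = M + (L + 1) + 1 := by ring
    rw [e2]
    have h3 : (((M + (L + 1) + 1).factorial : ℕ) : ℝ) ≠ 0 := by positivity
    push_cast
    field_simp

/-! ### Radial depth of a star-shaped set -/

/-- star-shaped about the origin -/
def Star0 {κ : Type*} (K : Set (κ → ℝ)) : Prop :=
  ∀ x ∈ K, ∀ r : ℝ, 0 ≤ r → r ≤ 1 → r • x ∈ K

lemma star0_of_starConvex {κ : Type*} {K : Set (κ → ℝ)} (h : StarConvex ℝ (0 : κ → ℝ) K) :
    Star0 K := by
  intro x hx r h0 h1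
  have := h hx (sub_nonneg.2 h1) h0 (by ring)
  simpa using this

/-- the set of scales `r ∈ (0,1]` with `y ∈ r • K` -/
def sect (K : Set (ι → ℝ)) (y : ι → ℝ) : Set ℝ := {r | (y, r) ∈ coneS K}

/-- radial depth: the length of the set of scales `r ∈ (0,1]` with `y ∈ r • K` -/
def depth (K : Set (ι → ℝ)) (y : ι → ℝ) : ℝ := (volume (sect K y)).toReal

variable {K : Set (ι → ℝ)} {y : ι → ℝ}

lemma sect_subset (K : Set (ι → ℝ)) (y : ι → ℝ) : sect K y ⊆ Ioc 0 1 :=
  fun r hr => ⟨hr.1, hr.2.1⟩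

lemma measurableSet_sect (hK : MeasurableSet K) (y : ι → ℝ) : MeasurableSet (sect K y) :=
  measurable_prodMk_left (measurableSet_coneS hK)

lemma sect_volume_le (K : Set (ι → ℝ)) (y : ι → ℝ) : volume (sect K y) ≤ 1 := by
  refine (measure_mono (sect_subset K y)).trans ?_
  simp

lemma sect_volume_ne_top (K : Set (ι → ℝ)) (y : ι → ℝ) : volume (sect K y) ≠ ⊤ :=
  ne_top_of_le_ne_top ENNReal.one_ne_top (sect_volume_le K y)

lemma depth_nonneg : 0 ≤ depth K y := ENNReal.toReal_nonneg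

lemma depth_le_one : depth K y ≤ 1 := by
  have h := ENNReal.toReal_mono ENNReal.one_ne_top (sect_volume_le K y)
  simpa [depth] using h

lemma sect_upper (hs : Star0 K) {r r' : ℝ} (hr : r ∈ sect K y) (h1 : r ≤ r') (h2 : r' ≤ 1) :
    r' ∈ sect K y := by
  obtain ⟨hr0, hr1, hmem⟩ := hr
  have hr'0 : 0 < r' := lt_of_lt_of_le hr0 h1
  refine ⟨hr'0, h2, ?_⟩
  have e : r'⁻¹ • y = (r / r') • (r⁻¹ • y) := by
    rw [smul_smul]; congr 1; field_simp
  show r'⁻¹ • y ∈ K
  rw [e]
  exact hs _ hmem _ (by positivity) (by rw [div_le_one hr'0]; exact h1)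

lemma depth_ge (hs : Star0 K) {r : ℝ} (hr : r ∈ sect K y) : 1 - r ≤ depth K y := by
  have hsub : Icc r 1 ⊆ sect K y := fun r' hr' => sect_upper hs hr hr'.1 hr'.2
  have h := measure_mono (μ := volume) hsub
  rw [Real.volume_Icc] at h
  have h2 := ENNReal.toReal_mono (sect_volume_ne_top K y) h
  rw [ENNReal.toReal_ofReal (by linarith [hr.2.1])] at h2
  exact h2

lemma depth_le (hs : Star0 K) {r : ℝ} (hr0 : 0 < r) (hr1 : r ≤ 1) (hr : r ∉ sect K y) :
    depth K y ≤ 1 - r := by
  have hsub : sect K y ⊆ Ioc r 1 := by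
    intro r' hr'
    refine ⟨?_, hr'.2.1⟩
    by_contra hle
    exact hr (sect_upper hs hr' (not_lt.1 hle) hr1)
  have h := measure_mono (μ := volume) hsub
  rw [Real.volume_Ioc] at h
  have h2 := ENNReal.toReal_mono ENNReal.ofReal_ne_top h
  rw [ENNReal.toReal_ofReal (by linarith)] at h2
  exact h2

lemma mem_sect_of_gt (hs : Star0 K) {r : ℝ} (hr0 : 0 < r) (hr1 : r ≤ 1)
    (h : 1 - depth K y < r) : r ∈ sect K y := by
  by_contra hr
  have := depth_le hs hr0 hr1 hr
  linarith

lemma sect_ae_eq (hs : Star0 K) (y : ι → ℝ) :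
    sect K y =ᵐ[volume] Ioc (1 - depth K y) 1 := by
  have hd0 := depth_nonneg (K := K) (y := y)
  have hd1 := depth_le_one (K := K) (y := y)
  have h1 : Ioc (1 - depth K y) 1 ⊆ sect K y :=
    fun r hr => mem_sect_of_gt hs (by linarith [hr.1]) hr.2 hr.1
  have h2 : volume (sect K y) ≤ volume (Ioc (1 - depth K y) 1) := by
    rw [Real.volume_Ioc]
    have e : (1:ℝ) - (1 - depth K y) = depth K y := by ring
    rw [e, depth, ENNReal.ofReal_toReal (sect_volume_ne_top K y)]
  exact (ae_eq_of_subset_of_measure_ge h1 h2 measurableSet_Ioc.nullMeasurableSet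
    (sect_volume_ne_top K y)).symm

lemma sect_integral (hs : Star0 K) (y : ι → ℝ) (m : ℕ) :
    ∫ r in sect K y, ((m:ℝ) + 1) * (1 - r) ^ m = depth K y ^ (m + 1) := by
  rw [setIntegral_congr_set (sect_ae_eq hs y),
    ← intervalIntegral.integral_of_le (by linarith [depth_nonneg (K := K) (y := y)])]
  have hderiv : ∀ r ∈ uIcc (1 - depth K y) 1,
      HasDerivAt (fun r : ℝ => -(1 - r) ^ (m + 1)) (((m:ℝ) + 1) * (1 - r) ^ m) r := by
    intro r _
    have h0 : HasDerivAt (fun r : ℝ => 1 - r) (-1) r := by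
      simpa using (hasDerivAt_id r).const_sub 1
    exact ((h0.fun_pow (m + 1)).fun_neg).congr_deriv (by simp)
  have hc : Continuous (fun r : ℝ => ((m:ℝ) + 1) * (1 - r) ^ m) := by fun_prop
  rw [intervalIntegral.integral_eq_sub_of_hasDerivAt hderiv (hc.intervalIntegrable _ _)]
  simp

/-! ### Weighted integrals over the cone -/

lemma coneS_integral_w (hK : MeasurableSet K) (hbd : Bornology.IsBounded K)
    (φ : (ι → ℝ) → ℝ) (hφ : Continuous φ) (d : ℕ)
    (hhom : ∀ (t : ℝ) (p : ι → ℝ), φ (t • p) = t ^ d * φ p) (w : ℝ → ℝ) (hw : Continuous w) :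
    ∫ q in coneS K, w q.2 * φ q.1 =
      (∫ r in (0:ℝ)..1, w r * r ^ (Fintype.card ι + d)) * ∫ p in K, φ p := by
  set g : (ι → ℝ) × ℝ → ℝ := fun q => w q.2 * φ q.1 with hg
  have hgc : Continuous g := (hw.comp continuous_snd).mul (hφ.comp continuous_fst)
  have hmeas := measurableSet_coneS hK
  obtain ⟨C, hC, hsub⟩ := coneS_subset_compact hbd
  have hint : IntegrableOn g (coneS K) :=
    (hgc.continuousOn.integrableOn_compact hC).mono_set hsub
  have hint' : Integrable ((coneS K).indicator g)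
      ((volume : Measure (ι → ℝ)).prod (volume : Measure ℝ)) :=
    hint.integrable_indicator hmeas
  have hstart : ∫ q in coneS K, w q.2 * φ q.1 =
      ∫ q, (coneS K).indicator g q ∂((volume : Measure (ι → ℝ)).prod (volume : Measure ℝ)) :=
    (integral_indicator hmeas).symm
  rw [hstart, integral_prod_symm _ hint']
  have hinner : ∀ t : ℝ, ∫ x, (coneS K).indicator g (x, t) =
      (Ioc (0:ℝ) 1).indicator
        (fun t => w t * t ^ (Fintype.card ι + d) * ∫ p in K, φ p) t := by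
    intro t
    by_cases ht : t ∈ Ioc (0:ℝ) 1
    · rw [indicator_of_mem ht]
      have h1 : ∀ x, (coneS K).indicator g (x, t) =
          (t • K).indicator (fun x => w t * φ x) x := by
        intro x
        by_cases hx : x ∈ t • K
        · rw [indicator_of_mem hx, indicator_of_mem]
          exact ⟨ht.1, ht.2, (mem_smul_set_iff_inv_smul_mem₀ ht.1.ne' _ _).1 hx⟩
        · rw [indicator_of_notMem hx, indicator_of_notMem]
          rintro ⟨_, _, h⟩
          exact hx ((mem_smul_set_iff_inv_smul_mem₀ ht.1.ne' _ _).2 h)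
      simp_rw [h1]
      rw [integral_indicator (hK.const_smul_of_ne_zero ht.1.ne'), integral_const_mul]
      have h2 := Measure.setIntegral_comp_smul_of_pos (volume : Measure (ι → ℝ)) φ K ht.1
      rw [Module.finrank_fintype_fun_eq_card] at h2
      have h3 : ∫ x in K, φ (t • x) = t ^ d * ∫ x in K, φ x := by
        simp_rw [hhom]
        rw [integral_const_mul]
      rw [h3, smul_eq_mul] at h2
      have htn : (t ^ Fintype.card ι) ≠ 0 := pow_ne_zero _ ht.1.ne'
      have h4 : ∫ x in t • K, φ x = t ^ Fintype.card ι * (t ^ d * ∫ x in K, φ x) := by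
        rw [h2]; field_simp
      rw [h4]; ring
    · rw [indicator_of_notMem ht]
      have h1 : ∀ x, (coneS K).indicator g (x, t) = 0 := by
        intro x
        rw [indicator_of_notMem]
        rintro ⟨h0, h1, _⟩
        exact ht ⟨h0, h1⟩
      simp_rw [h1]
      simp
  simp_rw [hinner]
  rw [integral_indicator measurableSet_Ioc, integral_mul_const,
    ← intervalIntegral.integral_of_le zero_le_one]

lemma coneS_integral_depth (hK : MeasurableSet K) (hbd : Bornology.IsBounded K) (hs : Star0 K)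
    (φ : (ι → ℝ) → ℝ) (hφ : Continuous φ) (m : ℕ) :
    ∫ q in coneS K, (((m:ℝ) + 1) * (1 - q.2) ^ m) * φ q.1 = ∫ y, depth K y ^ (m + 1) * φ y := by
  set g : (ι → ℝ) × ℝ → ℝ := fun q => (((m:ℝ) + 1) * (1 - q.2) ^ m) * φ q.1 with hg
  have hgc : Continuous g := by
    have h1 : Continuous (fun q : (ι → ℝ) × ℝ => ((m:ℝ) + 1) * (1 - q.2) ^ m) := by fun_prop
    exact h1.mul (hφ.comp continuous_fst)
  have hmeas := measurableSet_coneS hK
  obtain ⟨C, hC, hsub⟩ := coneS_subset_compact hbd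
  have hint : IntegrableOn g (coneS K) :=
    (hgc.continuousOn.integrableOn_compact hC).mono_set hsub
  have hint' : Integrable ((coneS K).indicator g)
      ((volume : Measure (ι → ℝ)).prod (volume : Measure ℝ)) :=
    hint.integrable_indicator hmeas
  have hstart : ∫ q in coneS K, (((m:ℝ) + 1) * (1 - q.2) ^ m) * φ q.1 =
      ∫ q, (coneS K).indicator g q ∂((volume : Measure (ι → ℝ)).prod (volume : Measure ℝ)) :=
    (integral_indicator hmeas).symm
  rw [hstart, integral_prod _ hint']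
  congr 1
  funext y
  have h1 : ∀ r, (coneS K).indicator g (y, r) =
      (sect K y).indicator (fun r => (((m:ℝ) + 1) * (1 - r) ^ m) * φ y) r := by
    intro r
    by_cases hr : r ∈ sect K y
    · rw [indicator_of_mem hr, indicator_of_mem (show (y, r) ∈ coneS K from hr)]
    · rw [indicator_of_notMem hr, indicator_of_notMem (show (y, r) ∉ coneS K from hr)]
  simp_rw [h1]
  rw [integral_indicator (measurableSet_sect hK y), integral_mul_const, sect_integral hs y m]

/-- the radial moment formula -/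
lemma depth_integral (hK : MeasurableSet K) (hbd : Bornology.IsBounded K) (hs : Star0 K)
    (φ : (ι → ℝ) → ℝ) (hφ : Continuous φ) (d : ℕ)
    (hhom : ∀ (t : ℝ) (p : ι → ℝ), φ (t • p) = t ^ d * φ p) (m : ℕ) :
    ∫ y, depth K y ^ (m + 1) * φ y =
      ((((m + 1).factorial : ℝ) * ((Fintype.card ι + d).factorial : ℝ)) /
        ((m + 1 + (Fintype.card ι + d)).factorial : ℝ)) * ∫ p in K, φ p := by
  rw [← coneS_integral_depth hK hbd hs φ hφ m,
    coneS_integral_w hK hbd φ hφ d hhom (fun r => ((m:ℝ) + 1) * (1 - r) ^ m) (by fun_prop)]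
  congr 1
  have e : ∀ r : ℝ, ((m:ℝ) + 1) * (1 - r) ^ m * r ^ (Fintype.card ι + d) =
      ((m:ℝ) + 1) * ((1 - r) ^ m * r ^ (Fintype.card ι + d)) := fun r => by ring
  simp_rw [e]
  rw [intervalIntegral.integral_const_mul, beta_nat, Nat.factorial_succ m]
  have e2 : m + 1 + (Fintype.card ι + d) = m + (Fintype.card ι + d) + 1 := by ring
  rw [e2]
  push_cast
  ring

/-! ### The free sum -/

variable {κ : Type*} [Fintype κ]

/-- Splitting `ℝ^(ι ⊕ κ)` as `ℝ^ι × ℝ^κ`. -/
def splitP : (ι ⊕ κ → ℝ) ≃ᵐ (ι → ℝ) × (κ → ℝ) :=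
  MeasurableEquiv.sumPiEquivProdPi (fun _ : ι ⊕ κ => ℝ)

lemma splitP_apply (z : ι ⊕ κ → ℝ) :
    splitP z = (fun i => z (Sum.inl i), fun j => z (Sum.inr j)) := rfl

lemma splitP_mp : MeasurePreserving (splitP (ι := ι) (κ := κ)) volume volume :=
  volume_measurePreserving_sumPiEquivProdPi (fun _ : ι ⊕ κ => ℝ)

/-- The free sum in split coordinates. -/
def fsS (A : Set (ι → ℝ)) (B : Set (κ → ℝ)) : Set ((ι → ℝ) × (κ → ℝ)) :=
  {q | ∃ a ∈ A, ∃ b ∈ B, ∃ t : ℝ, 0 ≤ t ∧ t ≤ 1 ∧ q.1 = (1 - t) • a ∧ q.2 = t • b}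

variable {A : Set (ι → ℝ)} {B : Set (κ → ℝ)}

lemma freeSum_eq (A : Set (ι → ℝ)) (B : Set (κ → ℝ)) : freeSum A B = splitP ⁻¹' fsS A B := by
  ext z
  simp only [freeSum, fsS, mem_setOf_eq, mem_preimage, splitP_apply]
  constructor
  · rintro ⟨a, ha, b, hb, t, h0, h1, rfl⟩
    exact ⟨a, ha, b, hb, t, h0, h1, by funext i; simp, by funext j; simp⟩
  · rintro ⟨a, ha, b, hb, t, h0, h1, hx, hy⟩
    refine ⟨a, ha, b, hb, t, h0, h1, ?_⟩
    funext j
    rcases j with i | j
    · simpa using congrFun hx i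
    · simpa using congrFun hy j

lemma isCompact_fsS (hA : IsCompact A) (hB : IsCompact B) : IsCompact (fsS A B) := by
  have hc : Continuous (fun p : ((ι → ℝ) × (κ → ℝ)) × ℝ =>
      (((1 - p.2) • p.1.1, p.2 • p.1.2) : (ι → ℝ) × (κ → ℝ))) := by fun_prop
  have e : fsS A B = (fun p : ((ι → ℝ) × (κ → ℝ)) × ℝ =>
      (((1 - p.2) • p.1.1, p.2 • p.1.2) : (ι → ℝ) × (κ → ℝ))) ''
        ((A ×ˢ B) ×ˢ Icc (0:ℝ) 1) := by
    ext q
    simp only [fsS, mem_setOf_eq, mem_image, mem_prod, mem_Icc, Prod.exists]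
    constructor
    · rintro ⟨a, ha, b, hb, t, h0, h1, hx, hy⟩
      exact ⟨a, b, t, ⟨⟨ha, hb⟩, h0, h1⟩, Prod.ext hx.symm hy.symm⟩
    · rintro ⟨a, b, t, ⟨⟨ha, hb⟩, h0, h1⟩, rfl⟩
      exact ⟨a, ha, b, hb, t, h0, h1, rfl, rfl⟩
  rw [e]
  exact ((hA.prod hB).prod isCompact_Icc).image hc

lemma depth_zero (h0 : (0 : κ → ℝ) ∈ B) : depth B 0 = 1 := by
  have e : sect B (0 : κ → ℝ) = Ioc 0 1 := by
    ext r
    constructor
    · intro hr; exact sect_subset B 0 hr
    · intro hr
      refine ⟨hr.1, hr.2, ?_⟩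
      show r⁻¹ • (0 : κ → ℝ) ∈ B
      rw [smul_zero]; exact h0
  rw [depth, e, Real.volume_Ioc]
  simp

lemma depth_of_notMem (hBs : Star0 B) {y : κ → ℝ} (hy : y ∉ B) : depth B y = 0 := by
  have e : sect B y = ∅ := by
    ext r
    simp only [mem_empty_iff_false, iff_false]
    rintro ⟨h0, h1, hmem⟩
    apply hy
    have := hBs _ hmem r h0.le h1
    rwa [smul_smul, mul_inv_cancel₀ h0.ne', one_smul] at this
  rw [depth, e]
  simp

lemma fs_section [Nonempty ι] (hA : IsCompact A) (hB : IsCompact B) (hAs : Star0 A)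
    (hBs : Star0 B) (f : (ι → ℝ) → ℝ) (p : ℕ)
    (hhom : ∀ (t : ℝ) (x : ι → ℝ), f (t • x) = t ^ p * f x) (y : κ → ℝ) :
    ∫ x in {x | (x, y) ∈ fsS A B}, f x =
      depth B y ^ (Fintype.card ι + p) * ∫ x in A, f x := by
  set S : Set (ι → ℝ) := {x | (x, y) ∈ fsS A B} with hS
  have hkp : Fintype.card ι + p ≠ 0 := by
    have := Fintype.card_pos (α := ι); omega
  have hd0 := depth_nonneg (K := B) (y := y)
  have hd1 := depth_le_one (K := B) (y := y)
  have h0B : ∀ b ∈ B, (0 : κ → ℝ) ∈ B := fun b hb => by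
    simpa using hBs b hb 0 le_rfl zero_le_one
  -- every point of the section has the form (1 - t) a with 1 - t ≤ depth
  have hkey : ∀ x ∈ S, ∃ a ∈ A, ∃ u : ℝ, 0 ≤ u ∧ u ≤ depth B y ∧ x = u • a := by
    rintro x ⟨a, ha, b, hb, t, ht0, ht1, hx, hy⟩
    have hx' : x = (1 - t) • a := hx
    have hy' : y = t • b := hy
    rcases ht0.eq_or_lt with h | h
    · refine ⟨a, ha, 1, zero_le_one, ?_, ?_⟩
      · have : y = 0 := by rw [hy', ← h, zero_smul]
        rw [this, depth_zero (h0B b hb)]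
      · rw [hx', ← h]; simp
    · refine ⟨a, ha, 1 - t, by linarith, ?_, hx'⟩
      apply depth_ge hBs
      refine ⟨h, ht1, ?_⟩
      show t⁻¹ • y ∈ B
      rw [hy', smul_smul, inv_mul_cancel₀ h.ne', one_smul]
      exact hb
  rcases hd0.eq_or_lt with hd | hd
  · -- depth zero: the section is contained in {0}
    have hsub : S ⊆ {0} := by
      intro x hx
      obtain ⟨a, ha, u, hu0, hu1, rfl⟩ := hkey x hx
      have : u = 0 := le_antisymm (by rw [hd]; exact hu1) hu0
      rw [this, zero_smul]; rfl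
    have hnull : volume S = 0 := measure_mono_null hsub (by simp)
    rw [setIntegral_measure_zero _ hnull, ← hd, zero_pow hkp, zero_mul]
  · -- positive depth: the section is depth • A
    have hclosed : IsClosed S := by
      have hc : Continuous (fun x : ι → ℝ => (x, y)) := by fun_prop
      exact (isCompact_fsS hA hB).isClosed.preimage hc
    have hSeq : S = depth B y • A := by
      apply Subset.antisymm
      · intro x hx
        obtain ⟨a, ha, u, hu0, hu1, rfl⟩ := hkey x hx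
        refine ⟨(u / depth B y) • a, hAs a ha _ (by positivity)
          (by rw [div_le_one hd]; exact hu1), ?_⟩
        show depth B y • (u / depth B y) • a = u • a
        rw [smul_smul, mul_div_cancel₀ _ hd.ne']
      · rintro x ⟨a, ha, rfl⟩
        show depth B y • a ∈ S
        have hmem : depth B y ∈ closure (Ioo 0 (depth B y)) := by
          rw [closure_Ioo hd.ne]; exact ⟨hd.le, le_rfl⟩
        have hcont : Continuous (fun u : ℝ => u • a) := by fun_prop
        have hmaps : MapsTo (fun u : ℝ => u • a) (Ioo 0 (depth B y)) S := by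
          intro u hu
          have ht0 : 0 < 1 - u := by linarith [hu.2]
          have ht1 : 1 - u ≤ 1 := by linarith [hu.1]
          have hmem := mem_sect_of_gt hBs ht0 ht1 (by linarith [hu.2])
          refine ⟨a, ha, (1 - u)⁻¹ • y, hmem.2.2, 1 - u, ht0.le, ht1, ?_, ?_⟩
          · show u • a = (1 - (1 - u)) • a
            rw [sub_sub_cancel]
          · show y = (1 - u) • (1 - u)⁻¹ • y
            rw [smul_smul, mul_inv_cancel₀ ht0.ne', one_smul]
        have := map_mem_closure hcont hmem hmaps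
        rwa [hclosed.closure_eq] at this
    rw [hSeq]
    have h2 := Measure.setIntegral_comp_smul_of_pos (volume : Measure (ι → ℝ)) f A hd
    rw [Module.finrank_fintype_fun_eq_card] at h2
    have h3 : ∫ x in A, f (depth B y • x) = depth B y ^ p * ∫ x in A, f x := by
      simp_rw [hhom]
      rw [integral_const_mul]
    rw [h3, smul_eq_mul] at h2
    have htn : (depth B y ^ Fintype.card ι) ≠ 0 := pow_ne_zero _ hd.ne'
    have h4 : ∫ x in depth B y • A, f x =
        depth B y ^ Fintype.card ι * (depth B y ^ p * ∫ x in A, f x) := by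
      rw [h2]; field_simp
    rw [h4, pow_add]; ring

lemma fsS_integral [Nonempty ι] (hA : IsCompact A) (hB : IsCompact B) (hAs : Star0 A)
    (hBs : Star0 B) (f : (ι → ℝ) → ℝ) (hf : Continuous f) (p : ℕ)
    (hfhom : ∀ (t : ℝ) (x : ι → ℝ), f (t • x) = t ^ p * f x)
    (g : (κ → ℝ) → ℝ) (hg : Continuous g) (q : ℕ)
    (hghom : ∀ (t : ℝ) (x : κ → ℝ), g (t • x) = t ^ q * g x) :
    ∫ z in fsS A B, f z.1 * g z.2 =
      ((((Fintype.card ι + p).factorial : ℝ) * ((Fintype.card κ + q).factorial : ℝ)) /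
        ((Fintype.card ι + p + (Fintype.card κ + q)).factorial : ℝ)) *
        ((∫ x in A, f x) * ∫ y in B, g y) := by
  set G : (ι → ℝ) × (κ → ℝ) → ℝ := fun z => f z.1 * g z.2 with hG
  have hGc : Continuous G := (hf.comp continuous_fst).mul (hg.comp continuous_snd)
  have hcomp := isCompact_fsS hA hB
  have hmeas : MeasurableSet (fsS A B) := hcomp.measurableSet
  have hint : IntegrableOn G (fsS A B) := hGc.continuousOn.integrableOn_compact hcomp
  have hint' : Integrable ((fsS A B).indicator G)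
      ((volume : Measure (ι → ℝ)).prod (volume : Measure (κ → ℝ))) :=
    hint.integrable_indicator hmeas
  have hstart : ∫ z in fsS A B, f z.1 * g z.2 =
      ∫ z, (fsS A B).indicator G z
        ∂((volume : Measure (ι → ℝ)).prod (volume : Measure (κ → ℝ))) :=
    (integral_indicator hmeas).symm
  rw [hstart, integral_prod_symm _ hint']
  have hinner : ∀ y : κ → ℝ, ∫ x, (fsS A B).indicator G (x, y) =
      depth B y ^ (Fintype.card ι + p) * ((∫ x in A, f x) * g y) := by
    intro y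
    have h1 : ∀ x, (fsS A B).indicator G (x, y) =
        ({x | (x, y) ∈ fsS A B}).indicator (fun x => f x * g y) x := by
      intro x
      by_cases hx : (x, y) ∈ fsS A B
      · rw [indicator_of_mem hx, indicator_of_mem (show x ∈ {x | (x, y) ∈ fsS A B} from hx)]
      · rw [indicator_of_notMem hx,
          indicator_of_notMem (show x ∉ {x | (x, y) ∈ fsS A B} from hx)]
    simp_rw [h1]
    have hSm : MeasurableSet {x : ι → ℝ | (x, y) ∈ fsS A B} := measurable_prodMk_right hmeas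
    rw [integral_indicator hSm, integral_mul_const,
      fs_section hA hB hAs hBs f p hfhom y]
    ring
  simp_rw [hinner]
  obtain ⟨m, hm0⟩ := Nat.exists_eq_succ_of_ne_zero
    (show Fintype.card ι + p ≠ 0 by have := Fintype.card_pos (α := ι); omega)
  have hm : Fintype.card ι + p = m + 1 := hm0
  have e : ∀ y : κ → ℝ, depth B y ^ (Fintype.card ι + p) * ((∫ x in A, f x) * g y) =
      (∫ x in A, f x) * (depth B y ^ (m + 1) * g y) := by
    intro y; rw [hm]; ring
  simp_rw [e]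
  rw [integral_const_mul, depth_integral hB.measurableSet hB.isBounded hBs g hg q hghom m, hm]
  ring

lemma freeSum_integral [Nonempty ι] (hA : IsCompact A) (hB : IsCompact B) (hAs : Star0 A)
    (hBs : Star0 B) (f : (ι → ℝ) → ℝ) (hf : Continuous f) (p : ℕ)
    (hfhom : ∀ (t : ℝ) (x : ι → ℝ), f (t • x) = t ^ p * f x)
    (g : (κ → ℝ) → ℝ) (hg : Continuous g) (q : ℕ)
    (hghom : ∀ (t : ℝ) (x : κ → ℝ), g (t • x) = t ^ q * g x) :
    ∫ z in freeSum A B, f (fun i => z (Sum.inl i)) * g (fun j => z (Sum.inr j)) =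
      ((((Fintype.card ι + p).factorial : ℝ) * ((Fintype.card κ + q).factorial : ℝ)) /
        ((Fintype.card ι + p + (Fintype.card κ + q)).factorial : ℝ)) *
        ((∫ x in A, f x) * ∫ y in B, g y) := by
  rw [freeSum_eq, ← fsS_integral hA hB hAs hBs f hf p hfhom g hg q hghom]
  exact splitP_mp.setIntegral_preimage_emb splitP.measurableEmbedding
    (fun q : (ι → ℝ) × (κ → ℝ) => f q.1 * g q.2) (fsS A B)

/-! ### Moments of the free sum -/

/-- the constants of the free-sum moment formula -/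
def fsc (k l p q : ℕ) : ℝ :=
  (((k + p).factorial : ℝ) * ((l + q).factorial : ℝ)) / ((k + p + (l + q)).factorial : ℝ)

lemma fsc_pos (k l p q : ℕ) : 0 < fsc k l p q := by unfold fsc; positivity

lemma fact_succ_cast (a : ℕ) : ((a + 1).factorial : ℝ) = ((a:ℝ) + 1) * (a.factorial : ℝ) := by
  rw [Nat.factorial_succ]; push_cast; ring

lemma fact_succ2_cast (a : ℕ) :
    ((a + 2).factorial : ℝ) = ((a:ℝ) + 2) * (((a:ℝ) + 1) * (a.factorial : ℝ)) := by
  rw [show a + 2 = (a + 1) + 1 from rfl, fact_succ_cast, fact_succ_cast]; push_cast; ring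

lemma fsc10 (k l : ℕ) : fsc k l 1 0 = fsc k l 0 0 * (((k:ℝ) + 1) / ((k:ℝ) + l + 1)) := by
  unfold fsc
  rw [show k + 1 + (l + 0) = (k + l) + 1 by ring, show k + 0 + (l + 0) = k + l by ring,
    fact_succ_cast, fact_succ_cast]
  simp only [add_zero]
  have h1 : ((k.factorial : ℕ) : ℝ) ≠ 0 := by positivity
  have h2 : ((l.factorial : ℕ) : ℝ) ≠ 0 := by positivity
  have h3 : (((k + l).factorial : ℕ) : ℝ) ≠ 0 := by positivity
  have h4 : ((k:ℝ) + l + 1) ≠ 0 := by positivity
  push_cast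
  field_simp

lemma fsc01 (k l : ℕ) : fsc k l 0 1 = fsc k l 0 0 * (((l:ℝ) + 1) / ((k:ℝ) + l + 1)) := by
  unfold fsc
  rw [show k + 0 + (l + 1) = (k + l) + 1 by ring, show k + 0 + (l + 0) = k + l by ring,
    fact_succ_cast, fact_succ_cast]
  simp only [add_zero]
  have h1 : ((k.factorial : ℕ) : ℝ) ≠ 0 := by positivity
  have h2 : ((l.factorial : ℕ) : ℝ) ≠ 0 := by positivity
  have h3 : (((k + l).factorial : ℕ) : ℝ) ≠ 0 := by positivity
  have h4 : ((k:ℝ) + l + 1) ≠ 0 := by positivity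
  push_cast
  field_simp

lemma fsc20 (k l : ℕ) : fsc k l 2 0 =
    fsc k l 0 0 * ((((k:ℝ) + 1) * ((k:ℝ) + 2)) / (((k:ℝ) + l + 1) * ((k:ℝ) + l + 2))) := by
  unfold fsc
  rw [show k + 2 + (l + 0) = (k + l) + 2 by ring, show k + 0 + (l + 0) = k + l by ring,
    fact_succ2_cast, fact_succ2_cast]
  simp only [add_zero]
  have h1 : ((k.factorial : ℕ) : ℝ) ≠ 0 := by positivity
  have h2 : ((l.factorial : ℕ) : ℝ) ≠ 0 := by positivity
  have h3 : (((k + l).factorial : ℕ) : ℝ) ≠ 0 := by positivity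
  have h4 : ((k:ℝ) + l + 1) ≠ 0 := by positivity
  have h5 : ((k:ℝ) + l + 2) ≠ 0 := by positivity
  push_cast
  field_simp

lemma fsc02 (k l : ℕ) : fsc k l 0 2 =
    fsc k l 0 0 * ((((l:ℝ) + 1) * ((l:ℝ) + 2)) / (((k:ℝ) + l + 1) * ((k:ℝ) + l + 2))) := by
  unfold fsc
  rw [show k + 0 + (l + 2) = (k + l) + 2 by ring, show k + 0 + (l + 0) = k + l by ring,
    fact_succ2_cast, fact_succ2_cast]
  simp only [add_zero]
  have h1 : ((k.factorial : ℕ) : ℝ) ≠ 0 := by positivity
  have h2 : ((l.factorial : ℕ) : ℝ) ≠ 0 := by positivity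
  have h3 : (((k + l).factorial : ℕ) : ℝ) ≠ 0 := by positivity
  have h4 : ((k:ℝ) + l + 1) ≠ 0 := by positivity
  have h5 : ((k:ℝ) + l + 2) ≠ 0 := by positivity
  push_cast
  field_simp

lemma fsc11 (k l : ℕ) : fsc k l 1 1 =
    fsc k l 0 0 * ((((k:ℝ) + 1) * ((l:ℝ) + 1)) / (((k:ℝ) + l + 1) * ((k:ℝ) + l + 2))) := by
  unfold fsc
  rw [show k + 1 + (l + 1) = (k + l) + 2 by ring, show k + 0 + (l + 0) = k + l by ring,
    fact_succ2_cast, fact_succ_cast, fact_succ_cast]
  simp only [add_zero]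
  have h1 : ((k.factorial : ℕ) : ℝ) ≠ 0 := by positivity
  have h2 : ((l.factorial : ℕ) : ℝ) ≠ 0 := by positivity
  have h3 : (((k + l).factorial : ℕ) : ℝ) ≠ 0 := by positivity
  have h4 : ((k:ℝ) + l + 1) ≠ 0 := by positivity
  have h5 : ((k:ℝ) + l + 2) ≠ 0 := by positivity
  push_cast
  field_simp

lemma freeSum_integral' [Nonempty ι] (hA : IsCompact A) (hB : IsCompact B) (hAs : Star0 A)
    (hBs : Star0 B) (f : (ι → ℝ) → ℝ) (hf : Continuous f) (p : ℕ)
    (hfhom : ∀ (t : ℝ) (x : ι → ℝ), f (t • x) = t ^ p * f x)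
    (g : (κ → ℝ) → ℝ) (hg : Continuous g) (q : ℕ)
    (hghom : ∀ (t : ℝ) (x : κ → ℝ), g (t • x) = t ^ q * g x) :
    ∫ z in freeSum A B, f (fun i => z (Sum.inl i)) * g (fun j => z (Sum.inr j)) =
      fsc (Fintype.card ι) (Fintype.card κ) p q * ((∫ x in A, f x) * ∫ y in B, g y) :=
  freeSum_integral hA hB hAs hBs f hf p hfhom g hg q hghom

section fsmoments

variable [Nonempty ι] (hA : IsCompact A) (hB : IsCompact B) (hAs : Star0 A) (hBs : Star0 B)
include hA hB hAs hBs

lemma fs_vol : vol (freeSum A B) =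
    fsc (Fintype.card ι) (Fintype.card κ) 0 0 * (vol A * vol B) := by
  have h := freeSum_integral' hA hB hAs hBs (fun _ => (1:ℝ)) continuous_const 0
    (by intro t x; simp) (fun _ => (1:ℝ)) continuous_const 0 (by intro t x; simp)
  rw [vol_eq_integral, vol_eq_integral, vol_eq_integral]
  simpa using h

lemma fs_m1x (i : ι) : ∫ z in freeSum A B, z (Sum.inl i) =
    fsc (Fintype.card ι) (Fintype.card κ) 1 0 * ((∫ x in A, x i) * vol B) := by
  have h := freeSum_integral' hA hB hAs hBs (fun x => x i) (continuous_apply i) 1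
    (by intro t x; simp) (fun _ => (1:ℝ)) continuous_const 0 (by intro t x; simp)
  rw [vol_eq_integral]
  simpa using h

lemma fs_m1y (j : κ) : ∫ z in freeSum A B, z (Sum.inr j) =
    fsc (Fintype.card ι) (Fintype.card κ) 0 1 * (vol A * ∫ y in B, y j) := by
  have h := freeSum_integral' hA hB hAs hBs (fun _ => (1:ℝ)) continuous_const 0
    (by intro t x; simp) (fun y => y j) (continuous_apply j) 1 (by intro t x; simp)
  rw [vol_eq_integral]
  simpa using h

lemma fs_m2xx (i j : ι) : ∫ z in freeSum A B, z (Sum.inl i) * z (Sum.inl j) =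
    fsc (Fintype.card ι) (Fintype.card κ) 2 0 * ((∫ x in A, x i * x j) * vol B) := by
  have h := freeSum_integral' hA hB hAs hBs (fun x => x i * x j)
    ((continuous_apply i).mul (continuous_apply j)) 2
    (by intro t x; simp only [Pi.smul_apply, smul_eq_mul]; ring)
    (fun _ => (1:ℝ)) continuous_const 0 (by intro t x; simp)
  rw [vol_eq_integral]
  simpa using h

lemma fs_m2yy (i j : κ) : ∫ z in freeSum A B, z (Sum.inr i) * z (Sum.inr j) =
    fsc (Fintype.card ι) (Fintype.card κ) 0 2 * (vol A * ∫ y in B, y i * y j) := by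
  have h := freeSum_integral' hA hB hAs hBs (fun _ => (1:ℝ)) continuous_const 0
    (by intro t x; simp) (fun y => y i * y j)
    ((continuous_apply i).mul (continuous_apply j)) 2
    (by intro t x; simp only [Pi.smul_apply, smul_eq_mul]; ring)
  rw [vol_eq_integral]
  simpa using h

lemma fs_m2xy (i : ι) (j : κ) : ∫ z in freeSum A B, z (Sum.inl i) * z (Sum.inr j) =
    fsc (Fintype.card ι) (Fintype.card κ) 1 1 * ((∫ x in A, x i) * ∫ y in B, y j) := by
  have h := freeSum_integral' hA hB hAs hBs (fun x => x i) (continuous_apply i) 1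
    (by intro t x; simp) (fun y => y j) (continuous_apply j) 1 (by intro t x; simp)
  simpa using h

lemma fs_m2yx (i : κ) (j : ι) : ∫ z in freeSum A B, z (Sum.inr i) * z (Sum.inl j) =
    fsc (Fintype.card ι) (Fintype.card κ) 1 1 * ((∫ x in A, x j) * ∫ y in B, y i) := by
  have e : (fun z : ι ⊕ κ → ℝ => z (Sum.inr i) * z (Sum.inl j)) =
      fun z => z (Sum.inl j) * z (Sum.inr i) := by funext z; ring
  rw [e]; exact fs_m2xy hA hB hAs hBs j i

end fsmoments

lemma isBounded_freeSum (hA : Bornology.IsBounded A) (hB : Bornology.IsBounded B) :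
    Bornology.IsBounded (freeSum A B) := by
  obtain ⟨R, hR⟩ := (isBounded_iff_forall_norm_le).1 hA
  obtain ⟨R', hR'⟩ := (isBounded_iff_forall_norm_le).1 hB
  refine (isBounded_iff_forall_norm_le).2 ⟨max (max R R') 0, ?_⟩
  rintro z ⟨a, ha, b, hb, t, ht0, ht1, rfl⟩
  have hR0 : 0 ≤ max (max R R') 0 := le_max_right _ _
  rw [pi_norm_le_iff_of_nonneg hR0]
  rintro (i | j)
  · have h1 : ‖a i‖ ≤ R := (norm_le_pi_norm a i).trans (hR a ha)
    simp only [Sum.elim_inl, Pi.smul_apply, smul_eq_mul, norm_mul, Real.norm_eq_abs,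
      abs_of_nonneg (sub_nonneg.2 ht1)]
    calc (1 - t) * |a i| ≤ 1 * R :=
          mul_le_mul (by linarith) h1 (abs_nonneg _) zero_le_one
      _ ≤ max (max R R') 0 := by
          rw [one_mul]; exact (le_max_left _ _).trans (le_max_left _ _)
  · have h1 : ‖b j‖ ≤ R' := (norm_le_pi_norm b j).trans (hR' b hb)
    simp only [Sum.elim_inr, Pi.smul_apply, smul_eq_mul, norm_mul, Real.norm_eq_abs,
      abs_of_nonneg ht0]
    calc t * |b j| ≤ 1 * R' := mul_le_mul ht1 h1 (abs_nonneg _) zero_le_one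
      _ ≤ max (max R R') 0 := by
          rw [one_mul]; exact (le_max_right _ _).trans (le_max_left _ _)

/-- scaling factor of the covariance blocks -/
def fsα (k l : ℕ) : ℝ := (((k:ℝ) + 1) * ((k:ℝ) + 2)) / (((k:ℝ) + l + 1) * ((k:ℝ) + l + 2))

/-- coefficient of the rank-one term in the diagonal blocks -/
def fsp (k l : ℕ) : ℝ := (((k:ℝ) + 1) * (l:ℝ)) / (((k:ℝ) + l + 1) ^ 2 * ((k:ℝ) + l + 2))

/-- coefficient of the off-diagonal blocks -/
def fsγ (k l : ℕ) : ℝ :=
  (((k:ℝ) + 1) * ((l:ℝ) + 1)) / (((k:ℝ) + l + 1) ^ 2 * ((k:ℝ) + l + 2))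

theorem cov_freeSum [Nonempty ι] (hA : IsCompact A) (hB : IsCompact B) (hAs : Star0 A)
    (hBs : Star0 B) (hAv : 0 < vol A) (hBv : 0 < vol B) :
    cov (freeSum A B) = Matrix.fromBlocks
      (fsα (Fintype.card ι) (Fintype.card κ) • cov A + Matrix.of fun i j =>
        fsp (Fintype.card ι) (Fintype.card κ) * (centroid A i * centroid A j))
      (Matrix.of fun i j =>
        -(fsγ (Fintype.card ι) (Fintype.card κ)) * (centroid A i * centroid B j))
      (Matrix.of fun i j =>
        -(fsγ (Fintype.card ι) (Fintype.card κ)) * (centroid B i * centroid A j))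
      (fsα (Fintype.card κ) (Fintype.card ι) • cov B + Matrix.of fun i j =>
        fsp (Fintype.card κ) (Fintype.card ι) * (centroid B i * centroid B j)) := by
  set k : ℝ := (Fintype.card ι : ℝ) with hk
  set l : ℝ := (Fintype.card κ : ℝ) with hl
  have hk0 : 0 ≤ k := Nat.cast_nonneg _
  have hl0 : 0 ≤ l := Nat.cast_nonneg _
  have h1 : k + l + 1 ≠ 0 := by positivity
  have h2 : k + l + 2 ≠ 0 := by positivity
  have h1' : l + k + 1 ≠ 0 := by positivity
  have h2' : l + k + 2 ≠ 0 := by positivity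
  have hc0 := (fsc_pos (Fintype.card ι) (Fintype.card κ) 0 0).ne'
  have hVA : vol A ≠ 0 := hAv.ne'
  have hVB : vol B ≠ 0 := hBv.ne'
  have hV : vol (freeSum A B) =
      fsc (Fintype.card ι) (Fintype.card κ) 0 0 * (vol A * vol B) := fs_vol hA hB hAs hBs
  have hV0 : vol (freeSum A B) ≠ 0 := by rw [hV]; positivity
  have hbd := isBounded_freeSum hA.isBounded hB.isBounded
  ext (i | i) (j | j)
  · rw [cov_apply_eq hbd hV0, Matrix.fromBlocks_apply₁₁, Matrix.add_apply, Matrix.smul_apply,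
      cov_apply_eq hA.isBounded hVA]
    simp only [centroid, fs_m1x hA hB hAs hBs, fs_m2xx hA hB hAs hBs, hV, Matrix.of_apply,
      smul_eq_mul, fsc10, fsc20, fsα, fsp]
    rw [← hk, ← hl]
    field_simp
    ring
  · rw [cov_apply_eq hbd hV0, Matrix.fromBlocks_apply₁₂]
    simp only [centroid, fs_m1x hA hB hAs hBs, fs_m1y hA hB hAs hBs, fs_m2xy hA hB hAs hBs, hV,
      Matrix.of_apply, fsc10, fsc01, fsc11, fsγ]
    rw [← hk, ← hl]
    field_simp
    ring
  · rw [cov_apply_eq hbd hV0, Matrix.fromBlocks_apply₂₁]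
    simp only [centroid, fs_m1x hA hB hAs hBs, fs_m1y hA hB hAs hBs, fs_m2yx hA hB hAs hBs, hV,
      Matrix.of_apply, fsc10, fsc01, fsc11, fsγ]
    rw [← hk, ← hl]
    field_simp
    ring
  · rw [cov_apply_eq hbd hV0, Matrix.fromBlocks_apply₂₂, Matrix.add_apply, Matrix.smul_apply,
      cov_apply_eq hB.isBounded hVB]
    simp only [centroid, fs_m1y hA hB hAs hBs, fs_m2yy hA hB hAs hBs, hV, Matrix.of_apply,
      smul_eq_mul, fsc01, fsc02, fsα, fsp]
    rw [← hk, ← hl]
    field_simp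
    ring

/-! ### The determinant of the covariance matrix of a free sum -/

lemma quad_entry {m : Type*} [Fintype m] (W : Matrix m (Fin 2) ℝ) (N : Matrix m m ℝ)
    (j j' : Fin 2) :
    (Wᵀ * N * W) j j' = (fun z => W z j) ⬝ᵥ (N *ᵥ (fun z => W z j')) := by
  simp only [Matrix.mul_apply, Matrix.transpose_apply, dotProduct, Matrix.mulVec,
    Finset.sum_mul, Finset.mul_sum]
  rw [Finset.sum_comm]
  refine Finset.sum_congr rfl fun z' _ => Finset.sum_congr rfl fun z _ => by ring

lemma det_blocks {ι κ : Type*} [Fintype ι] [Fintype κ] [DecidableEq ι] [DecidableEq κ]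
    (SA : Matrix ι ι ℝ) (SB : Matrix κ κ ℝ) (a : ι → ℝ) (b : κ → ℝ)
    (α β p₁ p₂ c : ℝ) (hα : α ≠ 0) (hβ : β ≠ 0) (hA : SA.det ≠ 0) (hB : SB.det ≠ 0) :
    (Matrix.fromBlocks (α • SA + Matrix.of fun i j => p₁ * (a i * a j))
      (Matrix.of fun i j => -c * (a i * b j))
      (Matrix.of fun i j => -c * (b i * a j))
      (β • SB + Matrix.of fun i j => p₂ * (b i * b j))).det =
    α ^ Fintype.card ι * β ^ Fintype.card κ * SA.det * SB.det *
      ((1 + p₁ * (a ⬝ᵥ (SA⁻¹ *ᵥ a)) / α) * (1 + p₂ * (b ⬝ᵥ (SB⁻¹ *ᵥ b)) / β)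
        - c ^ 2 * (a ⬝ᵥ (SA⁻¹ *ᵥ a)) * (b ⬝ᵥ (SB⁻¹ *ᵥ b)) / (α * β)) := by
  set s := a ⬝ᵥ (SA⁻¹ *ᵥ a) with hs
  set t := b ⬝ᵥ (SB⁻¹ *ᵥ b) with ht
  set S : Matrix (ι ⊕ κ) (ι ⊕ κ) ℝ := Matrix.fromBlocks (α • SA) 0 0 (β • SB) with hS
  set Sinv : Matrix (ι ⊕ κ) (ι ⊕ κ) ℝ :=
    Matrix.fromBlocks (α⁻¹ • SA⁻¹) 0 0 (β⁻¹ • SB⁻¹) with hSinv
  set u : ι ⊕ κ → ℝ := Sum.elim a 0 with hu
  set v : ι ⊕ κ → ℝ := Sum.elim 0 b with hv
  set W : Matrix (ι ⊕ κ) (Fin 2) ℝ := Matrix.of fun z j => if j = 0 then u z else v z with hW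
  set C : Matrix (Fin 2) (Fin 2) ℝ := !![p₁, -c; -c, p₂] with hC
  have hSS : S * Sinv = 1 := by
    rw [hS, hSinv, Matrix.fromBlocks_multiply]
    simp only [Matrix.mul_zero, Matrix.zero_mul, add_zero, zero_add]
    rw [smul_mul_smul_comm, smul_mul_smul_comm, mul_inv_cancel₀ hα, mul_inv_cancel₀ hβ,
      Matrix.mul_nonsing_inv _ (isUnit_iff_ne_zero.2 hA),
      Matrix.mul_nonsing_inv _ (isUnit_iff_ne_zero.2 hB), one_smul, one_smul,
      Matrix.fromBlocks_one]
  have hM : Matrix.fromBlocks (α • SA + Matrix.of fun i j => p₁ * (a i * a j))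
      (Matrix.of fun i j => -c * (a i * b j))
      (Matrix.of fun i j => -c * (b i * a j))
      (β • SB + Matrix.of fun i j => p₂ * (b i * b j)) = S * (1 + (Sinv * W) * (C * Wᵀ)) := by
    have e : S * (1 + (Sinv * W) * (C * Wᵀ)) = S + W * C * Wᵀ := by
      rw [Matrix.mul_add, Matrix.mul_one]
      congr 1
      calc S * (Sinv * W * (C * Wᵀ)) = (S * Sinv) * (W * C * Wᵀ) := by
            simp only [Matrix.mul_assoc]
        _ = W * C * Wᵀ := by rw [hSS, Matrix.one_mul]
    rw [e]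
    ext (i | i) (j | j) <;>
      simp [hS, hW, hC, hu, hv, Matrix.mul_apply, Fin.sum_univ_two] <;> ring
  rw [hM, Matrix.det_mul, Matrix.det_one_add_mul_comm]
  have hdS : S.det = α ^ Fintype.card ι * β ^ Fintype.card κ * SA.det * SB.det := by
    rw [hS, Matrix.det_fromBlocks_zero₁₂, Matrix.det_smul, Matrix.det_smul]; ring
  have hΛ : Wᵀ * Sinv * W = !![s / α, 0; 0, t / β] := by
    have hu' : Sinv *ᵥ u = Sum.elim (α⁻¹ • (SA⁻¹ *ᵥ a)) (0 : κ → ℝ) := by
      rw [hSinv, hu, Matrix.fromBlocks_mulVec]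
      simp [Matrix.smul_mulVec]
    have hv' : Sinv *ᵥ v = Sum.elim (0 : ι → ℝ) (β⁻¹ • (SB⁻¹ *ᵥ b)) := by
      rw [hSinv, hv, Matrix.fromBlocks_mulVec]
      simp [Matrix.smul_mulVec]
    have hW0 : (fun z => W z 0) = u := by funext z; simp [hW]
    have hW1 : (fun z => W z 1) = v := by funext z; simp [hW]
    have e00 : u ⬝ᵥ (Sinv *ᵥ u) = s / α := by
      rw [hu', hu, sumElim_dotProduct_sumElim]
      simp [hs, div_eq_inv_mul]
    have e01 : u ⬝ᵥ (Sinv *ᵥ v) = 0 := by
      rw [hv', hu, sumElim_dotProduct_sumElim]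
      simp
    have e10 : v ⬝ᵥ (Sinv *ᵥ u) = 0 := by
      rw [hu', hv, sumElim_dotProduct_sumElim]
      simp
    have e11 : v ⬝ᵥ (Sinv *ᵥ v) = t / β := by
      rw [hv', hv, sumElim_dotProduct_sumElim]
      simp [ht, div_eq_inv_mul]
    ext j j'
    rw [quad_entry]
    fin_cases j <;> fin_cases j'
    · show (fun z => W z 0) ⬝ᵥ (Sinv *ᵥ fun z => W z 0) = _
      rw [hW0, e00]; simp
    · show (fun z => W z 0) ⬝ᵥ (Sinv *ᵥ fun z => W z 1) = _
      rw [hW0, hW1, e01]; simp
    · show (fun z => W z 1) ⬝ᵥ (Sinv *ᵥ fun z => W z 0) = _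
      rw [hW0, hW1, e10]; simp
    · show (fun z => W z 1) ⬝ᵥ (Sinv *ᵥ fun z => W z 1) = _
      rw [hW1, e11]; simp
  have e2 : C * Wᵀ * (Sinv * W) = C * !![s / α, 0; 0, t / β] := by
    rw [← hΛ]; simp only [Matrix.mul_assoc]
  rw [e2, hdS, Matrix.det_fin_two]
  have h00 : (1 + C * !![s / α, 0; 0, t / β]) 0 0 = 1 + p₁ * (s / α) := by
    simp [hC]
  have h01 : (1 + C * !![s / α, 0; 0, t / β]) 0 1 = -c * (t / β) := by
    simp [hC]
  have h10 : (1 + C * !![s / α, 0; 0, t / β]) 1 0 = -c * (s / α) := by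
    simp [hC]
  have h11 : (1 + C * !![s / α, 0; 0, t / β]) 1 1 = 1 + p₂ * (t / β) := by
    simp [hC]
  rw [h00, h01, h10, h11]
  field_simp

/-! ### Positive definiteness of the covariance matrix -/

lemma quad_cov {κ : Type*} [Fintype κ] {S : Set (κ → ℝ)} (hS : Bornology.IsBounded S)
    (v : κ → ℝ) :
    v ⬝ᵥ (cov S *ᵥ v) = (∫ x in S, (∑ i, v i * (x i - centroid S i)) ^ 2) / vol S := by
  have hint : ∀ i j, IntegrableOn (fun x : κ → ℝ =>
      (v i * (x i - centroid S i)) * (v j * (x j - centroid S j))) S :=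
    fun i j => integrableOn_of_isBounded hS _ (by fun_prop)
  have e : ∀ x : κ → ℝ, (∑ i, v i * (x i - centroid S i)) ^ 2 =
      ∑ i, ∑ j, (v i * (x i - centroid S i)) * (v j * (x j - centroid S j)) := by
    intro x; rw [pow_two, Finset.sum_mul_sum]
  simp_rw [e]
  rw [integral_finset_sum _ (fun i _ => integrable_finset_sum _ (fun j _ => hint i j))]
  have e2 : ∀ i, ∫ x in S, ∑ j, (v i * (x i - centroid S i)) * (v j * (x j - centroid S j)) =
      ∑ j, v i * v j * ∫ x in S, (x i - centroid S i) * (x j - centroid S j) := by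
    intro i
    rw [integral_finset_sum _ (fun j _ => hint i j)]
    refine Finset.sum_congr rfl fun j _ => ?_
    rw [← integral_const_mul]; congr 1; funext x; ring
  simp_rw [e2]
  simp only [dotProduct, mulVec, cov, Matrix.of_apply, Finset.mul_sum, Finset.sum_div]
  refine Finset.sum_congr rfl fun i _ => Finset.sum_congr rfl fun j _ => ?_
  ring

lemma cov_posDef {κ : Type*} [Fintype κ] [DecidableEq κ] {S : Set (κ → ℝ)}
    (hS : Bornology.IsBounded S) (hV : 0 < vol S) : (cov S).PosDef := by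
  refine Matrix.PosDef.of_dotProduct_mulVec_pos ?_ ?_
  · ext i j
    simp only [Matrix.conjTranspose_apply, cov, Matrix.of_apply, star_trivial]
    congr 2; funext x; ring
  · intro v hv
    rw [star_trivial, quad_cov hS]
    apply div_pos _ hV
    have hcont : Continuous (fun x : κ → ℝ => (∑ i, v i * (x i - centroid S i)) ^ 2) := by
      fun_prop
    rw [setIntegral_pos_iff_support_of_nonneg_ae
      (Filter.Eventually.of_forall fun x => sq_nonneg _) (integrableOn_of_isBounded hS _ hcont)]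
    let ψ : (κ → ℝ) →ₗ[ℝ] ℝ :=
      { toFun := fun x => v ⬝ᵥ x
        map_add' := by intro x y; simp [dotProduct_add]
        map_smul' := by intro c x; simp [dotProduct_smul] }
    let H : AffineSubspace ℝ (κ → ℝ) := AffineSubspace.mk' (centroid S) (LinearMap.ker ψ)
    have hH : volume (H : Set (κ → ℝ)) = 0 := by
      apply Measure.addHaar_affineSubspace
      intro htop
      have h1 : centroid S + v ∈ H := by rw [htop]; exact AffineSubspace.mem_top _ _ _
      rw [AffineSubspace.mem_mk', LinearMap.mem_ker] at h1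
      have h2 : v ⬝ᵥ v = 0 := by simpa [ψ] using h1
      exact hv (dotProduct_self_eq_zero.1 h2)
    have hsub : S \ (H : Set (κ → ℝ)) ⊆
        Function.support (fun x : κ → ℝ => (∑ i, v i * (x i - centroid S i)) ^ 2) ∩ S := by
      rintro x ⟨hxS, hxH⟩
      refine ⟨?_, hxS⟩
      rw [Function.mem_support]
      intro h0
      apply hxH
      rw [SetLike.mem_coe, AffineSubspace.mem_mk', LinearMap.mem_ker]
      have h3 : ∑ i, v i * (x i - centroid S i) = 0 := (pow_eq_zero_iff two_ne_zero).1 h0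
      show v ⬝ᵥ (x -ᵥ centroid S) = 0
      simpa [dotProduct] using h3
    have hpos : 0 < volume S := (ENNReal.toReal_pos_iff.1 hV).1
    calc 0 < volume S := hpos
      _ = volume (S \ (H : Set (κ → ℝ))) := (measure_diff_null hH).symm
      _ ≤ _ := measure_mono hsub

lemma cov_det_pos {κ : Type*} [Fintype κ] [DecidableEq κ] {S : Set (κ → ℝ)}
    (hS : Bornology.IsBounded S) (hV : 0 < vol S) : 0 < (cov S).det :=
  (cov_posDef hS hV).det_pos

/-! ### The sharp bound on the distance from a point of a star body to its centroid -/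

lemma depth_integrable (hK : MeasurableSet K) (hbd : Bornology.IsBounded K) (hs : Star0 K)
    (φ : (ι → ℝ) → ℝ) (hφ : Continuous φ) (m : ℕ) :
    Integrable (fun y => depth K y ^ (m + 1) * φ y) := by
  set g : (ι → ℝ) × ℝ → ℝ := fun q => (((m:ℝ) + 1) * (1 - q.2) ^ m) * φ q.1 with hg
  have hgc : Continuous g := by
    have h1 : Continuous (fun q : (ι → ℝ) × ℝ => ((m:ℝ) + 1) * (1 - q.2) ^ m) := by fun_prop
    exact h1.mul (hφ.comp continuous_fst)
  have hmeas := measurableSet_coneS hK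
  obtain ⟨C, hC, hsub⟩ := coneS_subset_compact hbd
  have hint : IntegrableOn g (coneS K) :=
    (hgc.continuousOn.integrableOn_compact hC).mono_set hsub
  have hint' : Integrable ((coneS K).indicator g)
      ((volume : Measure (ι → ℝ)).prod (volume : Measure ℝ)) :=
    hint.integrable_indicator hmeas
  have h2 := hint'.integral_prod_left
  have e : (fun y => ∫ r, (coneS K).indicator g (y, r)) =
      fun y => depth K y ^ (m + 1) * φ y := by
    funext y
    have h1 : ∀ r, (coneS K).indicator g (y, r) =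
        (sect K y).indicator (fun r => (((m:ℝ) + 1) * (1 - r) ^ m) * φ y) r := by
      intro r
      by_cases hr : r ∈ sect K y
      · rw [indicator_of_mem hr, indicator_of_mem (show (y, r) ∈ coneS K from hr)]
      · rw [indicator_of_notMem hr, indicator_of_notMem (show (y, r) ∉ coneS K from hr)]
    simp_rw [h1]
    rw [integral_indicator (measurableSet_sect hK y), integral_mul_const, sect_integral hs y m]
  rw [e] at h2
  exact h2

lemma fact_c1 (n : ℕ) : (((0 + 1).factorial : ℝ) * ((n + 1).factorial : ℝ)) /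
    ((0 + 1 + (n + 1)).factorial : ℝ) = 1 / ((n:ℝ) + 2) := by
  rw [show 0 + 1 + (n + 1) = n + 2 by ring, fact_succ2_cast n, fact_succ_cast n]
  have h1 : ((n.factorial : ℕ) : ℝ) ≠ 0 := by positivity
  have h2 : ((n:ℝ) + 1) ≠ 0 := by positivity
  have h3 : ((n:ℝ) + 2) ≠ 0 := by positivity
  simp
  field_simp

lemma fact_c2 (n : ℕ) : (((0 + 1).factorial : ℝ) * ((n + 0).factorial : ℝ)) /
    ((0 + 1 + (n + 0)).factorial : ℝ) = 1 / ((n:ℝ) + 1) := by
  rw [show 0 + 1 + (n + 0) = n + 1 by ring, fact_succ_cast n]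
  have h1 : ((n.factorial : ℕ) : ℝ) ≠ 0 := by positivity
  have h2 : ((n:ℝ) + 1) ≠ 0 := by positivity
  simp
  field_simp

lemma fact_c3 (n : ℕ) : (((1 + 1).factorial : ℝ) * ((n + 0).factorial : ℝ)) /
    ((1 + 1 + (n + 0)).factorial : ℝ) = 2 / (((n:ℝ) + 1) * ((n:ℝ) + 2)) := by
  rw [show 1 + 1 + (n + 0) = n + 2 by ring, fact_succ2_cast n]
  have h1 : ((n.factorial : ℕ) : ℝ) ≠ 0 := by positivity
  have h2 : ((n:ℝ) + 1) ≠ 0 := by positivity
  have h3 : ((n:ℝ) + 2) ≠ 0 := by positivity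
  simp
  field_simp

/-- For a compact set `K` star-shaped about the origin and a linear functional `φ`:
the square of n+1 times the integral of `φ` over `K` is at most `n` times n+2 times the volume
of `K` times the integral of the square of `φ` over `K`. -/
lemma mp_ineq (hK : IsCompact K) (hs : Star0 K) (φ : (ι → ℝ) → ℝ) (hφ : Continuous φ)
    (hhom : ∀ (t : ℝ) (x : ι → ℝ), φ (t • x) = t ^ 1 * φ x) :
    ((Fintype.card ι : ℝ) + 1) ^ 2 * (∫ y in K, φ y) ^ 2 ≤
      (Fintype.card ι : ℝ) * ((Fintype.card ι : ℝ) + 2) * ((∫ y in K, φ y ^ 2) * vol K) := by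
  set k : ℝ := (Fintype.card ι : ℝ) with hk
  have hk0 : 0 ≤ k := Nat.cast_nonneg _
  have hKm := hK.measurableSet
  have hKb := hK.isBounded
  have hone : Continuous (fun _ : ι → ℝ => (1:ℝ)) := continuous_const
  have hone_hom : ∀ (t : ℝ) (x : ι → ℝ), (fun _ : ι → ℝ => (1:ℝ)) (t • x) =
      t ^ 0 * (fun _ : ι → ℝ => (1:ℝ)) x := by intro t x; simp
  -- the three depth integrals, as set integrals
  have hz : ∀ (m : ℕ) (ψ : (ι → ℝ) → ℝ), ∫ y in K, depth K y ^ (m + 1) * ψ y =
      ∫ y, depth K y ^ (m + 1) * ψ y := by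
    intro m ψ
    apply setIntegral_eq_integral_of_forall_compl_eq_zero
    intro y hy
    rw [depth_of_notMem hs hy]; simp
  have hD1 : ∫ y in K, depth K y ^ (0 + 1) * φ y = (∫ y in K, φ y) / (k + 2) := by
    rw [hz, depth_integral hKm hKb hs φ hφ 1 hhom 0, fact_c1]; ring
  have hD0 : ∫ y in K, depth K y ^ (0 + 1) * (1:ℝ) = vol K / (k + 1) := by
    rw [hz 0 (fun _ => (1:ℝ)), depth_integral hKm hKb hs (fun _ => (1:ℝ)) hone 0 hone_hom 0,
      fact_c2, ← vol_eq_integral]; ring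
  have hD2 : ∫ y in K, depth K y ^ (1 + 1) * (1:ℝ) = 2 * vol K / ((k + 1) * (k + 2)) := by
    rw [hz 1 (fun _ => (1:ℝ)), depth_integral hKm hKb hs (fun _ => (1:ℝ)) hone 0 hone_hom 1,
      fact_c3, ← vol_eq_integral]; ring
  -- integrability
  have hi1 : IntegrableOn (fun y => depth K y ^ (0 + 1) * φ y) K :=
    (depth_integrable hKm hKb hs φ hφ 0).integrableOn
  have hi0 : IntegrableOn (fun y => depth K y ^ (0 + 1) * (1:ℝ)) K :=
    (depth_integrable hKm hKb hs (fun _ => (1:ℝ)) hone 0).integrableOn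
  have hi2 : IntegrableOn (fun y => depth K y ^ (1 + 1) * (1:ℝ)) K :=
    (depth_integrable hKm hKb hs (fun _ => (1:ℝ)) hone 1).integrableOn
  have hiφ : IntegrableOn φ K := integrableOn_of_isBounded hKb _ hφ
  have hiφ2 : IntegrableOn (fun y => φ y ^ 2) K := integrableOn_of_isBounded hKb _ (hφ.pow 2)
  have hic : IntegrableOn (fun _ : ι → ℝ => (1:ℝ)) K := integrableOn_of_isBounded hKb _ hone
  -- the quadratic polynomial
  have hquad : ∀ c : ℝ, 0 ≤ (∫ y in K, φ y ^ 2) * (c * c) +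
      (-2 * ((∫ y in K, φ y) - (∫ y in K, φ y) / (k + 2))) * c +
      (vol K - 2 * (vol K / (k + 1)) + 2 * vol K / ((k + 1) * (k + 2))) := by
    intro c
    have hnn : 0 ≤ ∫ y in K, (c * φ y - (1 - depth K y)) ^ 2 :=
      setIntegral_nonneg hKm (fun y _ => sq_nonneg _)
    have e : (fun y => (c * φ y - (1 - depth K y)) ^ 2) = fun y =>
        c * c * φ y ^ 2 - 2 * c * φ y + 2 * c * (depth K y ^ (0 + 1) * φ y) + 1
          - 2 * (depth K y ^ (0 + 1) * (1:ℝ)) + depth K y ^ (1 + 1) * (1:ℝ) := by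
      funext y; ring
    have ha := hiφ2.const_mul (c * c)
    have hb := hiφ.const_mul (2 * c)
    have hc := hi1.const_mul (2 * c)
    have he := hi0.const_mul 2
    have e1 : ∫ y in K, (c * c * φ y ^ 2 - 2 * c * φ y + 2 * c * (depth K y ^ (0 + 1) * φ y) + 1
          - 2 * (depth K y ^ (0 + 1) * (1:ℝ)) + depth K y ^ (1 + 1) * (1:ℝ)) =
        c * c * (∫ y in K, φ y ^ 2) - 2 * c * (∫ y in K, φ y) +
          2 * c * (∫ y in K, depth K y ^ (0 + 1) * φ y) + vol K
          - 2 * (∫ y in K, depth K y ^ (0 + 1) * (1:ℝ)) +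
          ∫ y in K, depth K y ^ (1 + 1) * (1:ℝ) := by
      have s1 : ∫ y in K, (c * c * φ y ^ 2 - 2 * c * φ y +
            2 * c * (depth K y ^ (0 + 1) * φ y) + 1
            - 2 * (depth K y ^ (0 + 1) * (1:ℝ)) + depth K y ^ (1 + 1) * (1:ℝ)) =
          (∫ y in K, (c * c * φ y ^ 2 - 2 * c * φ y +
            2 * c * (depth K y ^ (0 + 1) * φ y) + 1
            - 2 * (depth K y ^ (0 + 1) * (1:ℝ)))) + ∫ y in K, depth K y ^ (1 + 1) * (1:ℝ) :=
        integral_add ((((ha.sub hb).add hc).add hic).sub he) hi2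
      have s2 : ∫ y in K, (c * c * φ y ^ 2 - 2 * c * φ y +
            2 * c * (depth K y ^ (0 + 1) * φ y) + 1
            - 2 * (depth K y ^ (0 + 1) * (1:ℝ))) =
          (∫ y in K, (c * c * φ y ^ 2 - 2 * c * φ y +
            2 * c * (depth K y ^ (0 + 1) * φ y) + 1))
            - ∫ y in K, 2 * (depth K y ^ (0 + 1) * (1:ℝ)) :=
        integral_sub (((ha.sub hb).add hc).add hic) he
      have s3 : ∫ y in K, (c * c * φ y ^ 2 - 2 * c * φ y +
            2 * c * (depth K y ^ (0 + 1) * φ y) + 1) =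
          (∫ y in K, (c * c * φ y ^ 2 - 2 * c * φ y +
            2 * c * (depth K y ^ (0 + 1) * φ y))) + ∫ _y in K, (1:ℝ) :=
        integral_add ((ha.sub hb).add hc) hic
      have s4 : ∫ y in K, (c * c * φ y ^ 2 - 2 * c * φ y +
            2 * c * (depth K y ^ (0 + 1) * φ y)) =
          (∫ y in K, (c * c * φ y ^ 2 - 2 * c * φ y)) +
            ∫ y in K, 2 * c * (depth K y ^ (0 + 1) * φ y) :=
        integral_add (ha.sub hb) hc
      have s5 : ∫ y in K, (c * c * φ y ^ 2 - 2 * c * φ y) =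
          (∫ y in K, c * c * φ y ^ 2) - ∫ y in K, 2 * c * φ y :=
        integral_sub ha hb
      rw [s1, s2, s3, s4, s5,
        integral_const_mul, integral_const_mul, integral_const_mul, integral_const_mul,
        ← vol_eq_integral]
    rw [e, e1, hD1, hD0, hD2] at hnn
    linarith
  have hdisc := discrim_le_zero hquad
  rw [discrim] at hdisc
  set I1 := ∫ y in K, φ y with hI1
  set I2 := ∫ y in K, φ y ^ 2 with hI2
  set V := vol K with hV
  have h1 : k + 1 ≠ 0 := by positivity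
  have h2 : k + 2 ≠ 0 := by positivity
  have e1 : I1 - I1 / (k + 2) = I1 * (k + 1) / (k + 2) := by field_simp; ring
  have e2 : V - 2 * (V / (k + 1)) + 2 * V / ((k + 1) * (k + 2)) = V * k / (k + 2) := by
    field_simp; ring
  rw [e1, e2] at hdisc
  have h3 : (I1 * (k + 1) / (k + 2)) ^ 2 ≤ I2 * (V * k / (k + 2)) := by linarith
  rw [div_pow, div_le_iff₀ (by positivity)] at h3
  have e3 : I2 * (V * k / (k + 2)) * (k + 2) ^ 2 = k * (k + 2) * (I2 * V) := by
    field_simp
  rw [e3] at h3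
  calc (k + 1) ^ 2 * I1 ^ 2 = (I1 * (k + 1)) ^ 2 := by ring
    _ ≤ k * (k + 2) * (I2 * V) := h3

/-- The origin of a compact star-shaped set lies within Mahalanobis distance `√(n(n+2))` of the
centroid. -/
lemma mah_le [DecidableEq ι] (hK : IsCompact K) (hs : Star0 K) (hV : 0 < vol K) :
    mah K ≤ (Fintype.card ι : ℝ) * ((Fintype.card ι : ℝ) + 2) := by
  set k : ℝ := (Fintype.card ι : ℝ) with hk
  have hk0 : 0 ≤ k := Nat.cast_nonneg _
  have hKb := hK.isBounded
  set a := centroid K with ha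
  set M := cov K with hM
  have hdet : IsUnit M.det := isUnit_iff_ne_zero.2 (cov_det_pos hKb hV).ne'
  set w := M⁻¹ *ᵥ a with hw
  set s := mah K with hs'
  have hsw : w ⬝ᵥ a = s := by rw [hs', mah, dotProduct_comm]
  have hMw : M *ᵥ w = a := by
    rw [hw, Matrix.mulVec_mulVec, Matrix.mul_nonsing_inv _ hdet, Matrix.one_mulVec]
  set V := vol K with hV'
  have hV0 : V ≠ 0 := hV.ne'
  have hmom : ∀ i, ∫ y in K, y i = a i * V := by
    intro i
    have e0 : a i = (∫ y in K, y i) / V := rfl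
    rw [e0]; field_simp
  have hiy : ∀ i, IntegrableOn (fun y : ι → ℝ => w i * y i) K :=
    fun i => integrableOn_of_isBounded hKb _ (by fun_prop)
  have hφc : Continuous (fun y : ι → ℝ => w ⬝ᵥ y) := by
    unfold dotProduct; fun_prop
  have hI1 : ∫ y in K, w ⬝ᵥ y = V * s := by
    simp only [dotProduct]
    rw [integral_finset_sum _ (fun i _ => hiy i)]
    simp_rw [integral_const_mul, hmom]
    rw [← hsw]
    simp only [dotProduct]
    rw [Finset.mul_sum]
    refine Finset.sum_congr rfl fun i _ => by ring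
  have hvar : ∫ y in K, (∑ i, w i * (y i - a i)) ^ 2 = V * s := by
    have h := quad_cov hKb (S := K) w
    rw [← hM, hMw, hsw, ← ha] at h
    rw [eq_div_iff hV0] at h
    linarith
  have hI2 : ∫ y in K, (w ⬝ᵥ y) ^ 2 = V * (s + s ^ 2) := by
    have e : ∀ y : ι → ℝ, (w ⬝ᵥ y) ^ 2 =
        (∑ i, w i * (y i - a i)) ^ 2 + 2 * s * (w ⬝ᵥ y) - s ^ 2 * 1 := by
      intro y
      have e1 : ∑ i, w i * (y i - a i) = w ⬝ᵥ y - s := by
        rw [← hsw]
        simp only [dotProduct, mul_sub, Finset.sum_sub_distrib]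
      rw [e1]; ring
    simp_rw [e]
    have hi_a : IntegrableOn (fun y : ι → ℝ => (∑ i, w i * (y i - a i)) ^ 2) K :=
      integrableOn_of_isBounded hKb _ (by fun_prop)
    have hi_b : IntegrableOn (fun y : ι → ℝ => 2 * s * (w ⬝ᵥ y)) K :=
      integrableOn_of_isBounded hKb _ (continuous_const.mul hφc)
    have hi_c : IntegrableOn (fun _ : ι → ℝ => s ^ 2 * (1:ℝ)) K :=
      integrableOn_of_isBounded hKb _ continuous_const
    have s1 : ∫ y in K, ((∑ i, w i * (y i - a i)) ^ 2 + 2 * s * (w ⬝ᵥ y) - s ^ 2 * 1) =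
        (∫ y in K, ((∑ i, w i * (y i - a i)) ^ 2 + 2 * s * (w ⬝ᵥ y))) -
          ∫ _y in K, s ^ 2 * (1:ℝ) := integral_sub (hi_a.add hi_b) hi_c
    have s2 : ∫ y in K, ((∑ i, w i * (y i - a i)) ^ 2 + 2 * s * (w ⬝ᵥ y)) =
        (∫ y in K, (∑ i, w i * (y i - a i)) ^ 2) + ∫ y in K, 2 * s * (w ⬝ᵥ y) :=
      integral_add hi_a hi_b
    rw [s1, s2, integral_const_mul, integral_const_mul, hvar, hI1, ← vol_eq_integral]
    ring
  have hmp := mp_ineq hK hs (fun y => w ⬝ᵥ y) hφc
    (by intro t x; simp [dotProduct_smul])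
  rw [hI1, hI2] at hmp
  have hV2 : 0 < V ^ 2 := by positivity
  have h4 : V ^ 2 * ((k + 1) ^ 2 * s ^ 2) ≤ V ^ 2 * (k * (k + 2) * (s + s ^ 2)) := by
    calc V ^ 2 * ((k + 1) ^ 2 * s ^ 2) = (k + 1) ^ 2 * (V * s) ^ 2 := by ring
      _ ≤ k * (k + 2) * (V * (s + s ^ 2) * V) := hmp
      _ = V ^ 2 * (k * (k + 2) * (s + s ^ 2)) := by ring
  have h5 := le_of_mul_le_mul_left h4 hV2
  have h6 : s ^ 2 ≤ k * (k + 2) * s := by nlinarith [h5]
  by_contra hgt
  have hgt' : k * (k + 2) < s := not_le.1 hgt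
  have hspos : 0 < s := lt_of_le_of_lt (by positivity) hgt'
  nlinarith [mul_lt_mul_of_pos_right hgt' hspos]

/-! ### The isotropic constant of a free sum -/

lemma fs_bracket (k l : ℕ) (s t : ℝ) :
    (1 + fsp k l * s / fsα k l) * (1 + fsp l k * t / fsα l k)
      - fsγ k l ^ 2 * s * t / (fsα k l * fsα l k) =
    1 + (((k:ℝ) * ((k:ℝ) + 2)) * ((l:ℝ) * ((l:ℝ) + 2))
      - ((k:ℝ) * ((k:ℝ) + 2) - s) * ((l:ℝ) * ((l:ℝ) + 2) - t)) /
      (((k:ℝ) + l + 1) * ((k:ℝ) + 2) * ((l:ℝ) + 2)) := by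
  unfold fsp fsα fsγ
  have hk0 : (0:ℝ) ≤ k := Nat.cast_nonneg _
  have hl0 : (0:ℝ) ≤ l := Nat.cast_nonneg _
  have h1 : (k:ℝ) + l + 1 ≠ 0 := by positivity
  have h2 : (k:ℝ) + l + 2 ≠ 0 := by positivity
  have h1' : (l:ℝ) + k + 1 ≠ 0 := by positivity
  have h2' : (l:ℝ) + k + 2 ≠ 0 := by positivity
  have h3 : (k:ℝ) + 1 ≠ 0 := by positivity
  have h4 : (k:ℝ) + 2 ≠ 0 := by positivity
  have h5 : (l:ℝ) + 1 ≠ 0 := by positivity
  have h6 : (l:ℝ) + 2 ≠ 0 := by positivity
  field_simp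
  ring

lemma fsα_pos (k l : ℕ) : 0 < fsα k l := by unfold fsα; positivity

lemma fsConst_eq' (k l : ℕ) :
    fsConst k l = fsα k l ^ k * fsα l k ^ l / (fsc k l 0 0) ^ 2 := by
  unfold fsConst fsα fsc
  simp only [add_zero]
  have h1 : ((k.factorial : ℕ) : ℝ) ≠ 0 := by positivity
  have h2 : ((l.factorial : ℕ) : ℝ) ≠ 0 := by positivity
  have h3 : (((k + l).factorial : ℕ) : ℝ) ≠ 0 := by positivity
  have e1 : ((l:ℝ) + k + 1) = (k:ℝ) + l + 1 := by ring
  have e2 : ((l:ℝ) + k + 2) = (k:ℝ) + l + 2 := by ring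
  rw [e1, e2]
  have hne : (((k.factorial : ℝ) * (l.factorial : ℝ)) / ((k + l).factorial : ℝ)) ^ 2 ≠ 0 := by
    positivity
  rw [eq_div_iff hne]
  have e3 : (((k + l).factorial : ℝ) / ((k.factorial : ℝ) * (l.factorial : ℝ))) ^ 2 *
      (((k.factorial : ℝ) * (l.factorial : ℝ)) / ((k + l).factorial : ℝ)) ^ 2 = 1 := by
    field_simp
  linear_combination ((((k:ℝ) + 1) * ((k:ℝ) + 2)) / (((k:ℝ) + l + 1) * ((k:ℝ) + l + 2))) ^ k *
    ((((l:ℝ) + 1) * ((l:ℝ) + 2)) / (((k:ℝ) + l + 1) * ((k:ℝ) + l + 2))) ^ l * e3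

lemma fsConst_pos (k l : ℕ) : 0 < fsConst k l := by
  rw [fsConst_eq']
  have h1 := fsα_pos k l
  have h2 := fsα_pos l k
  have h3 := fsc_pos k l 0 0
  positivity

lemma fsMax_pos (k l : ℕ) : 0 < fsMax k l := by
  unfold fsMax
  have h1 := fsConst_pos k l
  positivity

lemma simplexPow_pos (m : ℕ) : 0 < simplexPow m := by unfold simplexPow; positivity

lemma simplexPow_zero : simplexPow 0 = 1 := by simp [simplexPow]

lemma simplexPow_succ (m : ℕ) : simplexPow (m + 1) = coneConst m * simplexPow m := by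
  unfold simplexPow coneConst
  rw [fact_succ_cast]
  have hm0 : (0:ℝ) ≤ m := Nat.cast_nonneg _
  have h1 : ((m.factorial : ℕ) : ℝ) ≠ 0 := by positivity
  have h2 : (m:ℝ) + 1 ≠ 0 := by positivity
  have h3 : (m:ℝ) + 2 ≠ 0 := by positivity
  have h4 : (m:ℝ) + 3 ≠ 0 := by positivity
  push_cast
  have e1 : (m:ℝ) + 1 + 1 = m + 2 := by ring
  have e2 : (m:ℝ) + 1 + 2 = m + 3 := by ring
  rw [e1, e2]
  field_simp
  ring

lemma fsMax_simplex (k l : ℕ) :
    fsMax k l * (simplexPow k * simplexPow l) = simplexPow (k + l) := by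
  unfold fsMax
  rw [fsConst_eq']
  unfold fsα fsc simplexPow
  simp only [add_zero]
  have hk0 : (0:ℝ) ≤ k := Nat.cast_nonneg _
  have hl0 : (0:ℝ) ≤ l := Nat.cast_nonneg _
  have h1 : ((k.factorial : ℕ) : ℝ) ≠ 0 := by positivity
  have h2 : ((l.factorial : ℕ) : ℝ) ≠ 0 := by positivity
  have h3 : (((k + l).factorial : ℕ) : ℝ) ≠ 0 := by positivity
  have h4 : (k:ℝ) + l + 1 ≠ 0 := by positivity
  have h5 : (k:ℝ) + l + 2 ≠ 0 := by positivity
  have h6 : (k:ℝ) + 1 ≠ 0 := by positivity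
  have h7 : (k:ℝ) + 2 ≠ 0 := by positivity
  have h8 : (l:ℝ) + 1 ≠ 0 := by positivity
  have h9 : (l:ℝ) + 2 ≠ 0 := by positivity
  push_cast
  have e1 : ((l:ℝ) + k + 1) = (k:ℝ) + l + 1 := by ring
  have e2 : ((l:ℝ) + k + 2) = (k:ℝ) + l + 2 := by ring
  rw [e1, e2]
  rw [div_pow, div_pow, div_pow, mul_pow, mul_pow, mul_pow, mul_pow,
    pow_succ ((k:ℝ) + 1) k, pow_succ ((l:ℝ) + 1) l, pow_succ ((k:ℝ) + l + 1) (k + l),
    pow_add ((k:ℝ) + l + 1) k l, pow_add ((k:ℝ) + l + 2) k l]
  field_simp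

theorem isoPow_freeSum [Nonempty ι] [DecidableEq ι] [DecidableEq κ] (hA : IsCompact A)
    (hB : IsCompact B) (hAs : Star0 A) (hBs : Star0 B) (hAv : 0 < vol A) (hBv : 0 < vol B) :
    isoPow (freeSum A B) = fsConst (Fintype.card ι) (Fintype.card κ) *
      (1 + (((Fintype.card ι : ℝ) * ((Fintype.card ι : ℝ) + 2)) *
          ((Fintype.card κ : ℝ) * ((Fintype.card κ : ℝ) + 2))
        - ((Fintype.card ι : ℝ) * ((Fintype.card ι : ℝ) + 2) - mah A) *
          ((Fintype.card κ : ℝ) * ((Fintype.card κ : ℝ) + 2) - mah B)) /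
        (((Fintype.card ι : ℝ) + (Fintype.card κ : ℝ) + 1) * ((Fintype.card ι : ℝ) + 2) *
          ((Fintype.card κ : ℝ) + 2))) * (isoPow A * isoPow B) := by
  have hα : fsα (Fintype.card ι) (Fintype.card κ) ≠ 0 := (fsα_pos _ _).ne'
  have hβ : fsα (Fintype.card κ) (Fintype.card ι) ≠ 0 := (fsα_pos _ _).ne'
  have hdA := (cov_det_pos hA.isBounded hAv).ne'
  have hdB := (cov_det_pos hB.isBounded hBv).ne'
  have hc0 := (fsc_pos (Fintype.card ι) (Fintype.card κ) 0 0).ne'
  have hVA : vol A ≠ 0 := hAv.ne'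
  have hVB : vol B ≠ 0 := hBv.ne'
  have hb := fs_bracket (Fintype.card ι) (Fintype.card κ) (mah A) (mah B)
  unfold mah at hb
  unfold isoPow mah
  rw [cov_freeSum hA hB hAs hBs hAv hBv,
    det_blocks (cov A) (cov B) (centroid A) (centroid B) _ _ _ _ _ hα hβ hdA hdB,
    fs_vol hA hB hAs hBs, hb, fsConst_eq']
  have hk0 : (0:ℝ) ≤ (Fintype.card ι : ℝ) := Nat.cast_nonneg _
  have hl0 : (0:ℝ) ≤ (Fintype.card κ : ℝ) := Nat.cast_nonneg _
  have h1 : (Fintype.card ι : ℝ) + (Fintype.card κ : ℝ) + 1 ≠ 0 := by positivity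
  have h4 : (Fintype.card ι : ℝ) + 2 ≠ 0 := by positivity
  have h6 : (Fintype.card κ : ℝ) + 2 ≠ 0 := by positivity
  field_simp

lemma isoPow_pos {κ : Type*} [Fintype κ] [DecidableEq κ] {S : Set (κ → ℝ)}
    (hS : Bornology.IsBounded S) (hV : 0 < vol S) : 0 < isoPow S :=
  div_pos (cov_det_pos hS hV) (pow_pos hV 2)

theorem isoPow_freeSum_le [Nonempty ι] [DecidableEq ι] [DecidableEq κ] (hA : IsCompact A)
    (hB : IsCompact B) (hAs : Star0 A) (hBs : Star0 B) (hAv : 0 < vol A) (hBv : 0 < vol B) :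
    isoPow (freeSum A B) ≤
        fsMax (Fintype.card ι) (Fintype.card κ) * (isoPow A * isoPow B) ∧
    (isoPow (freeSum A B) = fsMax (Fintype.card ι) (Fintype.card κ) * (isoPow A * isoPow B) ↔
      mah A = (Fintype.card ι : ℝ) * ((Fintype.card ι : ℝ) + 2) ∨
      mah B = (Fintype.card κ : ℝ) * ((Fintype.card κ : ℝ) + 2)) := by
  have hf := isoPow_freeSum hA hB hAs hBs hAv hBv
  have hsA := mah_le hA hAs hAv
  have hsB := mah_le hB hBs hBv
  have hIA : 0 < isoPow A := isoPow_pos hA.isBounded hAv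
  have hIB : 0 < isoPow B := isoPow_pos hB.isBounded hBv
  have hc := fsConst_pos (Fintype.card ι) (Fintype.card κ)
  set K : ℝ := (Fintype.card ι : ℝ) with hK
  set L : ℝ := (Fintype.card κ : ℝ) with hL
  set s := mah A with hs
  set t := mah B with ht
  have hK0 : 0 ≤ K := Nat.cast_nonneg _
  have hL0 : 0 ≤ L := Nat.cast_nonneg _
  have hD : 0 < (K + L + 1) * (K + 2) * (L + 2) := by positivity
  have hmax : fsMax (Fintype.card ι) (Fintype.card κ) =
      fsConst (Fintype.card ι) (Fintype.card κ) *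
        (1 + (K * (K + 2)) * (L * (L + 2)) / ((K + L + 1) * (K + 2) * (L + 2))) := by
    unfold fsMax
    rw [← hK, ← hL]
    congr 1
    field_simp
    ring
  have hx : 0 ≤ (K * (K + 2) - s) * (L * (L + 2) - t) :=
    mul_nonneg (by linarith) (by linarith)
  have hdiff : fsMax (Fintype.card ι) (Fintype.card κ) * (isoPow A * isoPow B)
      - isoPow (freeSum A B) =
      fsConst (Fintype.card ι) (Fintype.card κ) * (isoPow A * isoPow B) *
        ((K * (K + 2) - s) * (L * (L + 2) - t) / ((K + L + 1) * (K + 2) * (L + 2))) := by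
    rw [hf, hmax]
    field_simp
    ring
  have hcI : 0 < fsConst (Fintype.card ι) (Fintype.card κ) * (isoPow A * isoPow B) :=
    mul_pos hc (mul_pos hIA hIB)
  constructor
  · have h0 : 0 ≤ fsConst (Fintype.card ι) (Fintype.card κ) * (isoPow A * isoPow B) *
        ((K * (K + 2) - s) * (L * (L + 2) - t) / ((K + L + 1) * (K + 2) * (L + 2))) :=
      mul_nonneg hcI.le (div_nonneg hx hD.le)
    linarith
  · constructor
    · intro heq
      have h0 : fsConst (Fintype.card ι) (Fintype.card κ) * (isoPow A * isoPow B) *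
          ((K * (K + 2) - s) * (L * (L + 2) - t) / ((K + L + 1) * (K + 2) * (L + 2))) = 0 := by
        linarith
      have h1 : (K * (K + 2) - s) * (L * (L + 2) - t) / ((K + L + 1) * (K + 2) * (L + 2)) = 0 := by
        rcases mul_eq_zero.1 h0 with h | h
        · exact absurd h hcI.ne'
        · exact h
      have h2 : (K * (K + 2) - s) * (L * (L + 2) - t) = 0 := by
        rcases div_eq_zero_iff.1 h1 with h | h
        · exact h
        · exact absurd h hD.ne'
      rcases mul_eq_zero.1 h2 with h | h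
      · left; linarith
      · right; linarith
    · intro h
      have h2 : (K * (K + 2) - s) * (L * (L + 2) - t) = 0 := by
        rcases h with h | h
        · rw [h]; ring
        · rw [h]; ring
      rw [h2, zero_div, mul_zero] at hdiff
      linarith

theorem isoPow_freeSum_simplex [Nonempty ι] [DecidableEq ι] [DecidableEq κ] (hA : IsCompact A)
    (hB : IsCompact B) (hAs : Star0 A) (hBs : Star0 B) (hAv : 0 < vol A) (hBv : 0 < vol B)
    (h1 : isoPow A ≤ simplexPow (Fintype.card ι)) (h2 : isoPow B ≤ simplexPow (Fintype.card κ)) :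
    isoPow (freeSum A B) ≤ simplexPow (Fintype.card ι + Fintype.card κ) ∧
    (mah A < (Fintype.card ι : ℝ) * ((Fintype.card ι : ℝ) + 2) →
      mah B < (Fintype.card κ : ℝ) * ((Fintype.card κ : ℝ) + 2) →
      isoPow (freeSum A B) < simplexPow (Fintype.card ι + Fintype.card κ)) := by
  have h := isoPow_freeSum_le hA hB hAs hBs hAv hBv
  have hIA : 0 < isoPow A := isoPow_pos hA.isBounded hAv
  have hIB : 0 < isoPow B := isoPow_pos hB.isBounded hBv
  have hm := fsMax_pos (Fintype.card ι) (Fintype.card κ)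
  have hstep : fsMax (Fintype.card ι) (Fintype.card κ) * (isoPow A * isoPow B) ≤
      simplexPow (Fintype.card ι + Fintype.card κ) := by
    rw [← fsMax_simplex]
    apply mul_le_mul_of_nonneg_left _ hm.le
    exact mul_le_mul h1 h2 hIB.le (simplexPow_pos _).le
  refine ⟨h.1.trans hstep, ?_⟩
  intro hs ht
  refine lt_of_lt_of_le (lt_of_le_of_ne h.1 ?_) hstep
  intro heq
  rcases h.2.1 heq with h' | h'
  · exact hs.ne h'
  · exact ht.ne h'

lemma isCompact_freeSum (hA : IsCompact A) (hB : IsCompact B) : IsCompact (freeSum A B) := by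
  have hc : Continuous (fun p : ((ι → ℝ) × (κ → ℝ)) × ℝ =>
      (Sum.elim ((1 - p.2) • p.1.1) (p.2 • p.1.2) : ι ⊕ κ → ℝ)) := by
    apply continuous_pi
    rintro (i | j)
    · simp only [Sum.elim_inl, Pi.smul_apply, smul_eq_mul]; fun_prop
    · simp only [Sum.elim_inr, Pi.smul_apply, smul_eq_mul]; fun_prop
  have e : freeSum A B = (fun p : ((ι → ℝ) × (κ → ℝ)) × ℝ =>
      (Sum.elim ((1 - p.2) • p.1.1) (p.2 • p.1.2) : ι ⊕ κ → ℝ)) ''
        ((A ×ˢ B) ×ˢ Icc (0:ℝ) 1) := by
    ext z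
    simp only [freeSum, mem_setOf_eq, mem_image, mem_prod, mem_Icc, Prod.exists]
    constructor
    · rintro ⟨a, ha, b, hb, t, h0, h1, rfl⟩
      exact ⟨a, b, t, ⟨⟨ha, hb⟩, h0, h1⟩, rfl⟩
    · rintro ⟨a, b, t, ⟨⟨ha, hb⟩, h0, h1⟩, rfl⟩
      exact ⟨a, ha, b, hb, t, h0, h1, rfl⟩
  rw [e]
  exact ((hA.prod hB).prod isCompact_Icc).image hc

lemma starConvex_freeSum (hAs : Star0 A) (hBs : Star0 B) :
    StarConvex ℝ (0 : ι ⊕ κ → ℝ) (freeSum A B) := by
  rintro z ⟨a, ha, b, hb, t, h0, h1, rfl⟩ u v hu hv huv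
  have hv1 : v ≤ 1 := by linarith
  refine ⟨v • a, hAs a ha v hv hv1, v • b, hBs b hb v hv hv1, t, h0, h1, ?_⟩
  funext j
  rcases j with i | j
  · simp only [smul_zero, zero_add, Pi.smul_apply, Sum.elim_inl, smul_eq_mul]; ring
  · simp only [smul_zero, zero_add, Pi.smul_apply, Sum.elim_inr, smul_eq_mul]; ring

lemma fs_vol_pos [Nonempty ι] (hA : IsCompact A) (hB : IsCompact B) (hAs : Star0 A)
    (hBs : Star0 B) (hAv : 0 < vol A) (hBv : 0 < vol B) : 0 < vol (freeSum A B) := by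
  rw [fs_vol hA hB hAs hBs]
  have := fsc_pos (Fintype.card ι) (Fintype.card κ) 0 0
  positivity

lemma freeSum_eq_convexHull (hAc : Convex ℝ A) (hBc : Convex ℝ B) (hAne : A.Nonempty)
    (hBne : B.Nonempty) :
    freeSum A B = convexHull ℝ
      ((fun a : ι → ℝ => (Sum.elim a (0 : κ → ℝ) : ι ⊕ κ → ℝ)) '' A ∪
        (fun b : κ → ℝ => (Sum.elim (0 : ι → ℝ) b : ι ⊕ κ → ℝ)) '' B) := by
  have h1 : Convex ℝ ((fun a : ι → ℝ => (Sum.elim a (0 : κ → ℝ) : ι ⊕ κ → ℝ)) '' A) := by
    rintro _ ⟨a, ha, rfl⟩ _ ⟨a', ha', rfl⟩ u v hu hv huv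
    refine ⟨u • a + v • a', hAc ha ha' hu hv huv, ?_⟩
    funext j; rcases j with i | j <;> simp
  have h2 : Convex ℝ ((fun b : κ → ℝ => (Sum.elim (0 : ι → ℝ) b : ι ⊕ κ → ℝ)) '' B) := by
    rintro _ ⟨b, hb, rfl⟩ _ ⟨b', hb', rfl⟩ u v hu hv huv
    refine ⟨u • b + v • b', hBc hb hb' hu hv huv, ?_⟩
    funext j; rcases j with i | j <;> simp
  rw [convexHull_union (hAne.image _) (hBne.image _), h1.convexHull_eq, h2.convexHull_eq]
  ext z
  rw [mem_convexJoin]
  constructor
  · rintro ⟨a, ha, b, hb, t, h0, h1, rfl⟩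
    refine ⟨_, ⟨a, ha, rfl⟩, _, ⟨b, hb, rfl⟩, 1 - t, t, by linarith, h0, by ring, ?_⟩
    funext j; rcases j with i | j <;> simp
  · rintro ⟨_, ⟨a, ha, rfl⟩, _, ⟨b, hb, rfl⟩, u, v, hu, hv, huv, rfl⟩
    have hu' : u = 1 - v := by linarith
    subst hu'
    refine ⟨a, ha, b, hb, v, hv, by linarith, ?_⟩
    funext j; rcases j with i | j <;> simp

/-- cones preserve the simplex value -/
lemma cone_simplexPow [DecidableEq ι] {T : Set (ι → ℝ)} (hT : MeasurableSet T)
    (hbd : Bornology.IsBounded T) (hV : 0 < vol T) :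
    (isoPow (cone T) = simplexPow (Fintype.card ι + 1) ↔ isoPow T = simplexPow (Fintype.card ι)) ∧
    (isoPow (cone T) ≤ simplexPow (Fintype.card ι + 1) ↔
      isoPow T ≤ simplexPow (Fintype.card ι)) := by
  rw [isoPow_cone hT hbd hV, simplexPow_succ]
  have hc := coneConst_pos (Fintype.card ι)
  constructor
  · constructor
    · intro h; exact mul_left_cancel₀ hc.ne' h
    · intro h; rw [h]
  · exact mul_le_mul_iff_right₀ hc

/-- the one-point space has the simplex value in dimension zero -/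
lemma isoPow_point : isoPow (Set.univ : Set (Empty → ℝ)) = simplexPow 0 := by
  rw [simplexPow_zero]
  unfold isoPow vol
  have hv : volume (Set.univ : Set (Empty → ℝ)) = 1 := by
    rw [volume_pi, Measure.pi_univ]; simp
  rw [Matrix.det_isEmpty, hv]
  simp

/-! ### Strictness for convex bodies glued at interior points -/

lemma translate_integral {κ : Type*} [Fintype κ] (S : Set (κ → ℝ)) (z : κ → ℝ)
    (g : (κ → ℝ) → ℝ) :
    ∫ x in (fun x : κ → ℝ => x + z) ⁻¹' S, g (x + z) = ∫ y in S, g y := by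
  have hmp : MeasurePreserving (fun x : κ → ℝ => x + z) volume volume :=
    measurePreserving_add_right volume z
  exact hmp.setIntegral_preimage_emb (measurableEmbedding_addRight z) g S

lemma translate_vol {κ : Type*} [Fintype κ] (S : Set (κ → ℝ)) (z : κ → ℝ) :
    vol ((fun x : κ → ℝ => x + z) ⁻¹' S) = vol S := by
  rw [vol_eq_integral, vol_eq_integral]
  exact translate_integral S z (fun _ => (1:ℝ))

lemma translate_centroid {κ : Type*} [Fintype κ] {S : Set (κ → ℝ)}
    (hS : Bornology.IsBounded S) (hV : vol S ≠ 0) (z : κ → ℝ) (i : κ) :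
    centroid ((fun x : κ → ℝ => x + z) ⁻¹' S) i = centroid S i - z i := by
  have h := translate_integral S z (fun y => y i - z i)
  have e : (fun x : κ → ℝ => (x + z) i - z i) = fun x => x i := by
    funext x; simp
  rw [e] at h
  have h2 : ∫ y in S, (y i - z i) = (∫ y in S, y i) - z i * vol S := by
    have hi1 : IntegrableOn (fun y : κ → ℝ => y i) S :=
      integrableOn_of_isBounded hS _ (continuous_apply i)
    have hi2 : IntegrableOn (fun _ : κ → ℝ => z i * (1:ℝ)) S :=
      integrableOn_of_isBounded hS _ continuous_const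
    have e2 : (fun y : κ → ℝ => y i - z i) = fun y => y i - z i * (1:ℝ) := by
      funext y; ring
    have s1 : ∫ y in S, (y i - z i * (1:ℝ)) = (∫ y in S, y i) - ∫ _y in S, z i * (1:ℝ) :=
      integral_sub hi1 hi2
    rw [e2, s1, integral_const_mul, ← vol_eq_integral]
  unfold centroid
  rw [h, h2, translate_vol]
  field_simp

lemma translate_cov {κ : Type*} [Fintype κ] {S : Set (κ → ℝ)}
    (hS : Bornology.IsBounded S) (hV : vol S ≠ 0) (z : κ → ℝ) :
    cov ((fun x : κ → ℝ => x + z) ⁻¹' S) = cov S := by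
  ext i j
  unfold cov
  simp only [Matrix.of_apply]
  rw [translate_vol, translate_centroid hS hV z i, translate_centroid hS hV z j]
  have h := translate_integral S z (fun y => (y i - centroid S i) * (y j - centroid S j))
  have e : (fun x : κ → ℝ => ((x + z) i - centroid S i) * ((x + z) j - centroid S j)) =
      fun x => (x i - (centroid S i - z i)) * (x j - (centroid S j - z j)) := by
    funext x; simp only [Pi.add_apply]; ring
  rw [e] at h
  rw [h]

/-- For a compact convex set with the origin in its interior, the origin lies at Mahalanobis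
distance strictly less than `√(n(n+2))` from the centroid. -/
lemma mah_lt [Nonempty ι] [DecidableEq ι] (hK : IsCompact K) (hc : Convex ℝ K)
    (h0 : (0 : ι → ℝ) ∈ interior K) (hV : 0 < vol K) :
    mah K < (Fintype.card ι : ℝ) * ((Fintype.card ι : ℝ) + 2) := by
  have hs : Star0 K := star0_of_starConvex (hc.starConvex (interior_subset h0))
  have hle := mah_le hK hs hV
  by_contra hnot
  have heq : mah K = (Fintype.card ι : ℝ) * ((Fintype.card ι : ℝ) + 2) :=
    le_antisymm hle (not_lt.1 hnot)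
  have hcard : (0:ℝ) < (Fintype.card ι : ℝ) := by exact_mod_cast Fintype.card_pos (α := ι)
  have hkpos : 0 < (Fintype.card ι : ℝ) * ((Fintype.card ι : ℝ) + 2) := by positivity
  obtain ⟨ε, hε, hball⟩ := Metric.mem_nhds_iff.1 (mem_interior_iff_mem_nhds.1 h0)
  set a := centroid K with ha
  set δ : ℝ := ε / (2 * (‖a‖ + 1)) with hδ
  have hna : 0 ≤ ‖a‖ := norm_nonneg _
  have hδ0 : 0 < δ := by rw [hδ]; positivity
  set z : ι → ℝ := (-δ) • a with hz
  have hzK : z ∈ K := by
    apply hball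
    rw [mem_ball_zero_iff, hz, norm_smul, norm_neg, Real.norm_of_nonneg hδ0.le, hδ,
      div_mul_eq_mul_div, div_lt_iff₀ (by positivity)]
    nlinarith
  set K' : Set (ι → ℝ) := (fun x : ι → ℝ => x + z) ⁻¹' K with hK'
  have hK'c : IsCompact K' := (Homeomorph.addRight z).isCompact_preimage.2 hK
  have hK'conv : Convex ℝ K' := hc.translate_preimage_left z
  have h0' : (0 : ι → ℝ) ∈ K' := by
    show (0 : ι → ℝ) + z ∈ K
    rw [zero_add]; exact hzK
  have hs' : Star0 K' := star0_of_starConvex (hK'conv.starConvex h0')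
  have hV' : vol K' = vol K := translate_vol K z
  have hle' := mah_le hK'c hs' (by rw [hV']; exact hV)
  have hcen : centroid K' = (1 + δ) • a := by
    funext i
    rw [translate_centroid hK.isBounded hV.ne' z i, hz, ha]
    simp only [Pi.smul_apply, smul_eq_mul]
    ring
  have hmah : mah K' = (1 + δ) ^ 2 * mah K := by
    unfold mah
    rw [translate_cov hK.isBounded hV.ne' z, hcen, ← ha, Matrix.mulVec_smul,
      smul_dotProduct, dotProduct_smul]
    simp only [smul_eq_mul]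
    ring
  rw [hmah, heq] at hle'
  have h1 : 1 < (1 + δ) ^ 2 := by nlinarith [hδ0]
  have h2 := mul_lt_mul_of_pos_right h1 hkpos
  linarith

lemma nonempty_of_vol_pos {κ : Type*} [Fintype κ] {S : Set (κ → ℝ)} (hV : 0 < vol S) :
    S.Nonempty := by
  by_contra h
  rw [Set.not_nonempty_iff_eq_empty] at h
  rw [h] at hV
  simp [vol] at hV

end

end Vale.Agent.Lib.P254
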