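import Vale.Agent.Lib.P254.Cone

/-!
# P254: free sums, definitions

The free sum of `A ⊆ ℝ^ι` and `B ⊆ ℝ^κ`, the squared Mahalanobis distance from the origin to the
centroid, and the constants of the free-sum formula for `isoPow` (the power `2n` of the isotropic
constant).
-/

namespace Vale.Agent.Lib.P254

open MeasureTheory Matrix Set
open scoped Pointwise

noncomputable section

/-- The free sum `{((1 - t) a, t b) : a ∈ A, b ∈ B, 0 ≤ t ≤ 1}` in `ℝ^(ι ⊕ κ)`; for convex
`A`, `B` containing the origin it is the convex hull of `A × 0 ∪ 0 × B`. -/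
def freeSum {ι κ : Type*} (A : Set (ι → ℝ)) (B : Set (κ → ℝ)) : Set (ι ⊕ κ → ℝ) :=
  {z | ∃ a ∈ A, ∃ b ∈ B, ∃ t : ℝ, 0 ≤ t ∧ t ≤ 1 ∧ z = Sum.elim ((1 - t) • a) (t • b)}

/-- The squared Mahalanobis distance from the origin to the centroid of `S`, measured by the
covariance matrix of `S`. -/
def mah {κ : Type*} [Fintype κ] [DecidableEq κ] (S : Set (κ → ℝ)) : ℝ :=
  centroid S ⬝ᵥ ((cov S)⁻¹ *ᵥ centroid S)

/-- The factor relating a free sum glued at the two centroids to its summands: the square of the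
binomial coefficient of `k + l` over `k`, times the power `k` of the quotient of the product of
`k + 1` and `k + 2` by the product of `k + l + 1` and `k + l + 2`, times the power `l` of the
quotient of the product of `l + 1` and `l + 2` by the same denominator. -/
def fsConst (k l : ℕ) : ℝ :=
  (((k + l).factorial : ℝ) / ((k.factorial : ℝ) * (l.factorial : ℝ))) ^ 2 *
    ((((k:ℝ) + 1) * ((k:ℝ) + 2)) / (((k:ℝ) + l + 1) * ((k:ℝ) + l + 2))) ^ k *
    ((((l:ℝ) + 1) * ((l:ℝ) + 2)) / (((k:ℝ) + l + 1) * ((k:ℝ) + l + 2))) ^ l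

/-- the largest possible factor relating a free sum to its summands -/
def fsMax (k l : ℕ) : ℝ := fsConst k l * ((((k:ℝ) + 1) * ((l:ℝ) + 1)) / ((k:ℝ) + l + 1))

/-- The value `L^(2m)` of the `m`-simplex: the square of `m!` divided by the product of the power
`m+1` of `m+1` and the power `m` of `m+2`. -/
def simplexPow (m : ℕ) : ℝ :=
  ((m.factorial : ℝ)) ^ 2 / (((m:ℝ) + 1) ^ (m + 1) * ((m:ℝ) + 2) ^ m)

end

end Vale.Agent.Lib.P254
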