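import Vale.Agent.Lib.P254.Class

/-!
# P254: bodies that fill a large part of a cube

For a positive definite matrix the determinant is at most the power `n` of the trace divided by
`n`.  If `K` is contained in a cube of side `s`, each diagonal entry of the covariance matrix of
`K` is at most `s^(n+2) / (12 vol K)`, so `isoPow K ≤ (s^n / vol K)^(n+2) / 12^n`.
-/

namespace Vale.Agent.Lib.P254

open MeasureTheory Matrix Set

set_option linter.deprecated false
set_option linter.unusedSectionVars false
set_option linter.unusedVariables false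

noncomputable section

section trace

variable {ι : Type*} [Fintype ι] [DecidableEq ι]

/-- the inequality of arithmetic and geometric means for the eigenvalues -/
lemma det_le_trace_pow [Nonempty ι] {A : Matrix ι ι ℝ} (hA : A.PosDef) :
    A.det ≤ (A.trace / Fintype.card ι) ^ Fintype.card ι := by
  have hH := hA.1
  have hdet : A.det = ∏ i, hH.eigenvalues i := by
    simpa using hH.det_eq_prod_eigenvalues
  have htr : A.trace = ∑ i, hH.eigenvalues i := by
    simpa using hH.trace_eq_sum_eigenvalues
  have hpos : ∀ i, 0 < hH.eigenvalues i := fun i => hA.eigenvalues_pos i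
  have hn : 0 < Fintype.card ι := Fintype.card_pos
  have hn' : (0:ℝ) < Fintype.card ι := by exact_mod_cast hn
  have hamgm := Real.geom_mean_le_arith_mean_weighted Finset.univ
    (fun _ : ι => ((Fintype.card ι : ℝ))⁻¹) hH.eigenvalues (fun i _ => by positivity)
    (by
      rw [Finset.sum_const, Finset.card_univ, nsmul_eq_mul]
      field_simp)
    (fun i _ => (hpos i).le)
  have h1 : ∏ i, hH.eigenvalues i
      = (∏ i, hH.eigenvalues i ^ ((Fintype.card ι : ℝ))⁻¹) ^ Fintype.card ι := by
    rw [← Finset.prod_pow]
    refine Finset.prod_congr rfl fun i _ => ?_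
    rw [Real.rpow_inv_natCast_pow (hpos i).le hn.ne']
  have h2 : ∑ i, ((Fintype.card ι : ℝ))⁻¹ * hH.eigenvalues i = A.trace / Fintype.card ι := by
    rw [htr, ← Finset.mul_sum]
    field_simp
  rw [hdet, h1, ← h2]
  exact pow_le_pow_left₀ (Finset.prod_nonneg fun i _ => Real.rpow_nonneg (hpos i).le _) hamgm _

end trace

section cube

variable {ι : Type*} [Fintype ι]

/-- the centroid minimizes the second moment -/
lemma cov_diag_le {K : Set (ι → ℝ)} (hb : Bornology.IsBounded K) (hV : 0 < vol K) (i : ι)
    (m : ℝ) : cov K i i ≤ (∫ x in K, (x i - m) ^ 2) / vol K := by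
  set c := centroid K i with hc
  have hi1 : IntegrableOn (fun x : ι → ℝ => (x i - c) * (x i - c)) K :=
    integrableOn_of_isBounded hb _ (by fun_prop)
  have hi2 : IntegrableOn (fun x : ι → ℝ => x i) K :=
    integrableOn_of_isBounded hb _ (continuous_apply i)
  have hi3 : IntegrableOn (fun _ : ι → ℝ => (1:ℝ)) K :=
    integrableOn_of_isBounded hb _ continuous_const
  have hx : ∫ x in K, x i = c * vol K := by
    rw [hc, centroid]
    field_simp
  have e : ∀ x : ι → ℝ, (x i - m) ^ 2
      = (x i - c) * (x i - c) + (2 * (c - m)) * x i + ((c - m) ^ 2 - 2 * (c - m) * c) * 1 := by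
    intro x; ring
  have h1 : ∫ x in K, (x i - m) ^ 2
      = (∫ x in K, (x i - c) * (x i - c)) + (c - m) ^ 2 * vol K := by
    simp_rw [e]
    have ea : ∫ x in K, ((x i - c) * (x i - c) + (2 * (c - m)) * x i
          + ((c - m) ^ 2 - 2 * (c - m) * c) * 1)
        = (∫ x in K, ((x i - c) * (x i - c) + (2 * (c - m)) * x i))
          + ∫ _x in K, ((c - m) ^ 2 - 2 * (c - m) * c) * 1 :=
      integral_add (hi1.add (hi2.const_mul _)) (hi3.const_mul _)
    have eb : ∫ x in K, ((x i - c) * (x i - c) + (2 * (c - m)) * x i)
        = (∫ x in K, (x i - c) * (x i - c)) + ∫ x in K, (2 * (c - m)) * x i :=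
      integral_add hi1 (hi2.const_mul _)
    rw [ea, eb, integral_const_mul, integral_const_mul, hx, ← vol_eq_integral]
    ring
  show (∫ x in K, (x i - centroid K i) * (x i - centroid K i)) / vol K ≤ _
  rw [h1]
  apply div_le_div_of_nonneg_right _ hV.le
  nlinarith [sq_nonneg (c - m), hV.le, mul_nonneg (sq_nonneg (c - m)) hV.le]

/-- the second moment of a cube about its centre -/
lemma cube_moment [DecidableEq ι] (a : ι → ℝ) {s : ℝ} (hs : 0 ≤ s) (i : ι) :
    ∫ x in Set.Icc a (fun j => a j + s), (x i - (a i + s / 2)) ^ 2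
      = s ^ (Fintype.card ι + 2) / 12 := by
  set F : ι → ℝ → ℝ := fun j t =>
    (Set.Icc (a j) (a j + s)).indicator
      (fun t => if j = i then (t - (a i + s / 2)) ^ 2 else 1) t with hF
  have hpt : ∀ x : ι → ℝ, (Set.Icc a (fun j => a j + s)).indicator
      (fun x : ι → ℝ => (x i - (a i + s / 2)) ^ 2) x = ∏ j, F j (x j) := by
    intro x
    by_cases hx : x ∈ Set.Icc a (fun j => a j + s)
    · rw [indicator_of_mem hx]
      have h1 : ∀ j, F j (x j) = if j = i then (x j - (a i + s / 2)) ^ 2 else 1 := by
        intro j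
        simp only [hF]
        rw [indicator_of_mem (show x j ∈ Set.Icc (a j) (a j + s) from ⟨hx.1 j, hx.2 j⟩)]
      simp_rw [h1]
      rw [Finset.prod_ite_eq']
      simp
    · rw [indicator_of_notMem hx]
      have hj : ∃ j, x j ∉ Set.Icc (a j) (a j + s) := by
        by_contra hall
        apply hx
        have hall' : ∀ j, x j ∈ Set.Icc (a j) (a j + s) := by
          intro j
          by_contra hj
          exact hall ⟨j, hj⟩
        exact ⟨fun j => (hall' j).1, fun j => (hall' j).2⟩
      obtain ⟨j, hj⟩ := hj
      symm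
      apply Finset.prod_eq_zero (Finset.mem_univ j)
      simp only [hF]
      rw [indicator_of_notMem hj]
  have hint : ∀ j, ∫ t, F j t = if j = i then s ^ 3 / 12 else s := by
    intro j
    simp only [hF]
    rw [integral_indicator measurableSet_Icc]
    by_cases hji : j = i
    · simp only [hji, if_true]
      rw [integral_Icc_eq_integral_Ioc, ← intervalIntegral.integral_of_le (by linarith)]
      have h := intervalIntegral.integral_comp_sub_right
        (a := a i) (b := a i + s) (fun t : ℝ => t ^ 2) (a i + s / 2)
      rw [h, integral_pow]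
      ring
    · simp only [hji, if_false]
      rw [setIntegral_const]
      simp [Measure.real, hs]
  rw [← integral_indicator measurableSet_Icc]
  simp_rw [hpt]
  rw [integral_fintype_prod_volume_eq_prod]
  simp_rw [hint]
  rw [Finset.prod_ite, Finset.filter_eq', if_pos (Finset.mem_univ i), Finset.prod_singleton,
    Finset.prod_const, Finset.filter_ne', Finset.card_erase_of_mem (Finset.mem_univ i),
    Finset.card_univ]
  have hn : 1 ≤ Fintype.card ι := Fintype.card_pos_iff.2 ⟨i⟩
  obtain ⟨k, hk⟩ : ∃ k, Fintype.card ι = k + 1 := ⟨Fintype.card ι - 1, by omega⟩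
  rw [hk]
  simp only [Nat.add_sub_cancel]
  ring

/-- the isotropic constant of a body inside a cube -/
theorem isoPow_le_cube [DecidableEq ι] [Nonempty ι] (a : ι → ℝ) {s : ℝ} (hs : 0 < s)
    {K : Set (ι → ℝ)} (hKm : MeasurableSet K) (hKQ : K ⊆ Set.Icc a (fun j => a j + s))
    (hV : 0 < vol K) :
    isoPow K ≤ (s ^ Fintype.card ι / vol K) ^ (Fintype.card ι + 2) / 12 ^ Fintype.card ι := by
  have hQb : Bornology.IsBounded (Set.Icc a (fun j => a j + s)) := isCompact_Icc.isBounded
  have hb : Bornology.IsBounded K := hQb.subset hKQ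
  have hpd := cov_posDef hb hV
  have hdet := det_le_trace_pow hpd
  have hdiag : ∀ i, cov K i i ≤ s ^ (Fintype.card ι + 2) / 12 / vol K := by
    intro i
    refine (cov_diag_le hb hV i (a i + s / 2)).trans ?_
    apply div_le_div_of_nonneg_right _ hV.le
    rw [← cube_moment a hs.le i]
    refine setIntegral_mono_set (integrableOn_of_isBounded hQb _ (by fun_prop)) ?_
      (Filter.Eventually.of_forall hKQ)
    exact Filter.Eventually.of_forall fun x => sq_nonneg _
  have hn' : (0:ℝ) < Fintype.card ι := by exact_mod_cast Fintype.card_pos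
  have htr : (cov K).trace / Fintype.card ι ≤ s ^ (Fintype.card ι + 2) / 12 / vol K := by
    rw [div_le_iff₀ hn']
    calc (cov K).trace = ∑ i, cov K i i := rfl
      _ ≤ ∑ _i : ι, s ^ (Fintype.card ι + 2) / 12 / vol K :=
          Finset.sum_le_sum fun i _ => hdiag i
      _ = s ^ (Fintype.card ι + 2) / 12 / vol K * Fintype.card ι := by
          rw [Finset.sum_const, Finset.card_univ, nsmul_eq_mul]
          ring
  have htr0 : 0 ≤ (cov K).trace / Fintype.card ι := by
    apply div_nonneg _ hn'.le
    exact Finset.sum_nonneg fun i _ => by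
      have := hpd.posSemidef.diag_nonneg (i := i)
      simpa using this
  have hdet2 : (cov K).det ≤ (s ^ (Fintype.card ι + 2) / 12 / vol K) ^ Fintype.card ι :=
    hdet.trans (pow_le_pow_left₀ htr0 htr _)
  unfold isoPow
  rw [div_le_iff₀ (pow_pos hV 2)]
  refine hdet2.trans (le_of_eq ?_)
  have e1 : (s ^ (Fintype.card ι + 2)) ^ Fintype.card ι
      = (s ^ Fintype.card ι) ^ (Fintype.card ι + 2) := by
    rw [← pow_mul, ← pow_mul, mul_comm]
  rw [div_pow, div_pow, div_pow, e1, pow_add (vol K)]
  have hVne : vol K ≠ 0 := hV.ne'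
  field_simp

lemma twelve_pow_simplexPow (n : ℕ) : 1 ≤ 12 ^ n * simplexPow n ∧
    (2 ≤ n → 1 < 12 ^ n * simplexPow n) := by
  induction n with
  | zero =>
    rw [simplexPow_zero]
    exact ⟨by norm_num, by omega⟩
  | succ n ih =>
    rw [simplexPow_succ, pow_succ]
    rcases Nat.eq_zero_or_pos n with h0 | hpos
    · subst h0
      rw [simplexPow_zero]
      have e : coneConst 0 = 1 / 12 := by
        unfold coneConst
        norm_num
      rw [e]
      exact ⟨by norm_num, by omega⟩
    · have hc := coneConst_gt n hpos
      have h1 := ih.1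
      have hsp := simplexPow_pos n
      have hmul : 1 < 12 * coneConst n := by linarith
      have key : 1 < 12 ^ n * 12 * (coneConst n * simplexPow n) := by
        have e : (12:ℝ) ^ n * 12 * (coneConst n * simplexPow n)
            = (12 * coneConst n) * (12 ^ n * simplexPow n) := by ring
        rw [e]
        nlinarith
      exact ⟨key.le, fun _ => key⟩

end cube

end

end Vale.Agent.Lib.P254
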