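import Vale.Agent.Lib.P254.NearCube
import Vale.Agent.Lib.P254.Class

/-!
# P254: comparison of the isotropic constants of nested sets

If `K ⊆ T` are bounded measurable sets of positive volume in `ℝ^n` then
`isoPow K ≤ (vol T / vol K)^(n+2) * isoPow T`.  After an affine change of coordinates the
covariance matrix of `T` is the identity, and then the trace of the covariance matrix of `K` is
at most `n * vol T / vol K`.
-/

namespace Vale.Agent.Lib.P254

open MeasureTheory Matrix Set

set_option linter.deprecated false
set_option linter.unusedSectionVars false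
set_option linter.unusedVariables false

noncomputable section

section sqrt

open scoped MatrixOrder

/-- a positive semidefinite matrix is the square of a symmetric matrix -/
lemma exists_sym_sq {ι : Type*} [Fintype ι] [DecidableEq ι] {N : Matrix ι ι ℝ}
    (hN : N.PosSemidef) : ∃ R : Matrix ι ι ℝ, R.IsHermitian ∧ R * R = N :=
  ⟨CFC.sqrt N, (Matrix.nonneg_iff_posSemidef.1 (CFC.sqrt_nonneg N)).1,
    CFC.sqrt_mul_sqrt_self N (Matrix.nonneg_iff_posSemidef.2 hN)⟩

end sqrt

section general

variable {ι : Type*} [Fintype ι]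

lemma aff_image_bounded [DecidableEq ι] (F : Matrix ι ι ℝ) (c : ι → ℝ) {S : Set (ι → ℝ)}
    (hS : Bornology.IsBounded S) : Bornology.IsBounded (affMap F c '' S) := by
  have hcont : Continuous (affMap F c) := by
    show Continuous (fun x : ι → ℝ => c + F *ᵥ x)
    exact continuous_const.add (Continuous.matrix_mulVec continuous_const continuous_id)
  exact ((hS.isCompact_closure.image hcont).isBounded).subset (Set.image_mono subset_closure)

/-- the comparison when the covariance matrix of the larger set is the identity -/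
theorem isoPow_le_of_cov_one [DecidableEq ι] [Nonempty ι] {K T : Set (ι → ℝ)}
    (hTb : Bornology.IsBounded T) (hKT : K ⊆ T) (hV : 0 < vol K) (hVT : 0 < vol T)
    (hcov : cov T = 1) :
    isoPow K ≤ (vol T / vol K) ^ (Fintype.card ι + 2) * isoPow T := by
  have hb : Bornology.IsBounded K := hTb.subset hKT
  have hpd := cov_posDef hb hV
  have hdet := det_le_trace_pow hpd
  have hmom : ∀ i, ∫ x in T, (x i - centroid T i) ^ 2 = vol T := by
    intro i
    have h1 : cov T i i = 1 := by rw [hcov]; simp
    have h2 : cov T i i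
        = (∫ x in T, (x i - centroid T i) * (x i - centroid T i)) / vol T := rfl
    rw [h2, div_eq_one_iff_eq hVT.ne'] at h1
    simp_rw [pow_two]
    exact h1
  have hdiag : ∀ i, cov K i i ≤ vol T / vol K := by
    intro i
    refine (cov_diag_le hb hV i (centroid T i)).trans ?_
    apply div_le_div_of_nonneg_right _ hV.le
    rw [← hmom i]
    refine setIntegral_mono_set (integrableOn_of_isBounded hTb _ (by fun_prop)) ?_
      (Filter.Eventually.of_forall hKT)
    exact Filter.Eventually.of_forall fun x => sq_nonneg _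
  have hn' : (0:ℝ) < Fintype.card ι := by exact_mod_cast Fintype.card_pos
  have htr : (cov K).trace / Fintype.card ι ≤ vol T / vol K := by
    rw [div_le_iff₀ hn']
    calc (cov K).trace = ∑ i, cov K i i := rfl
      _ ≤ ∑ _i : ι, vol T / vol K := Finset.sum_le_sum fun i _ => hdiag i
      _ = vol T / vol K * Fintype.card ι := by
          rw [Finset.sum_const, Finset.card_univ, nsmul_eq_mul]
          ring
  have htr0 : 0 ≤ (cov K).trace / Fintype.card ι := by
    apply div_nonneg _ hn'.le
    exact Finset.sum_nonneg fun i _ => by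
      have := hpd.posSemidef.diag_nonneg (i := i)
      simpa using this
  have hdet2 : (cov K).det ≤ (vol T / vol K) ^ Fintype.card ι :=
    hdet.trans (pow_le_pow_left₀ htr0 htr _)
  unfold isoPow
  rw [hcov, Matrix.det_one, div_le_iff₀ (pow_pos hV 2)]
  refine hdet2.trans (le_of_eq ?_)
  rw [pow_add]
  have hVne : vol K ≠ 0 := hV.ne'
  have hVTne : vol T ≠ 0 := hVT.ne'
  field_simp

/-- comparison of the isotropic constants of nested sets -/
theorem isoPow_le_of_subset [DecidableEq ι] [Nonempty ι] {K T : Set (ι → ℝ)}
    (hKm : MeasurableSet K) (hTm : MeasurableSet T) (hTb : Bornology.IsBounded T)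
    (hKT : K ⊆ T) (hV : 0 < vol K) :
    isoPow K ≤ (vol T / vol K) ^ (Fintype.card ι + 2) * isoPow T := by
  have hb : Bornology.IsBounded K := hTb.subset hKT
  have hvol : vol K ≤ vol T := ENNReal.toReal_mono hTb.measure_lt_top.ne (measure_mono hKT)
  have hVT : 0 < vol T := lt_of_lt_of_le hV hvol
  have hSig := cov_posDef hTb hVT
  have hN : (cov T)⁻¹.PosDef := hSig.inv
  obtain ⟨R, hRh, hRR⟩ := exists_sym_sq hN.posSemidef
  have hRt : Rᵀ = R := by
    have h := hRh.eq
    rwa [Matrix.conjTranspose_eq_transpose_of_trivial] at h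
  have hdetS : (cov T).det ≠ 0 := hSig.det_pos.ne'
  have hRdet : R.det ≠ 0 := by
    intro h0
    have h1 : (R * R).det = 0 := by rw [Matrix.det_mul, h0, zero_mul]
    rw [hRR, Matrix.det_nonsing_inv, Ring.inverse_eq_inv'] at h1
    exact (inv_ne_zero hdetS) h1
  have hone : R * cov T * Rᵀ = 1 := by
    rw [hRt]
    have h1 : cov T * R * R = 1 := by
      rw [Matrix.mul_assoc, hRR, Matrix.mul_nonsing_inv _ (isUnit_iff_ne_zero.2 hdetS)]
    have h2 : R * (cov T * R) = 1 := mul_eq_one_comm.1 h1
    rw [Matrix.mul_assoc]
    exact h2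
  have hcovT : cov (affMap R 0 '' T) = 1 := by
    rw [aff_cov hRdet 0 hTm hTb hVT.ne', hone]
  have hTb' : Bornology.IsBounded (affMap R 0 '' T) := aff_image_bounded R 0 hTb
  have hVK' : vol (affMap R 0 '' K) = |R.det| * vol K := aff_vol hRdet 0 hKm
  have hVT' : vol (affMap R 0 '' T) = |R.det| * vol T := aff_vol hRdet 0 hTm
  have hd : 0 < |R.det| := abs_pos.2 hRdet
  have h := isoPow_le_of_cov_one hTb' (Set.image_mono hKT) (by rw [hVK']; positivity)
    (by rw [hVT']; positivity) hcovT
  rw [isoPow_aff hRdet 0 hKm hb hV.ne', isoPow_aff hRdet 0 hTm hTb hVT.ne', hVK', hVT',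
    mul_div_mul_left _ _ hd.ne'] at h
  exact h

end general

end

end Vale.Agent.Lib.P254
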