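import Vale.Agent.Lib.P254.Affine

/-!
# P254: the isotropic constant of simplices

The corner simplex `{x ≥ 0, ∑ x ≤ 1}` of `ℝ^ι` has `isoPow = simplexPow (card ι)`, and hence so
has every simplex.
-/

namespace Vale.Agent.Lib.P254

open MeasureTheory Matrix Set
open scoped Pointwise

set_option linter.unusedSectionVars false
set_option linter.deprecated false
set_option linter.unusedVariables false

noncomputable section

lemma isoPow_congr_ae {κ : Type*} [Fintype κ] [DecidableEq κ] {S T : Set (κ → ℝ)}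
    (h : S =ᵐ[volume] T) : isoPow S = isoPow T := by
  have hv : vol S = vol T := by unfold vol; rw [measure_congr h]
  have hi : ∀ g : (κ → ℝ) → ℝ, ∫ x in S, g x = ∫ x in T, g x :=
    fun g => setIntegral_congr_set h
  have hc : centroid S = centroid T := by
    funext i; unfold centroid; rw [hi, hv]
  have hcov : cov S = cov T := by
    ext i j
    simp only [cov, Matrix.of_apply]
    rw [hc, hv, hi]
  unfold isoPow
  rw [hcov, hv]

/-- the corner simplex `{x ≥ 0, ∑ x ≤ 1}` -/
def cornerSimplex (ι : Type*) [Fintype ι] : Set (ι → ℝ) :=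
  {x | (∀ i, 0 ≤ x i) ∧ ∑ i, x i ≤ 1}

section corner

variable {ι : Type*} [Fintype ι]

lemma cornerSimplex_convex : Convex ℝ (cornerSimplex ι) := by
  intro x hx y hy a b ha hb hab
  refine ⟨fun i => ?_, ?_⟩
  · have h1 := hx.1 i
    have h2 := hy.1 i
    simp only [Pi.add_apply, Pi.smul_apply, smul_eq_mul]
    positivity
  · simp only [Pi.add_apply, Pi.smul_apply, smul_eq_mul, Finset.sum_add_distrib,
      ← Finset.mul_sum]
    nlinarith [hx.2, hy.2]

lemma cornerSimplex_subset_Icc : cornerSimplex ι ⊆ Set.Icc 0 1 := by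
  intro x hx
  refine ⟨fun i => hx.1 i, fun i => ?_⟩
  calc x i ≤ ∑ j, x j := Finset.single_le_sum (fun j _ => hx.1 j) (Finset.mem_univ i)
    _ ≤ 1 := hx.2

lemma cornerSimplex_isClosed : IsClosed (cornerSimplex ι) := by
  have h : cornerSimplex ι = (⋂ i, {x : ι → ℝ | 0 ≤ x i}) ∩ {x | ∑ i, x i ≤ 1} := by
    ext x; simp [cornerSimplex]
  rw [h]
  exact (isClosed_iInter fun i => isClosed_le continuous_const (continuous_apply i)).inter
    (isClosed_le (by fun_prop) continuous_const)

lemma cornerSimplex_isCompact : IsCompact (cornerSimplex ι) :=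
  isCompact_Icc.of_isClosed_subset cornerSimplex_isClosed cornerSimplex_subset_Icc

lemma cornerSimplex_vol_pos : 0 < vol (cornerSimplex ι) := by
  unfold vol
  apply ENNReal.toReal_pos
  · have hsub : Set.Icc (0 : ι → ℝ) (fun _ => 1 / ((Fintype.card ι : ℝ) + 1)) ⊆
        cornerSimplex ι := by
      intro x hx
      refine ⟨fun i => hx.1 i, ?_⟩
      calc ∑ i, x i ≤ ∑ i : ι, 1 / ((Fintype.card ι : ℝ) + 1) :=
            Finset.sum_le_sum fun i _ => hx.2 i
        _ = (Fintype.card ι : ℝ) * (1 / ((Fintype.card ι:ℝ) + 1)) := by simp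
        _ ≤ 1 := by
            rw [mul_one_div, div_le_one (by positivity)]; linarith
    have hpos : volume (Set.Icc (0 : ι → ℝ) (fun _ => 1 / ((Fintype.card ι : ℝ) + 1))) ≠ 0 := by
      rw [Real.volume_Icc_pi]
      refine Finset.prod_ne_zero_iff.2 fun i _ => ?_
      have : (0:ℝ) < 1 / ((Fintype.card ι : ℝ) + 1) - (0 : ι → ℝ) i := by
        simp only [Pi.zero_apply, sub_zero]; positivity
      exact (ENNReal.ofReal_pos.2 this).ne'
    intro h0
    exact hpos (measure_mono_null hsub h0)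
  · exact cornerSimplex_isCompact.measure_lt_top.ne

lemma zero_mem_cornerSimplex : (0 : ι → ℝ) ∈ cornerSimplex ι :=
  ⟨fun i => le_refl _, by simp⟩

end corner

/-! ### The corner simplex of `ℝ^(ι ⊕ Unit)` is a sheared cone over that of `ℝ^ι` -/

section step

variable {ι : Type*} [Fintype ι] [DecidableEq ι]

/-- the shear sending a pair x, t to the pair x, t minus the sum of x -/
def shearM (ι : Type*) [Fintype ι] [DecidableEq ι] : Matrix (ι ⊕ Unit) (ι ⊕ Unit) ℝ :=
  Matrix.fromBlocks 1 0 (Matrix.of fun (_ : Unit) (_ : ι) => (-1 : ℝ)) 1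

lemma shearM_det : (shearM ι).det = 1 := by
  unfold shearM
  rw [Matrix.det_fromBlocks_zero₁₂]
  simp

lemma shear_inl (y : ι ⊕ Unit → ℝ) (i : ι) :
    affMap (shearM ι) 0 y (Sum.inl i) = y (Sum.inl i) := by
  rw [affMap_apply]
  simp [shearM, Fintype.sum_sum_type, Matrix.one_apply]

lemma shear_inr (y : ι ⊕ Unit → ℝ) :
    affMap (shearM ι) 0 y (Sum.inr ()) = y (Sum.inr ()) - ∑ i, y (Sum.inl i) := by
  rw [affMap_apply]
  simp [shearM, Fintype.sum_sum_type, Matrix.one_apply]
  ring

lemma corner_step_set :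
    cornerSimplex (ι ⊕ Unit) \ {0} = affMap (shearM ι) 0 '' cone (cornerSimplex ι) := by
  ext z
  constructor
  · rintro ⟨⟨hz0, hz1⟩, hzne⟩
    rw [Fintype.sum_sum_type] at hz1
    simp only [Finset.univ_unique, Finset.sum_singleton] at hz1
    set t : ℝ := ∑ i, z (Sum.inl i) + z (Sum.inr ()) with ht
    have ht0 : 0 < t := by
      have hne : ∃ s, z s ≠ 0 := by
        by_contra hcon
        apply hzne
        have : ∀ s, z s = 0 := by
          intro s; by_contra h; exact hcon ⟨s, h⟩
        simpa using (funext this : z = 0)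
      obtain ⟨s, hs⟩ := hne
      have hspos : 0 < z s := lt_of_le_of_ne (hz0 s) (Ne.symm hs)
      have hsum : z s ≤ ∑ s', z s' :=
        Finset.single_le_sum (fun j _ => hz0 j) (Finset.mem_univ s)
      rw [Fintype.sum_sum_type] at hsum
      simp only [Finset.univ_unique, Finset.sum_singleton] at hsum
      linarith
    have hsl : 0 ≤ ∑ i, z (Sum.inl i) := Finset.sum_nonneg fun i _ => hz0 _
    refine ⟨Sum.elim (t • fun i => z (Sum.inl i) / t) (fun _ => t),
      ⟨fun i => z (Sum.inl i) / t, ⟨fun i => div_nonneg (hz0 _) ht0.le, ?_⟩, t, ht0, hz1, rfl⟩, ?_⟩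
    · rw [← Finset.sum_div, div_le_one ht0]
      have := hz0 (Sum.inr ())
      linarith
    · funext s
      rcases s with i | u
      · rw [shear_inl]
        simp only [Sum.elim_inl, Pi.smul_apply, smul_eq_mul]
        field_simp
      · rw [shear_inr]
        simp only [Sum.elim_inl, Sum.elim_inr, Pi.smul_apply, smul_eq_mul]
        have : ∑ i, t * (z (Sum.inl i) / t) = ∑ i, z (Sum.inl i) :=
          Finset.sum_congr rfl fun i _ => by field_simp
        rw [this, ht]; ring
  · rintro ⟨y, ⟨p, ⟨hp0, hp1⟩, t, ht0, ht1, rfl⟩, rfl⟩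
    have hsum : ∑ i, t * p i = t * ∑ i, p i := by rw [Finset.mul_sum]
    have hinr : affMap (shearM ι) 0 (Sum.elim (t • p) (fun _ => t)) (Sum.inr ()) =
        t * (1 - ∑ i, p i) := by
      rw [shear_inr]
      simp only [Sum.elim_inl, Sum.elim_inr, Pi.smul_apply, smul_eq_mul]
      rw [hsum]; ring
    have hinl : ∀ i, affMap (shearM ι) 0 (Sum.elim (t • p) (fun _ => t)) (Sum.inl i) =
        t * p i := by
      intro i
      rw [shear_inl]
      simp
    have htot : ∑ s, affMap (shearM ι) 0 (Sum.elim (t • p) (fun _ => t)) s = t := by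
      rw [Fintype.sum_sum_type]
      simp only [Finset.univ_unique, Finset.sum_singleton, hinl]
      have hu : affMap (shearM ι) 0 (Sum.elim (t • p) (fun _ => t)) (Sum.inr default) =
          t * (1 - ∑ i, p i) := hinr
      rw [hu, hsum]; ring
    refine ⟨⟨?_, ?_⟩, ?_⟩
    · intro s
      rcases s with i | u
      · rw [hinl]; exact mul_nonneg ht0.le (hp0 i)
      · rw [hinr]; exact mul_nonneg ht0.le (by linarith)
    · rw [htot]; exact ht1
    · intro h0
      rw [Set.mem_singleton_iff] at h0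
      rw [h0] at htot
      simp at htot
      linarith

lemma corner_step :
    isoPow (cornerSimplex (ι ⊕ Unit)) = coneConst (Fintype.card ι) * isoPow (cornerSimplex ι) := by
  have hnull : volume ({0} : Set (ι ⊕ Unit → ℝ)) = 0 := by
    have h := Measure.addHaar_submodule (volume : Measure (ι ⊕ Unit → ℝ))
      (⊥ : Submodule ℝ (ι ⊕ Unit → ℝ)) (by
        intro h
        have h1 : (fun _ : ι ⊕ Unit => (1:ℝ)) ∈ (⊥ : Submodule ℝ (ι ⊕ Unit → ℝ)) := by
          rw [h]; exact Submodule.mem_top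
        rw [Submodule.mem_bot] at h1
        have := congrFun h1 (Sum.inr ())
        simp at this)
    simpa using h
  have hae : (cornerSimplex (ι ⊕ Unit) \ {0} : Set (ι ⊕ Unit → ℝ)) =ᵐ[volume]
      cornerSimplex (ι ⊕ Unit) := diff_null_ae_eq_self hnull
  have hm : MeasurableSet (cornerSimplex ι) := cornerSimplex_isCompact.isClosed.measurableSet
  have hb : Bornology.IsBounded (cornerSimplex ι) := cornerSimplex_isCompact.isBounded
  have hv : 0 < vol (cornerSimplex ι) := cornerSimplex_vol_pos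
  rw [← isoPow_congr_ae hae, corner_step_set,
    isoPow_aff (by rw [shearM_det]; exact one_ne_zero) 0 (measurableSet_cone hm)
      (isBounded_cone hb) (cone_vol_pos hm hb hv).ne', isoPow_cone hm hb hv]

end step

lemma reix_cornerSimplex {σ τ : Type*} [Fintype σ] [Fintype τ] (e : σ ≃ τ) :
    reix e '' cornerSimplex σ = cornerSimplex τ := by
  ext z
  constructor
  · rintro ⟨x, ⟨hx0, hx1⟩, rfl⟩
    refine ⟨fun t => hx0 _, ?_⟩
    have : ∑ t, reix e x t = ∑ s, x s := by
      unfold reix
      exact Equiv.sum_comp e.symm x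
    rw [this]; exact hx1
  · rintro ⟨hz0, hz1⟩
    refine ⟨fun s => z (e s), ⟨fun s => hz0 _, ?_⟩, ?_⟩
    · have : ∑ s, z (e s) = ∑ t, z t := Equiv.sum_comp e z
      rw [this]; exact hz1
    · funext t
      simp [reix]

lemma cornerSimplex_fin (n : ℕ) : isoPow (cornerSimplex (Fin n)) = simplexPow n := by
  induction n with
  | zero =>
    have h : cornerSimplex (Fin 0) = Set.univ := by
      ext x; simp [cornerSimplex]
    rw [h, simplexPow_zero]
    unfold isoPow vol
    have hv : volume (Set.univ : Set (Fin 0 → ℝ)) = 1 := by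
      rw [volume_pi, Measure.pi_univ]; simp
    rw [Matrix.det_isEmpty, hv]
    simp
  | succ n ih =>
    have hc : Fintype.card (Fin n ⊕ Unit) = Fintype.card (Fin (n + 1)) := by simp
    have e : Fin n ⊕ Unit ≃ Fin (n + 1) := Fintype.equivOfCardEq hc
    rw [← reix_cornerSimplex e, isoPow_reix, corner_step, ih, simplexPow_succ]
    simp

/-- the corner simplex has the simplex value -/
theorem isoPow_cornerSimplex (ι : Type*) [Fintype ι] [DecidableEq ι] :
    isoPow (cornerSimplex ι) = simplexPow (Fintype.card ι) := by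
  have e : Fin (Fintype.card ι) ≃ ι := (Fintype.equivFin ι).symm
  rw [← reix_cornerSimplex e, isoPow_reix, cornerSimplex_fin]

/-! ### Affine images of the corner simplex -/

lemma corner_image {ι : Type*} [Fintype ι] [DecidableEq ι] {E : Type*} [AddCommGroup E]
    [Module ℝ E] (q₀ : E) (d : ι → E) :
    (fun x : ι → ℝ => q₀ + ∑ i, x i • d i) '' cornerSimplex ι =
      convexHull ℝ (insert q₀ (Set.range fun i => q₀ + d i)) := by
  apply Set.Subset.antisymm
  · rintro _ ⟨x, ⟨hx0, hx1⟩, rfl⟩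
    have hconv := convex_convexHull ℝ (insert q₀ (Set.range fun i => q₀ + d i))
    have key : q₀ + ∑ i, x i • d i = ∑ o : Option ι,
        (Option.elim o (1 - ∑ i, x i) x) • (Option.elim o q₀ (fun i => q₀ + d i)) := by
      rw [Fintype.sum_option]
      simp only [Option.elim_none, Option.elim_some, smul_add, Finset.sum_add_distrib,
        ← Finset.sum_smul]
      rw [sub_smul, one_smul]; abel
    show q₀ + ∑ i, x i • d i ∈ _
    rw [key]
    apply hconv.sum_mem
    · intro o _
      cases o with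
      | none => simpa using hx1
      | some i => exact hx0 i
    · rw [Fintype.sum_option]; simp
    · intro o _
      cases o with
      | none => exact subset_convexHull ℝ _ (Set.mem_insert _ _)
      | some i => exact subset_convexHull ℝ _ (Set.mem_insert_of_mem _ ⟨i, rfl⟩)
  · apply convexHull_min
    · rintro y (rfl | ⟨i, rfl⟩)
      · exact ⟨0, zero_mem_cornerSimplex, by simp⟩
      · refine ⟨Pi.single i 1, ⟨?_, ?_⟩, ?_⟩
        · intro j
          by_cases h : j = i <;> simp [Pi.single_apply, h]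
        · simp
        · simp [Pi.single_apply, ite_smul]
    · rintro _ ⟨x, hx, rfl⟩ _ ⟨y, hy, rfl⟩ a b ha hb hab
      refine ⟨a • x + b • y, cornerSimplex_convex hx hy ha hb hab, ?_⟩
      have e1 : ∑ i, (a • x + b • y) i • d i = a • ∑ i, x i • d i + b • ∑ i, y i • d i := by
        simp only [Pi.add_apply, Pi.smul_apply, smul_eq_mul, add_smul, mul_smul,
          Finset.sum_add_distrib, ← Finset.smul_sum]
      have e2 : q₀ = a • q₀ + b • q₀ := by rw [← add_smul, hab, one_smul]
      show q₀ + ∑ i, (a • x + b • y) i • d i =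
        a • (q₀ + ∑ i, x i • d i) + b • (q₀ + ∑ i, y i • d i)
      rw [e1, smul_add, smul_add]
      nth_rewrite 1 [e2]
      abel

/-! ### A point in the relative interior of a segment is closer to the centroid -/

lemma mah_translate {κ : Type*} [Fintype κ] [DecidableEq κ] {K : Set (κ → ℝ)}
    (hb : Bornology.IsBounded K) (hV : vol K ≠ 0) (z : κ → ℝ) :
    mah ((fun x : κ → ℝ => x + z) ⁻¹' K) =
      (centroid K - z) ⬝ᵥ ((cov K)⁻¹ *ᵥ (centroid K - z)) := by
  unfold mah
  rw [translate_cov hb hV z]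
  have h : centroid ((fun x : κ → ℝ => x + z) ⁻¹' K) = centroid K - z := by
    funext i; rw [translate_centroid hb hV z i]; rfl
  rw [h]

lemma mah_lt_seg {ι : Type*} [Fintype ι] [DecidableEq ι] {K : Set (ι → ℝ)} (hK : IsCompact K)
    (hc : Convex ℝ K) (hV : 0 < vol K) {p q : ι → ℝ} (hp : p ∈ K) (hq : q ∈ K) (hpq : p ≠ q)
    {s t : ℝ} (hs : 0 < s) (ht : 0 < t) (hst : s + t = 1) (h0 : s • p + t • q = 0) :
    mah K < (Fintype.card ι : ℝ) * ((Fintype.card ι : ℝ) + 2) := by
  have hb := hK.isBounded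
  set b := centroid K with hbdef
  set N := (cov K)⁻¹ with hN
  have hNpd : N.PosDef := (cov_posDef hb hV).inv
  set M : ℝ := (Fintype.card ι : ℝ) * ((Fintype.card ι : ℝ) + 2) with hM
  have hbound : ∀ x ∈ K, (b - x) ⬝ᵥ (N *ᵥ (b - x)) ≤ M := by
    intro x hx
    set K' : Set (ι → ℝ) := (fun y : ι → ℝ => y + x) ⁻¹' K with hK'
    have hK'c : IsCompact K' := (Homeomorph.addRight x).isCompact_preimage.2 hK
    have hK'conv : Convex ℝ K' := hc.translate_preimage_left x
    have h0' : (0 : ι → ℝ) ∈ K' := by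
      show (0 : ι → ℝ) + x ∈ K
      rw [zero_add]; exact hx
    have hs' : Star0 K' := star0_of_starConvex (hK'conv.starConvex h0')
    have hV' : vol K' = vol K := translate_vol K x
    have hle' := mah_le hK'c hs' (by rw [hV']; exact hV)
    rwa [mah_translate hb hV.ne' x] at hle'
  have hP := hbound p hp
  have hQ := hbound q hq
  set y := b - p with hy
  set z := b - q with hz
  have hbeq : b = s • y + t • z := by
    have h1 : s • y + t • z = (s + t) • b - (s • p + t • q) := by
      rw [hy, hz, smul_sub, smul_sub, add_smul]; abel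
    rw [h1, hst, h0, one_smul, sub_zero]
  have hdiff : y - z = q - p := by rw [hy, hz]; abel
  have hpos : 0 < (q - p) ⬝ᵥ (N *ᵥ (q - p)) := by
    have h := hNpd.dotProduct_mulVec_pos (x := q - p) (sub_ne_zero.2 (Ne.symm hpq))
    simpa using h
  have hid : (s • y + t • z) ⬝ᵥ (N *ᵥ (s • y + t • z)) =
      s * (y ⬝ᵥ (N *ᵥ y)) + t * (z ⬝ᵥ (N *ᵥ z)) - s * t * ((y - z) ⬝ᵥ (N *ᵥ (y - z))) := by
    have ht' : t = 1 - s := by linarith
    simp only [Matrix.mulVec_add, Matrix.mulVec_smul, Matrix.mulVec_sub, dotProduct_add,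
      add_dotProduct, smul_dotProduct, dotProduct_smul, sub_dotProduct, dotProduct_sub,
      smul_eq_mul]
    rw [ht']; ring
  have hmah : mah K = b ⬝ᵥ (N *ᵥ b) := rfl
  have hb2 : b ⬝ᵥ (N *ᵥ b) = (s • y + t • z) ⬝ᵥ (N *ᵥ (s • y + t • z)) := by rw [← hbeq]
  rw [hmah, hb2, hid, hdiff]
  have e1 : s * M + t * M = M := by rw [← add_mul, hst, one_mul]
  have e2 := mul_le_mul_of_nonneg_left hP hs.le
  have e3 := mul_le_mul_of_nonneg_left hQ ht.le
  have e4 := mul_pos (mul_pos hs ht) hpos
  linarith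

/-! ### A translated corner simplex -/

lemma model_half {ι : Type*} [Fintype ι] [DecidableEq ι] (w : ι → ℝ) (hw0 : ∀ i, 0 ≤ w i)
    (hpos : 0 < ∑ i, w i) (hlt : ∑ i, w i < 1) :
    IsCompact ((fun x : ι → ℝ => x + w) ⁻¹' cornerSimplex ι) ∧
    Star0 ((fun x : ι → ℝ => x + w) ⁻¹' cornerSimplex ι) ∧
    0 < vol ((fun x : ι → ℝ => x + w) ⁻¹' cornerSimplex ι) ∧
    isoPow ((fun x : ι → ℝ => x + w) ⁻¹' cornerSimplex ι) = simplexPow (Fintype.card ι) ∧
    mah ((fun x : ι → ℝ => x + w) ⁻¹' cornerSimplex ι) <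
      (Fintype.card ι : ℝ) * ((Fintype.card ι : ℝ) + 2) := by
  set A : Set (ι → ℝ) := (fun x : ι → ℝ => x + w) ⁻¹' cornerSimplex ι with hA
  have hΔc := cornerSimplex_isCompact (ι := ι)
  have hΔb := hΔc.isBounded
  have hΔv := cornerSimplex_vol_pos (ι := ι)
  have hAc : IsCompact A := (Homeomorph.addRight w).isCompact_preimage.2 hΔc
  have hAconv : Convex ℝ A := cornerSimplex_convex.translate_preimage_left w
  have hwΔ : w ∈ cornerSimplex ι := ⟨hw0, hlt.le⟩
  have h0A : (0 : ι → ℝ) ∈ A := by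
    show (0 : ι → ℝ) + w ∈ cornerSimplex ι
    rw [zero_add]; exact hwΔ
  have hAs : Star0 A := star0_of_starConvex (hAconv.starConvex h0A)
  have hAv : vol A = vol (cornerSimplex ι) := translate_vol _ w
  have hAv0 : 0 < vol A := by rw [hAv]; exact hΔv
  have hiso : isoPow A = simplexPow (Fintype.card ι) := by
    rw [← isoPow_cornerSimplex ι]
    unfold isoPow
    rw [hA, translate_cov hΔb hΔv.ne' w, translate_vol]
  refine ⟨hAc, hAs, hAv0, hiso, ?_⟩
  set σ := ∑ i, w i with hσ
  have hpA : (-w) ∈ A := by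
    show -w + w ∈ cornerSimplex ι
    rw [neg_add_cancel]; exact zero_mem_cornerSimplex
  have hqA : (σ⁻¹ • w - w) ∈ A := by
    show σ⁻¹ • w - w + w ∈ cornerSimplex ι
    rw [sub_add_cancel]
    refine ⟨fun i => ?_, ?_⟩
    · simp only [Pi.smul_apply, smul_eq_mul]
      exact mul_nonneg (inv_nonneg.2 hpos.le) (hw0 i)
    · simp only [Pi.smul_apply, smul_eq_mul, ← Finset.mul_sum]
      rw [← hσ, inv_mul_cancel₀ hpos.ne']
  have hne : (-w) ≠ σ⁻¹ • w - w := by
    intro h
    have h1 : σ⁻¹ • w = 0 := by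
      have h2 := congrArg (fun v => v + w) h
      simp only [neg_add_cancel, sub_add_cancel] at h2
      exact h2.symm
    have h3 : w = 0 := by
      rcases smul_eq_zero.1 h1 with h | h
      · exact absurd (inv_eq_zero.1 h) hpos.ne'
      · exact h
    rw [hσ, h3] at hpos
    simp at hpos
  refine mah_lt_seg hAc hAconv hAv0 hpA hqA hne (s := 1 - σ) (t := σ) (by linarith) hpos
    (by ring) ?_
  rw [smul_sub, smul_smul, mul_inv_cancel₀ hpos.ne', one_smul, smul_neg, sub_smul, one_smul]
  abel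

/-! ### Every simplex has the simplex value -/

theorem isoPow_simplex {τ : Type*} [Fintype τ] [DecidableEq τ]
    (p : Fin (Fintype.card τ + 1) → τ → ℝ) (hp : AffineIndependent ℝ p) :
    isoPow (convexHull ℝ (Set.range p)) = simplexPow (Fintype.card τ) := by
  have e : Fin (Fintype.card τ) ≃ τ := (Fintype.equivFin τ).symm
  set d : Fin (Fintype.card τ) → τ → ℝ := fun i => p i.succ - p 0 with hd
  have hLI : LinearIndependent ℝ d := by
    have h1 := (affineIndependent_iff_linearIndependent_vsub ℝ p 0).1 hp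
    have h2 := h1.comp (fun i : Fin (Fintype.card τ) =>
      (⟨i.succ, Fin.succ_ne_zero i⟩ : {x : Fin (Fintype.card τ + 1) // x ≠ 0}))
      (by
        intro i j hij
        have := congrArg Subtype.val hij
        exact Fin.succ_injective _ this)
    exact h2
  have himg := corner_image (p 0) d
  have hset : insert (p 0) (Set.range fun i => p 0 + d i) = Set.range p := by
    ext y
    constructor
    · rintro (rfl | ⟨i, rfl⟩)
      · exact ⟨0, rfl⟩
      · exact ⟨i.succ, by simp [hd]⟩
    · rintro ⟨i, rfl⟩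
      refine Fin.cases ?_ (fun j => ?_) i
      · left; rfl
      · right; exact ⟨j, by simp [hd]⟩
  rw [hset] at himg
  have hc := cornerSimplex_isCompact (ι := Fin (Fintype.card τ))
  rw [← himg, isoPow_affine_image e d hLI (p 0) hc.isClosed.measurableSet hc.isBounded
    cornerSimplex_vol_pos.ne', isoPow_cornerSimplex]
  simp

/-! ### The model: two simplices glued at a point interior to a face of positive dimension -/

theorem isoPow_model {ι κ τ : Type*} [Fintype ι] [DecidableEq ι] [Fintype κ] [DecidableEq κ]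
    [Fintype τ] [DecidableEq τ] (e : ι ⊕ κ ≃ τ) (a₀ : τ → ℝ) (a : ι → τ → ℝ) (b₀ : τ → ℝ)
    (b : κ → τ → ℝ) (α : ι → ℝ) (β : κ → ℝ)
    (hα : ∀ i, 0 ≤ α i) (hαp : 0 < ∑ i, α i) (hαl : ∑ i, α i < 1)
    (hβ : ∀ j, 0 ≤ β j) (hβp : 0 < ∑ j, β j) (hβl : ∑ j, β j < 1)
    (hc : a₀ + ∑ i, α i • (a i - a₀) = b₀ + ∑ j, β j • (b j - b₀))
    (hLI : LinearIndependent ℝ
      (Sum.elim (fun i => a i - a₀) (fun j => b j - b₀) : ι ⊕ κ → τ → ℝ)) :
    isoPow (convexHull ℝ (insert a₀ (Set.range a) ∪ insert b₀ (Set.range b))) <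
      simplexPow (Fintype.card τ) := by
  have hne : Nonempty ι := by
    by_contra h
    rw [not_nonempty_iff] at h
    simp at hαp
  obtain ⟨hAc, hAs, hAv, hAiso, hAm⟩ := model_half α hα hαp hαl
  obtain ⟨hBc, hBs, hBv, hBiso, hBm⟩ := model_half β hβ hβp hβl
  set A : Set (ι → ℝ) := (fun x : ι → ℝ => x + α) ⁻¹' cornerSimplex ι with hA
  set B : Set (κ → ℝ) := (fun x : κ → ℝ => x + β) ⁻¹' cornerSimplex κ with hB
  set d : ι ⊕ κ → τ → ℝ := Sum.elim (fun i => a i - a₀) (fun j => b j - b₀) with hd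
  set c : τ → ℝ := a₀ + ∑ i, α i • (a i - a₀) with hcdef
  clear_value c
  have hXA : (fun x : ι → ℝ => a₀ + ∑ i, x i • (a i - a₀)) '' cornerSimplex ι =
      convexHull ℝ (insert a₀ (Set.range a)) := by
    rw [corner_image a₀ (fun i => a i - a₀)]
    simp
  have hXB : (fun x : κ → ℝ => b₀ + ∑ j, x j • (b j - b₀)) '' cornerSimplex κ =
      convexHull ℝ (insert b₀ (Set.range b)) := by
    rw [corner_image b₀ (fun j => b j - b₀)]
    simp
  have hΦ : ∀ (a' : ι → ℝ) (b' : κ → ℝ) (t : ℝ),
      c + ∑ s, (Sum.elim ((1 - t) • a') (t • b') : ι ⊕ κ → ℝ) s • d s =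
        (1 - t) • (a₀ + ∑ i, (a' + α) i • (a i - a₀)) +
          t • (b₀ + ∑ j, (b' + β) j • (b j - b₀)) := by
    intro a' b' t
    have l1 : ∑ s, (Sum.elim ((1 - t) • a') (t • b') : ι ⊕ κ → ℝ) s • d s =
        (1 - t) • ∑ i, a' i • (a i - a₀) + t • ∑ j, b' j • (b j - b₀) := by
      rw [Fintype.sum_sum_type]
      simp only [Sum.elim_inl, Sum.elim_inr, hd, Pi.smul_apply, smul_eq_mul, mul_smul,
        ← Finset.smul_sum]
    have l2 : ∑ i, (a' + α) i • (a i - a₀) =
        ∑ i, a' i • (a i - a₀) + ∑ i, α i • (a i - a₀) := by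
      simp only [Pi.add_apply, add_smul, Finset.sum_add_distrib]
    have l3 : ∑ j, (b' + β) j • (b j - b₀) =
        ∑ j, b' j • (b j - b₀) + ∑ j, β j • (b j - b₀) := by
      simp only [Pi.add_apply, add_smul, Finset.sum_add_distrib]
    have ea : a₀ + (∑ i, a' i • (a i - a₀) + ∑ i, α i • (a i - a₀)) =
        c + ∑ i, a' i • (a i - a₀) := by
      rw [hcdef]; abel
    have eb : b₀ + (∑ j, b' j • (b j - b₀) + ∑ j, β j • (b j - b₀)) =
        c + ∑ j, b' j • (b j - b₀) := by
      rw [hc]; abel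
    rw [l1, l2, l3, ea, eb, smul_add, smul_add, sub_smul, sub_smul, one_smul, one_smul]
    abel
  have himage : (fun z : ι ⊕ κ → ℝ => c + ∑ s, z s • d s) '' freeSum A B =
      convexHull ℝ (insert a₀ (Set.range a) ∪ insert b₀ (Set.range b)) := by
    rw [convexHull_union (Set.insert_nonempty _ _) (Set.insert_nonempty _ _), ← hXA, ← hXB]
    ext y
    rw [mem_convexJoin]
    constructor
    · rintro ⟨_, ⟨a', ha', b', hb', t, ht0, ht1, rfl⟩, rfl⟩
      refine ⟨_, ⟨a' + α, ha', rfl⟩, _, ⟨b' + β, hb', rfl⟩, 1 - t, t, by linarith, ht0,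
        by ring, ?_⟩
      exact (hΦ a' b' t).symm
    · rintro ⟨_, ⟨x, hx, rfl⟩, _, ⟨x', hx', rfl⟩, u, v, hu, hv, huv, rfl⟩
      have hu' : u = 1 - v := by linarith
      subst hu'
      refine ⟨Sum.elim ((1 - v) • (x - α)) (v • (x' - β)),
        ⟨x - α, ?_, x' - β, ?_, v, hv, by linarith, rfl⟩, ?_⟩
      · show x - α + α ∈ cornerSimplex ι
        rw [sub_add_cancel]; exact hx
      · show x' - β + β ∈ cornerSimplex κ
        rw [sub_add_cancel]; exact hx'
      · show c + ∑ s, (Sum.elim ((1 - v) • (x - α)) (v • (x' - β)) : ι ⊕ κ → ℝ) s • d s = _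
        rw [hΦ, sub_add_cancel, sub_add_cancel]
  have hFc : IsCompact (freeSum A B) := isCompact_freeSum hAc hBc
  have hFv : 0 < vol (freeSum A B) := fs_vol_pos hAc hBc hAs hBs hAv hBv
  have hcard : Fintype.card τ = Fintype.card ι + Fintype.card κ := by
    rw [← Fintype.card_congr e, Fintype.card_sum]
  rw [← himage, isoPow_affine_image e d hLI c hFc.isClosed.measurableSet hFc.isBounded hFv.ne',
    hcard]
  exact (isoPow_freeSum_simplex hAc hBc hAs hBs hAv hBv hAiso.le hBiso.le).2 hAm hBm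

end

end Vale.Agent.Lib.P254
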